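import Vale.Agent.P032.S5.H80.Ray

/-!
# P032: the germ rule

`w` is a common point of `S(c)` and `S(p)`, the two circles cross at `w`, and the branch of `S(c)` at
`w` on one side carries the colours `P`.  Then the points `v` near `p` on one side of `S(w)` do not
have the colours of `P`.  For finitely many branches: on every side pattern which is met near `p` the
union of the palettes is not everything.
-/

open Set Filter Topology Metric

noncomputable section

namespace Vale.Agent.P032.H989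

open Vale.Agent.P032.Six

variable {k : ℕ} {U : Fin k → Set ℂ} {T : ℂ → Set (Fin k)}

/-- inner product -/
def inn (a b : ℂ) : ℝ := a.re * b.re + a.im * b.im

/-- the branch of `S(c)` at `c + cis θ` in the direction `σ` carries the colours of `P` -/
def Br (U : Fin k → Set ℂ) (c : ℂ) (θ σ : ℝ) (P : Set (Fin k)) : Prop :=
  ∀ᶠ s in 𝓝[>] (0 : ℝ), P ⊆ Pal U (c + cis (θ + σ * s))

theorem Br.mono {c : ℂ} {θ σ : ℝ} {P Q : Set (Fin k)} (h : Br U c θ σ P) (hQ : Q ⊆ P) :
    Br U c θ σ Q := Filter.Eventually.mono h fun _ hs => hQ.trans hs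

/-- an arc through the point gives both branches -/
theorem Br.of_arc {c : ℂ} {θ : ℝ} {P : Set (Fin k)}
    (h : ∀ᶠ q in 𝓝[sphere c 1] (c + cis θ), P ⊆ Pal U q) (σ : ℝ) : Br U c θ σ P := by
  have h1 : Tendsto (fun s : ℝ => c + cis (θ + σ * s)) (𝓝[>] (0 : ℝ))
      (𝓝[sphere c 1] (c + cis θ)) := by
    refine tendsto_nhdsWithin_iff.2 ⟨?_, Eventually.of_forall fun s => dist_add_cis c _⟩
    have h2 : Continuous fun s : ℝ => c + cis (θ + σ * s) :=
      continuous_const.add (continuous_cis.comp (by fun_prop))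
    have h3 := h2.tendsto 0
    simp only [mul_zero, add_zero] at h3
    exact h3.mono_left nhdsWithin_le_nhds
  exact h1.eventually h

/-- the colours of a branch are in the palette of the end -/
theorem Br.mem_end {c : ℂ} {θ σ : ℝ} {P : Set (Fin k)} (h : Br U c θ σ P) :
    P ⊆ Pal U (c + cis θ) := by
  intro i hi
  have h2 : Continuous fun s : ℝ => c + cis (θ + σ * s) :=
    continuous_const.add (continuous_cis.comp (by fun_prop))
  have h3 := h2.tendsto 0
  simp only [mul_zero, add_zero] at h3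
  have h4 : Tendsto (fun s : ℝ => c + cis (θ + σ * s)) (𝓝[>] (0 : ℝ)) (𝓝 (c + cis θ)) :=
    h3.mono_left nhdsWithin_le_nhds
  exact isClosed_closure.mem_of_tendsto h4 (Filter.Eventually.mono h fun s hs => hs hi)

theorem Br.exists {c : ℂ} {θ σ : ℝ} {P : Set (Fin k)} (h : Br U c θ σ P) :
    ∃ δ > 0, ∀ s : ℝ, 0 ≤ s → s < δ → P ⊆ Pal U (c + cis (θ + σ * s)) := by
  obtain ⟨δ, hδ, hd⟩ := mem_nhdsGT_iff_exists_Ioo_subset.1 h
  refine ⟨δ, hδ, fun s h0 h1 => ?_⟩
  rcases h0.eq_or_lt with rfl | h0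
  · have := h.mem_end
    simpa using this
  · exact hd ⟨h0, h1⟩

/-- the derivative of the squared distance along a branch -/
theorem hasDerivAt_br (c p : ℂ) (θ σ : ℝ) :
    HasDerivAt (fun s : ℝ => ((c + cis (θ + σ * s)).re - p.re) ^ 2 +
      ((c + cis (θ + σ * s)).im - p.im) ^ 2 - 1) (2 * (σ * cr (cis θ) (c + cis θ - p))) 0 := by
  have h1 : HasDerivAt (fun s : ℝ => θ + σ * s) σ 0 := by
    have := ((hasDerivAt_id (0 : ℝ)).const_mul σ).const_add θ
    simpa using this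
  have h2 := hasDerivAt_sq c p (θ + σ * 0)
  have h3 := HasDerivAt.comp (0 : ℝ) h2 h1
  simp only [mul_zero, add_zero] at h3
  refine h3.congr_deriv ?_
  ring

/-- a function with positive derivative at a zero is positive on the right -/
theorem pos_right {f : ℝ → ℝ} {d : ℝ} (hf : HasDerivAt f d 0) (h0 : f 0 = 0) (hd : 0 < d) :
    ∀ᶠ s in 𝓝[>] (0 : ℝ), 0 < f s := by
  have hs := hf.tendsto_slope
  have h1 : ∀ᶠ t in 𝓝[≠] (0 : ℝ), 0 < slope f 0 t := hs.eventually (lt_mem_nhds hd)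
  have h2 : ∀ᶠ t in 𝓝[>] (0 : ℝ), 0 < slope f 0 t :=
    h1.filter_mono (nhdsWithin_mono _ fun x hx => ne_of_gt hx)
  filter_upwards [h2, self_mem_nhdsWithin] with s h3 h4
  rw [slope_def_field, h0, sub_zero, sub_zero] at h3
  have h5 : (0 : ℝ) < s := h4
  by_contra hcon
  push Not at hcon
  exact absurd h3 (not_lt.2 (div_nonpos_of_nonpos_of_nonneg hcon h5.le))

/-- **Germ rule**, one branch. -/
theorem germ_ev (h : Mx U) {c p : ℂ} {θ σ : ℝ} {P : Set (Fin k)} (hw : dist (c + cis θ) p = 1)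
    (hP : Br U c θ σ P) : ∀ᶠ v in 𝓝 p,
      ((dist (c + cis θ) v < 1 ∧ 0 < σ * cr (cis θ) (c + cis θ - p)) ∨
        (1 < dist (c + cis θ) v ∧ σ * cr (cis θ) (c + cis θ - p) < 0)) →
      ∀ i ∈ P, i ∉ Pal U v := by
  obtain ⟨δ, hδ, hPd⟩ := hP.exists
  have h0 := (dist_eq_one_iff _ _).1 hw
  rcases lt_trichotomy (σ * cr (cis θ) (c + cis θ - p)) 0 with hneg | hz | hpos
  · have h1 : HasDerivAt (fun s : ℝ => -(((c + cis (θ + σ * s)).re - p.re) ^ 2 +
        ((c + cis (θ + σ * s)).im - p.im) ^ 2 - 1)) (-(2 * (σ * cr (cis θ) (c + cis θ - p)))) 0 :=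
      (hasDerivAt_br c p θ σ).neg
    have h2 := pos_right h1 (by simp only [mul_zero, add_zero]; rw [h0]; simp) (by linarith)
    obtain ⟨s, ⟨hs1, hs2⟩, hs3⟩ := (h2.and (Ioo_mem_nhdsGT hδ)).exists.imp
      fun s hs => (⟨⟨hs.2.1, hs.2.2⟩, hs.1⟩ : (0 < s ∧ s < δ) ∧ _)
    have h3 : dist (c + cis (θ + σ * s)) p < 1 := (dist_lt_one_iff _ _).2 (by linarith)
    have e1 : ∀ᶠ v in 𝓝 p, dist (c + cis (θ + σ * s)) v < 1 :=
      (continuous_const.dist continuous_id).continuousAt.eventually (Iio_mem_nhds h3)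
    filter_upwards [e1] with v hv hor i hi
    rcases hor with ⟨-, h4⟩ | ⟨h4, -⟩
    · exact absurd h4 (not_lt.2 hneg.le)
    · refine h.swept (z := c) (t1 := θ + σ * s) (t2 := θ) ?_ hv h4
      intro t ht
      obtain ⟨r, hr0, hr1, rfl⟩ : ∃ r, 0 ≤ r ∧ r ≤ s ∧ t = θ + σ * r := by
        have hσ : σ ≠ 0 := by rintro rfl; simp at hneg
        refine ⟨(t - θ) / σ, ?_, ?_, by field_simp; ring⟩
        · rcases lt_or_gt_of_ne hσ with h5 | h5
          · rw [uIcc_of_le (by nlinarith)] at ht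
            exact div_nonneg_of_nonpos (by linarith [ht.2]) h5.le
          · rw [uIcc_of_ge (by nlinarith)] at ht
            exact div_nonneg (by linarith [ht.1]) h5.le
        · rcases lt_or_gt_of_ne hσ with h5 | h5
          · rw [uIcc_of_le (by nlinarith)] at ht
            rw [div_le_iff_of_neg h5]
            linarith [ht.1]
          · rw [uIcc_of_ge (by nlinarith)] at ht
            rw [div_le_iff₀ h5]
            linarith [ht.2]
      exact hPd r hr0 (lt_of_le_of_lt hr1 hs2) hi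
  · refine Eventually.of_forall fun v hor => ?_
    rcases hor with ⟨-, h4⟩ | ⟨-, h4⟩
    · exact absurd h4 (by rw [hz]; exact lt_irrefl _)
    · exact absurd h4 (by rw [hz]; exact lt_irrefl _)
  · have h2 := pos_right (hasDerivAt_br c p θ σ) (by simp only [mul_zero, add_zero]; exact h0)
      (by linarith)
    obtain ⟨s, ⟨hs1, hs2⟩, hs3⟩ := (h2.and (Ioo_mem_nhdsGT hδ)).exists.imp
      fun s hs => (⟨⟨hs.2.1, hs.2.2⟩, hs.1⟩ : (0 < s ∧ s < δ) ∧ _)
    have h3 : 1 < dist (c + cis (θ + σ * s)) p := (one_lt_dist_iff _ _).2 hs3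
    have e1 : ∀ᶠ v in 𝓝 p, 1 < dist (c + cis (θ + σ * s)) v :=
      (continuous_const.dist continuous_id).continuousAt.eventually (Ioi_mem_nhds h3)
    filter_upwards [e1] with v hv hor i hi
    rcases hor with ⟨h4, -⟩ | ⟨-, h4⟩
    · refine h.swept (z := c) (t1 := θ) (t2 := θ + σ * s) ?_ h4 hv
      intro t ht
      obtain ⟨r, hr0, hr1, rfl⟩ : ∃ r, 0 ≤ r ∧ r ≤ s ∧ t = θ + σ * r := by
        have hσ : σ ≠ 0 := by rintro rfl; simp at hpos
        refine ⟨(t - θ) / σ, ?_, ?_, by field_simp; ring⟩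
        · rcases lt_or_gt_of_ne hσ with h5 | h5
          · rw [uIcc_of_ge (by nlinarith)] at ht
            exact div_nonneg_of_nonpos (by linarith [ht.2]) h5.le
          · rw [uIcc_of_le (by nlinarith)] at ht
            exact div_nonneg (by linarith [ht.1]) h5.le
        · rcases lt_or_gt_of_ne hσ with h5 | h5
          · rw [uIcc_of_ge (by nlinarith)] at ht
            rw [div_le_iff_of_neg h5]
            linarith [ht.1]
          · rw [uIcc_of_le (by nlinarith)] at ht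
            rw [div_le_iff₀ h5]
            linarith [ht.2]
      exact hPd r hr0 (lt_of_le_of_lt hr1 hs2) hi
    · exact absurd h4 (not_lt.2 hpos.le)

/-- a point moved from `p` in the direction `d` is inside `S(w)` if `d` points towards `w` -/
theorem move_in {w p d : ℂ} (hw : dist w p = 1) (hd : 0 < inn (w - p) d) :
    ∀ᶠ t : ℝ in 𝓝[>] (0 : ℝ), dist w (p + (t : ℂ) * d) < 1 := by
  have h0 := (dist_eq_one_iff _ _).1 hw
  have h1 : ∀ᶠ t in 𝓝[>] (0 : ℝ), t * (d.re ^ 2 + d.im ^ 2) < 2 * inn (w - p) d := by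
    have h2 : Tendsto (fun t : ℝ => t * (d.re ^ 2 + d.im ^ 2)) (𝓝[>] 0) (𝓝 0) := by
      have h3 : Continuous fun t : ℝ => t * (d.re ^ 2 + d.im ^ 2) := by fun_prop
      have h4 := h3.tendsto 0
      simp only [zero_mul] at h4
      exact h4.mono_left nhdsWithin_le_nhds
    exact h2.eventually (Iio_mem_nhds (by linarith))
  filter_upwards [h1, self_mem_nhdsWithin] with t ht ht0
  have ht0 : (0 : ℝ) < t := ht0
  rw [dist_lt_one_iff]
  simp only [inn, Complex.sub_re, Complex.sub_im] at ht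
  simp only [Complex.add_re, Complex.add_im, Complex.mul_re, Complex.mul_im, Complex.ofReal_re,
    Complex.ofReal_im, zero_mul, sub_zero, add_zero]
  nlinarith [mul_pos ht0 (sub_pos.2 ht)]

theorem move_out {w p d : ℂ} (hw : dist w p = 1) (hd : inn (w - p) d < 0) :
    ∀ᶠ t : ℝ in 𝓝[>] (0 : ℝ), 1 < dist w (p + (t : ℂ) * d) := by
  have h0 := (dist_eq_one_iff _ _).1 hw
  filter_upwards [self_mem_nhdsWithin] with t ht0
  have ht0 : (0 : ℝ) < t := ht0
  rw [one_lt_dist_iff]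
  simp only [inn, Complex.sub_re, Complex.sub_im] at hd
  simp only [Complex.add_re, Complex.add_im, Complex.mul_re, Complex.mul_im, Complex.ofReal_re,
    Complex.ofReal_im, zero_mul, sub_zero, add_zero]
  nlinarith [mul_pos ht0 (neg_pos.2 hd), sq_nonneg (t * d.re), sq_nonneg (t * d.im)]

/-- **Germ rule**, one branch, along a direction. -/
theorem germ_dir (h : Mx U) {c p d : ℂ} {θ σ : ℝ} {P : Set (Fin k)}
    (hw : dist (c + cis θ) p = 1) (hP : Br U c θ σ P)
    (hd : 0 < σ * cr (cis θ) (c + cis θ - p) * inn (c + cis θ - p) d) :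
    ∀ᶠ t : ℝ in 𝓝[>] (0 : ℝ), ∀ i ∈ P, i ∉ Pal U (p + (t : ℂ) * d) := by
  have h1 : Tendsto (fun t : ℝ => p + (t : ℂ) * d) (𝓝[>] (0 : ℝ)) (𝓝 p) := by
    have h3 : Continuous fun t : ℝ => p + (t : ℂ) * d := by fun_prop
    have h4 := h3.tendsto 0
    simp only [Complex.ofReal_zero, zero_mul, add_zero] at h4
    exact h4.mono_left nhdsWithin_le_nhds
  have h2 := h1.eventually (germ_ev h hw hP)
  rcases lt_or_ge 0 (σ * cr (cis θ) (c + cis θ - p)) with h3 | h3
  · filter_upwards [h2, move_in hw (pos_of_mul_pos_right hd h3.le)] with t h4 h5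
    exact h4 (Or.inl ⟨h5, h3⟩)
  · have h4 : inn (c + cis θ - p) d < 0 := by
      by_contra hcon
      push Not at hcon
      exact absurd hd (not_lt.2 (mul_nonpos_of_nonpos_of_nonneg h3 hcon))
    have h5 : σ * cr (cis θ) (c + cis θ - p) < 0 := by
      rcases h3.eq_or_lt with h6 | h6
      · rw [h6, zero_mul] at hd; exact absurd hd (lt_irrefl _)
      · exact h6
    filter_upwards [h2, move_out hw h4] with t h6 h7
    exact h6 (Or.inr ⟨h7, h5⟩)

/-- **Germ rule.** Finitely many branches which are all swept in the direction `d`: the union of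
their palettes is not everything. -/
theorem germ_cover (h : Mx U) {ι : Type*} [Finite ι] {p d : ℂ} (c : ι → ℂ) (θ σ : ι → ℝ)
    (P : ι → Set (Fin k)) (hw : ∀ j, dist (c j + cis (θ j)) p = 1)
    (hP : ∀ j, Br U (c j) (θ j) (σ j) (P j))
    (hd : ∀ j, 0 < σ j * cr (cis (θ j)) (c j + cis (θ j) - p) * inn (c j + cis (θ j) - p) d) :
    ∃ i, i ∈ Pal U p ∧ ∀ j, i ∉ P j := by
  have h1 : ∀ᶠ t : ℝ in 𝓝[>] (0 : ℝ), ∀ j, ∀ i ∈ P j, i ∉ Pal U (p + (t : ℂ) * d) :=
    eventually_all.2 fun j => germ_dir h (hw j) (hP j) (hd j)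
  have h2 : Tendsto (fun t : ℝ => p + (t : ℂ) * d) (𝓝[>] (0 : ℝ)) (𝓝 p) := by
    have h3 : Continuous fun t : ℝ => p + (t : ℂ) * d := by fun_prop
    have h4 := h3.tendsto 0
    simp only [Complex.ofReal_zero, zero_mul, add_zero] at h4
    exact h4.mono_left nhdsWithin_le_nhds
  obtain ⟨t, ht1, ht2⟩ := (h1.and (h2.eventually (pal_nhd U p))).exists
  obtain ⟨i, hi⟩ := h.cover (p + t * d)
  exact ⟨i, ht2 hi, fun j hj => ht1 j i hj hi⟩

/-- **Germ rule**, with the irredundant palette. -/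
theorem germ_T (h : Irr U T) {ι : Type*} [Finite ι] {p d : ℂ} (c : ι → ℂ) (θ σ : ι → ℝ)
    (P : ι → Set (Fin k)) (hw : ∀ j, dist (c j + cis (θ j)) p = 1)
    (hP : ∀ j, Br U (c j) (θ j) (σ j) (P j))
    (hd : ∀ j, 0 < σ j * cr (cis (θ j)) (c j + cis (θ j) - p) * inn (c j + cis (θ j) - p) d) :
    ∃ i, i ∈ T p ∧ ∀ j, i ∉ P j := by
  have h1 : ∀ᶠ t : ℝ in 𝓝[>] (0 : ℝ), ∀ j, ∀ i ∈ P j, i ∉ Pal U (p + (t : ℂ) * d) :=
    eventually_all.2 fun j => germ_dir h.mx (hw j) (hP j) (hd j)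
  have h2 : Tendsto (fun t : ℝ => p + (t : ℂ) * d) (𝓝[>] (0 : ℝ)) (𝓝 p) := by
    have h3 : Continuous fun t : ℝ => p + (t : ℂ) * d := by fun_prop
    have h4 := h3.tendsto 0
    simp only [Complex.ofReal_zero, zero_mul, add_zero] at h4
    exact h4.mono_left nhdsWithin_le_nhds
  obtain ⟨t, ht1, ht2⟩ := (h1.and (h2.eventually (h.nhd p))).exists
  obtain ⟨i, hi⟩ := h.ne (p + t * d)
  exact ⟨i, ht2 hi, fun j hj => ht1 j i hj (h.sub _ hi)⟩

end Vale.Agent.P032.H989
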