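import Vale.Agent.P032.H989.Wave
import Vale.Agent.P032.H187.Swap

/-!
# P032: six points which change simultaneously on one circle

`wave`: the column of `S(z)` changes from `c (j - 1)` at the point `j` to `c j` at the point `j`,
`j ∈ ℤ / 6`, all six points have at most three colours.  Then `T x_j = {c (j - 1), c j, K j}` and there
are base times `b` arbitrarily near such that `K j` is absent inside `D(x_j)` for all `j`, or absent
outside `D(x_j)` for all `j`.  `no_wave`: impossible if `T z` has three colours and no `c j` is in `T z`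
(273's no W-wave lemma).  `wave_opp`: `K j ≠ K (j + 3)` if `K j ∈ T z` occurs in the letters at `x_j`.
-/

open Set Filter Topology Metric

noncomputable section

namespace Vale.Agent.P032.H989

open Vale.Agent.P032.Six Vale.Agent.P032.H187 Vale.Agent.P032.S5.H767

variable {k : ℕ} {U : Fin k → Set ℂ} {T : ℂ → Set (Fin k)}

theorem pt_int (z : ℂ) (u : ℝ) (n : ℤ) : pt z (u + 6 * n) = pt z u := by
  induction n using Int.induction_on with
  | zero => simp
  | succ n ih =>
    have : u + 6 * (((n : ℤ) + 1 : ℤ) : ℝ) = (u + 6 * ((n : ℤ) : ℝ)) + 6 := by push_cast; ring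
    rw [this, pt_six, ih]
  | pred n ih =>
    have : u + 6 * ((-(n : ℤ) : ℤ) : ℝ) = (u + 6 * ((-(n : ℤ) - 1 : ℤ) : ℝ)) + 6 := by
      push_cast; ring
    rw [this, pt_six] at ih
    exact ih

/-- from six residues to all integers -/
theorem forall_six {p : ℤ → Prop} (hp : ∀ j n : ℤ, p j → p (j + 6 * n))
    (h : ∀ i : Fin 6, p ((i : ℕ) : ℤ)) (j : ℤ) : p j := by
  have h1 := Int.emod_nonneg j (by norm_num : (6 : ℤ) ≠ 0)
  have h2 := Int.emod_lt_of_pos j (by norm_num : (0 : ℤ) < 6)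
  obtain ⟨m, hm⟩ := Int.eq_ofNat_of_zero_le h1
  have h3 : m < 6 := by omega
  have h4 := hp _ (j / 6) (h ⟨m, h3⟩)
  have h5 : (((⟨m, h3⟩ : Fin 6) : ℕ) : ℤ) + 6 * (j / 6) = j := by
    show (m : ℤ) + 6 * (j / 6) = j
    omega
  rwa [h5] at h4

theorem shift6 {z : ℂ} {x : ℝ} {p : ℂ → Prop} (h : ∀ᶠ s in 𝓝 x, p (pt z s)) (n : ℤ) :
    ∀ᶠ s in 𝓝 (x + 6 * n), p (pt z s) := by
  have h1 : Tendsto (fun s : ℝ => s - 6 * n) (𝓝 (x + 6 * n)) (𝓝 x) := by
    have h2 : Continuous fun s : ℝ => s - 6 * n := by fun_prop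
    have h3 := h2.tendsto (x + 6 * n)
    simpa using h3
  filter_upwards [h1.eventually h] with s hs
  have h2 := pt_int z (s - 6 * n) n
  rw [sub_add_cancel] at h2
  rw [h2]; exact hs

theorem per_int {c : ℤ → Fin k} (hper : ∀ j, c (j + 6) = c j) (j n : ℤ) : c (j + 6 * n) = c j := by
  induction n using Int.induction_on with
  | zero => simp
  | succ n ih =>
    have : j + 6 * ((n : ℤ) + 1) = (j + 6 * (n : ℤ)) + 6 := by ring
    rw [this, hper, ih]
  | pred n ih =>
    have : j + 6 * (-(n : ℤ)) = (j + 6 * (-(n : ℤ) - 1)) + 6 := by ring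
    rw [this, hper] at ih
    exact ih

/-- the column at the time `t` has the colours `c j` at the points `pt z (t + j)` -/
def ColT (T : ℂ → Set (Fin k)) (z : ℂ) (c : ℤ → Fin k) (t : ℝ) : Prop :=
  ∀ j : ℤ, ∀ᶠ s in 𝓝 (t + j), c j ∈ T (pt z s)

theorem isOpen_ColT (z : ℂ) {c : ℤ → Fin k} (hper : ∀ j, c (j + 6) = c j) :
    IsOpen {t | ColT T z c t} := by
  have h1 : {t | ColT T z c t} = ⋂ i : Fin 6,
      {t : ℝ | ∀ᶠ s in 𝓝 (t + (((i : ℕ) : ℤ) : ℝ)), c ((i : ℕ) : ℤ) ∈ T (pt z s)} := by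
    ext t
    simp only [mem_ofPred_eq, mem_iInter]
    constructor
    · intro h i
      exact h ((i : ℕ) : ℤ)
    · intro h
      refine fun j => forall_six (p := fun j : ℤ => ∀ᶠ s in 𝓝 (t + j), c j ∈ T (pt z s))
        (fun j n hj => ?_) h j
      have h2 := shift6 (p := fun q => c j ∈ T q) hj n
      rw [per_int hper j n]
      have h3 : t + ((j + 6 * n : ℤ) : ℝ) = t + j + 6 * n := by push_cast; ring
      rw [h3]; exact h2
  rw [h1]
  refine isOpen_iInter_of_finite fun i => ?_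
  have h2 : IsOpen {t : ℝ | ∀ᶠ s in 𝓝 t, c ((i : ℕ) : ℤ) ∈ T (pt z s)} :=
    isOpen_iff_mem_nhds.2 fun _ ht => eventually_eventually_nhds.2 ht
  exact h2.preimage (f := fun t : ℝ => t + (((i : ℕ) : ℤ) : ℝ)) (by fun_prop)

theorem ColT.on (h : Irr U T) {z : ℂ} {c : ℤ → Fin k} {t x : ℝ} (hc : ColT T z c t) (j : ℤ)
    (hx : x = t + j) : On U z {c j} x := by
  subst hx
  exact (hc j).mono fun s hs i hi => by
    rw [mem_singleton_iff] at hi; rw [hi]; exact h.sub _ hs

theorem ColT.mem {z : ℂ} {c : ℤ → Fin k} {t : ℝ} (hc : ColT T z c t) (j : ℤ) :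
    c j ∈ T (pt z (t + j)) := (hc j).self_of_nhds

/-- a colour of an arc is absent at the next point of the column -/
theorem on_next (h : Mx U) {z : ℂ} {i : Fin k} {x : ℝ} (hx : On U z {i} x) :
    i ∉ Pal U (pt z (x + 1)) :=
  sixty h hx.cr (mem_singleton i) (dist_pt z (x + 1)) (dist_pt_one z x)

/-- limits of columns -/
theorem mem_lim (h : Irr U T) {z : ℂ} {c : ℤ → Fin k} {u : ℝ}
    (hO : ∀ ε > 0, ∃ r, ColT T z c r ∧ |r - u| < ε) (j : ℤ) : c j ∈ T (pt z (u + j)) := by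
  by_contra hcon
  have h1 : Continuous fun r : ℝ => pt z (r + j) := (continuous_pt z).comp (by fun_prop)
  have h2 : ∀ᶠ r in 𝓝 u, c j ∉ T (pt z (r + j)) :=
    h1.continuousAt.eventually ((h.closed (c j)).isOpen_compl.mem_nhds hcon)
  obtain ⟨ε, hε, hb⟩ := Metric.eventually_nhds_iff.1 h2
  obtain ⟨r, hr, hr'⟩ := hO ε hε
  exact hb (by rw [Real.dist_eq]; exact hr') (hr.mem j)

/-- the palettes near `u` are smaller, all points of the column at once -/
theorem near_col (h : Irr U T) (z : ℂ) (u : ℝ) :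
    ∀ᶠ b in 𝓝 u, ∀ j : ℤ, T (pt z (b + j)) ⊆ T (pt z (u + j)) := by
  have h1 : ∀ i : Fin 6, ∀ᶠ b in 𝓝 u,
      T (pt z (b + (((i : ℕ) : ℤ) : ℝ))) ⊆ T (pt z (u + (((i : ℕ) : ℤ) : ℝ))) := by
    intro i
    have h2 : Continuous fun r : ℝ => pt z (r + (((i : ℕ) : ℤ) : ℝ)) :=
      (continuous_pt z).comp (by fun_prop)
    exact h2.continuousAt.eventually (h.nhd _)
  filter_upwards [eventually_all.2 h1] with b hb
  refine fun j => forall_six (p := fun j : ℤ => T (pt z (b + j)) ⊆ T (pt z (u + j)))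
    (fun j n hj => ?_) hb j
  have e1 : b + ((j + 6 * n : ℤ) : ℝ) = b + j + 6 * n := by push_cast; ring
  have e2 : u + ((j + 6 * n : ℤ) : ℝ) = u + j + 6 * n := by push_cast; ring
  rw [e1, e2, pt_int, pt_int]
  exact hj

/-- the old column and the new column are not present at the same time -/
theorem old_new (h : Irr U T) {z : ℂ} {c : ℤ → Fin k} {t : ℝ}
    (h1 : ColT T z (fun j => c (j - 1)) t) (h2 : ColT T z c t) : False := by
  have h3 := h2.on h 0 rfl
  have h4 := h1.mem 1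
  refine on_next h.mx h3 ?_
  have e : t + ((0 : ℤ) : ℝ) + 1 = t + ((1 : ℤ) : ℝ) := by push_cast; ring
  rw [e]
  exact h.sub _ h4

/-- the data of a wave at the time `u` -/
structure Wave (T : ℂ → Set (Fin k)) (z : ℂ) (c : ℤ → Fin k) (u : ℝ) : Prop where
  per : ∀ j, c (j + 6) = c j
  three : ∀ j : ℤ, (T (pt z (u + j))).ncard ≤ 3
  dense : ∃ ρ > 0, ∀ s t, u - ρ < s → s < t → t < u + ρ →
    ∃ r, (ColT T z (fun j => c (j - 1)) r ∨ ColT T z c r) ∧ s < r ∧ r < t
  old : ∀ ε > 0, ∃ r, ColT T z (fun j => c (j - 1)) r ∧ |r - u| < ε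
  new : ∀ ε > 0, ∃ r, ColT T z c r ∧ |r - u| < ε

namespace Wave

variable {z : ℂ} {c : ℤ → Fin k} {u : ℝ}

theorem mem_old (h : Irr U T) (W : Wave T z c u) (j : ℤ) : c (j - 1) ∈ T (pt z (u + j)) :=
  mem_lim h W.old j

theorem mem_new (h : Irr U T) (W : Wave T z c u) (j : ℤ) : c j ∈ T (pt z (u + j)) :=
  mem_lim h W.new j

theorem ne (h : Irr U T) (W : Wave T z c u) (j : ℤ) : c (j - 1) ≠ c j := by
  intro he
  obtain ⟨r, hr, -⟩ := W.old 1 one_pos
  have h1 := hr.on h j rfl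
  have h2 := hr.mem (j + 1)
  simp only [add_sub_cancel_right] at h2
  refine on_next h.mx h1 ?_
  have e : r + (j : ℝ) + 1 = r + ((j + 1 : ℤ) : ℝ) := by push_cast; ring
  rw [e, he]
  exact h.sub _ h2

/-- the third colour -/
theorem third (h : Irr U T) (W : Wave T z c u) (j : ℤ) :
    ∃ K, K ≠ c (j - 1) ∧ K ≠ c j ∧ T (pt z (u + j)) = {c (j - 1), c j, K} := by
  obtain ⟨δ, hδ, hq⟩ := quad h z (u + j - 1)
  obtain ⟨r, hr, hr'⟩ := W.old δ hδ
  obtain ⟨r', hn, hn'⟩ := W.new δ hδ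
  obtain ⟨K, hK, hK'⟩ := hq (r - u) (r' - u) hr' hn' {c j} {c (j - 1)}
    (by
      have := hr.on h (j + 1) (x := u + j - 1 + 2 + (r - u)) (by push_cast; ring)
      simpa using this)
    (hn.on h (j - 1) (by push_cast; ring))
  have e : u + (j : ℝ) - 1 + 1 = u + j := by ring
  rw [e] at hK
  have h1 : K ≠ c j := fun h1 => hK' (Or.inl h1)
  have h2 : K ≠ c (j - 1) := fun h1 => hK' (Or.inr h1)
  refine ⟨K, h2, h1, ?_⟩
  have h3 : ({c (j - 1), c j, K} : Set (Fin k)) ⊆ T (pt z (u + j)) := by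
    rintro i (rfl | rfl | rfl)
    · exact W.mem_old h j
    · exact W.mem_new h j
    · exact hK
  have h4 : ({c (j - 1), c j, K} : Set (Fin k)).ncard = 3 :=
    Set.ncard_eq_three.2 ⟨_, _, _, W.ne h j, h2.symm, h1.symm, rfl⟩
  exact (Set.eq_of_subset_of_ncard_le h3 (by rw [h4]; exact W.three j) (Set.toFinite _)).symm

end Wave

/-- **Sweeping trick for a wave** (273): -/
theorem wave (h : Irr U T) {z : ℂ} {c : ℤ → Fin k} {u : ℝ} (W : Wave T z c u) {K : ℤ → Fin k}
    (hK : ∀ j : ℤ, T (pt z (u + j)) ⊆ {c (j - 1), c j, K j}) :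
    ∀ ε > 0, ∃ b, |b - u| < ε ∧
      ((∀ j : ℤ, ∀ᶠ v in 𝓝 z, dist v (pt z (b + j)) < 1 → K j ∉ Pal U v) ∨
        (∀ j : ℤ, ∀ᶠ v in 𝓝 z, 1 < dist v (pt z (b + j)) → K j ∉ Pal U v)) := by
  intro ε hε
  obtain ⟨ρ, hρ, hd⟩ := W.dense
  obtain ⟨η, hη, hnear⟩ := Metric.eventually_nhds_iff.1 (near_col h z u)
  set ε' := min ε (min ρ η) with hε'
  have hε0 : 0 < ε' := lt_min hε (lt_min hρ hη)
  have hle : ε' ≤ ε := min_le_left _ _
  have hleρ : ε' ≤ ρ := (min_le_right _ _).trans (min_le_left _ _)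
  have hleη : ε' ≤ η := (min_le_right _ _).trans (min_le_right _ _)
  obtain ⟨r, hr, hr'⟩ := W.old ε' hε0
  obtain ⟨r', hn, hn'⟩ := W.new ε' hε0
  have hOo : IsOpen {t | ColT T z (fun j => c (j - 1)) t} :=
    isOpen_ColT z fun j => by
      have := W.per (j - 1)
      rw [← this]; congr 1; ring
  have hNo : IsOpen {t | ColT T z c t} := isOpen_ColT z W.per
  have hr1 := abs_lt.1 hr'
  have hn1 := abs_lt.1 hn'
  have hsub : ∀ b : ℝ, |b - u| < ε' → ∀ j : ℤ, T (pt z (b + j - 1 + 1)) ⊆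
      insert (K j) ({c j} ∪ {c (j - 1)}) := by
    intro b hb j i hi
    have e : b + (j : ℝ) - 1 + 1 = b + j := by ring
    rw [e] at hi
    have h1 := hK j (hnear (y := b) (by rw [Real.dist_eq]; exact hb.trans_le hleη) j hi)
    rcases h1 with h1 | h1 | h1
    · exact Or.inr (Or.inr h1)
    · exact Or.inr (Or.inl h1)
    · exact Or.inl h1
  rcases lt_trichotomy r r' with hlt | heq | hlt
  · -- old on the left
    obtain ⟨b, hb1, hb2, hP, hQ⟩ := base_time hOo hNo (fun t h1 h2 => old_new h h1 h2) hr hn hlt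
      (fun s t h1 h2 h3 => by
        obtain ⟨x, hx, h4⟩ := hd s t (by linarith [hr1.1]) h2 (by linarith [hn1.2])
        exact ⟨x, hx, h4⟩)
    have hb : |b - u| < ε' := by rw [abs_lt]; constructor <;> linarith [hr1.1, hn1.2]
    refine ⟨b, hb.trans_le hle, Or.inl fun j => ?_⟩
    have key := sweep_in h (z := z) (w := b + j - 1) (A := {{c j}}) (B := {{c (j - 1)}}) (K := K j)
      (fun P hP' Q hQ' => by
        rw [mem_singleton_iff] at hP' hQ'; rw [hP', hQ']; exact hsub b hb j)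
      (δ0 := b - r) (by linarith)
      (fun s t h1 h2 h3 => by
        obtain ⟨x, hx, h4, h5⟩ := hP (b + s) (b + t) (by linarith) (by linarith) (by linarith)
        refine ⟨x - b, ⟨{c j}, rfl, ?_⟩, by linarith, by linarith⟩
        have := ColT.on h hx (j + 1) (x := b + j - 1 + 2 + (x - b)) (by push_cast; ring)
        simpa using this)
      (fun η' hη' => by
        obtain ⟨x, hx, h4, h5⟩ := hQ η' hη'
        refine ⟨x - b, ⟨{c (j - 1)}, rfl, ?_⟩, by linarith, by linarith⟩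
        exact ColT.on h hx (j - 1) (by push_cast; ring))
    have e : b + (j : ℝ) - 1 + 1 = b + j := by ring
    rw [e] at key
    exact key
  · exact (old_new h hr (heq ▸ hn)).elim
  · -- new on the left
    obtain ⟨b, hb1, hb2, hP, hQ⟩ := base_time hNo hOo (fun t h1 h2 => old_new h h2 h1) hn hr hlt
      (fun s t h1 h2 h3 => by
        obtain ⟨x, hx, h4⟩ := hd s t (by linarith [hn1.1]) h2 (by linarith [hr1.2])
        exact ⟨x, hx.symm, h4⟩)
    have hb : |b - u| < ε' := by rw [abs_lt]; constructor <;> linarith [hn1.1, hr1.2]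
    refine ⟨b, hb.trans_le hle, Or.inr fun j => ?_⟩
    have key := sweep_out h (z := z) (w := b + j - 1) (A := {{c j}}) (B := {{c (j - 1)}}) (K := K j)
      (fun P hP' Q hQ' => by
        rw [mem_singleton_iff] at hP' hQ'; rw [hP', hQ']; exact hsub b hb j)
      (δ0 := b - r') (by linarith)
      (fun s t h1 h2 h3 => by
        obtain ⟨x, hx, h4, h5⟩ := hP (b + s) (b + t) (by linarith) (by linarith) (by linarith)
        refine ⟨x - b, ⟨{c (j - 1)}, rfl, ?_⟩, by linarith, by linarith⟩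
        exact ColT.on h hx (j - 1) (by push_cast; ring))
      (fun η' hη' => by
        obtain ⟨x, hx, h4, h5⟩ := hQ η' hη'
        refine ⟨x - b, ⟨{c j}, rfl, ?_⟩, by linarith, by linarith⟩
        have := ColT.on h hx (j + 1) (x := b + j - 1 + 2 + (x - b)) (by push_cast; ring)
        simpa using this)
    have e : b + (j : ℝ) - 1 + 1 = b + j := by ring
    rw [e] at key
    exact key

/-! ### geometry near the centre -/

/-- the squared distance in coordinates around the centre -/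
theorem sq_pt (z v : ℂ) (x : ℝ) : dist v (pt z x) ^ 2 = (v - z).re ^ 2 + (v - z).im ^ 2 + 1 -
    2 * ((v - z).re * Real.cos (x * (Real.pi / 3)) + (v - z).im * Real.sin (x * (Real.pi / 3))) := by
  rw [dist_eq_norm, Complex.sq_norm, Complex.normSq_apply]
  unfold pt
  simp only [Complex.sub_re, Complex.sub_im, Complex.add_re, Complex.add_im, cis_re, cis_im]
  have h1 := Real.sin_sq_add_cos_sq (x * (Real.pi / 3))
  nlinarith

theorem lt_one_of {z v : ℂ} {x : ℝ} (h : (v - z).re ^ 2 + (v - z).im ^ 2 <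
    2 * ((v - z).re * Real.cos (x * (Real.pi / 3)) + (v - z).im * Real.sin (x * (Real.pi / 3)))) :
    dist v (pt z x) < 1 := by
  have h1 := sq_pt z v x
  have h2 := dist_nonneg (x := v) (y := pt z x)
  nlinarith

theorem one_lt_of {z v : ℂ} {x : ℝ} (h : 2 * ((v - z).re * Real.cos (x * (Real.pi / 3)) +
    (v - z).im * Real.sin (x * (Real.pi / 3))) < (v - z).re ^ 2 + (v - z).im ^ 2) :
    1 < dist v (pt z x) := by
  have h1 := sq_pt z v x
  have h2 := dist_nonneg (x := v) (y := pt z x)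
  nlinarith

/-- the coordinates of three directions at 120 degrees -/
theorem three_dirs (x : ℝ) :
    Real.cos ((x + 2) * (Real.pi / 3)) =
      -(1 / 2) * Real.cos (x * (Real.pi / 3)) - √3 / 2 * Real.sin (x * (Real.pi / 3)) ∧
    Real.sin ((x + 2) * (Real.pi / 3)) =
      -(1 / 2) * Real.sin (x * (Real.pi / 3)) + √3 / 2 * Real.cos (x * (Real.pi / 3)) := by
  have e : (x + 2) * (Real.pi / 3) = x * (Real.pi / 3) + (Real.pi - Real.pi / 3) := by ring
  rw [e, Real.cos_add, Real.sin_add, Real.cos_pi_sub, Real.sin_pi_sub, Real.cos_pi_div_three,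
    Real.sin_pi_div_three]
  constructor <;> ring

/-- one of three directions at 120 degrees is near a given vector -/
theorem tri_cover (p q c s : ℝ) (hc : c ^ 2 + s ^ 2 = 1) (h0 : 0 < p ^ 2 + q ^ 2)
    (h1 : p ^ 2 + q ^ 2 < 1) :
    p ^ 2 + q ^ 2 < 2 * (p * c + q * s) ∨
    p ^ 2 + q ^ 2 < 2 * (p * (-(1 / 2) * c - √3 / 2 * s) + q * (-(1 / 2) * s + √3 / 2 * c)) ∨
    p ^ 2 + q ^ 2 < 2 * (p * (-(1 / 2) * c + √3 / 2 * s) + q * (-(1 / 2) * s - √3 / 2 * c)) := by
  by_contra hcon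
  push Not at hcon
  obtain ⟨a1, a2, a3⟩ := hcon
  set A := p * c + q * s with hA
  set B := q * c - p * s with hB
  have hAB : A ^ 2 + B ^ 2 = p ^ 2 + q ^ 2 := by
    rw [hA, hB]
    have : (p * c + q * s) ^ 2 + (q * c - p * s) ^ 2 = (p ^ 2 + q ^ 2) * (c ^ 2 + s ^ 2) := by ring
    rw [this, hc, mul_one]
  have e2 : p * (-(1 / 2) * c - √3 / 2 * s) + q * (-(1 / 2) * s + √3 / 2 * c) =
      -(1 / 2) * A + √3 / 2 * B := by rw [hA, hB]; ring
  have e3 : p * (-(1 / 2) * c + √3 / 2 * s) + q * (-(1 / 2) * s - √3 / 2 * c) =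
      -(1 / 2) * A - √3 / 2 * B := by rw [hA, hB]; ring
  rw [e2] at a2
  rw [e3] at a3
  set R := p ^ 2 + q ^ 2 with hR
  have h3 : √3 * √3 = 3 := Real.mul_self_sqrt (by norm_num)
  have h3p : 0 < √3 := Real.sqrt_pos.2 (by norm_num)
  -- `A ≤ R / 2`, `- A / 2 + √3 / 2 B ≤ R / 2`, `- A / 2 - √3 / 2 B ≤ R / 2`
  have k1 : 0 ≤ R - 2 * A := by linarith
  have k2 : 0 ≤ R + A - √3 * B := by linarith
  have k3 : 0 ≤ R + A + √3 * B := by linarith
  have m1 : 0 ≤ (R + A - √3 * B) * (R + A + √3 * B) := mul_nonneg k2 k3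
  have m2 : (R + A - √3 * B) * (R + A + √3 * B) = (R + A) ^ 2 - 3 * B ^ 2 := by
    have : (R + A - √3 * B) * (R + A + √3 * B) = (R + A) ^ 2 - (√3 * √3) * B ^ 2 := by ring
    rw [this, h3]
  have m3 : 0 ≤ (R + A) ^ 2 - 3 * (R - A ^ 2) := by nlinarith
  have k4 : 0 ≤ R + A := by linarith
  -- `(R + A)² + 3 A² < 3 R`
  have m4 : 0 ≤ (R - 2 * A) * (R + A) := mul_nonneg k1 k4
  nlinarith

/-- three discs at 120 degrees cover a punctured neighbourhood -/
theorem discs_cover {z v : ℂ} (x : ℝ) (hv : v ≠ z) (hv1 : dist v z < 1) :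
    dist v (pt z x) < 1 ∨ dist v (pt z (x + 2)) < 1 ∨ dist v (pt z (x + 4)) < 1 := by
  have h0 : 0 < (v - z).re ^ 2 + (v - z).im ^ 2 := by
    have h1 : 0 < ‖v - z‖ := norm_pos_iff.2 (sub_ne_zero.2 hv)
    have h2 := Complex.sq_norm (v - z)
    rw [Complex.normSq_apply] at h2
    nlinarith
  have h1 : (v - z).re ^ 2 + (v - z).im ^ 2 < 1 := by
    rw [dist_eq_norm] at hv1
    have h2 := Complex.sq_norm (v - z)
    rw [Complex.normSq_apply] at h2
    nlinarith [norm_nonneg (v - z)]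
  obtain ⟨e1, e2⟩ := three_dirs x
  obtain ⟨e3, e4⟩ := three_dirs (x + 2)
  rw [e1, e2, show x + 2 + 2 = x + 4 by ring] at e3
  rw [e1, e2, show x + 2 + 2 = x + 4 by ring] at e4
  have h3 : √3 * √3 = 3 := Real.mul_self_sqrt (by norm_num)
  rcases tri_cover (v - z).re (v - z).im _ _ (Real.cos_sq_add_sin_sq (x * (Real.pi / 3))) h0 h1 with
    h | h | h
  · exact Or.inl (lt_one_of h)
  · exact Or.inr (Or.inl (lt_one_of (by rw [e1, e2]; exact h)))
  · refine Or.inr (Or.inr (lt_one_of ?_))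
    rw [e3, e4]
    refine h.trans_le (le_of_eq ?_)
    linear_combination (-(1 / 2) * ((v - z).re * Real.cos (x * (Real.pi / 3)) +
      (v - z).im * Real.sin (x * (Real.pi / 3)))) * h3 * (-1)

/-- the exteriors of three discs at 120 degrees cover a punctured neighbourhood -/
theorem ext_cover {z v : ℂ} (x : ℝ) (hv : v ≠ z) :
    1 < dist v (pt z x) ∨ 1 < dist v (pt z (x + 2)) ∨ 1 < dist v (pt z (x + 4)) := by
  by_contra hcon
  push Not at hcon
  obtain ⟨a1, a2, a3⟩ := hcon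
  obtain ⟨e1, e2⟩ := three_dirs x
  obtain ⟨e3, e4⟩ := three_dirs (x + 2)
  rw [e1, e2, show x + 2 + 2 = x + 4 by ring] at e3
  rw [e1, e2, show x + 2 + 2 = x + 4 by ring] at e4
  have b1 := sq_pt z v x
  have b2 := sq_pt z v (x + 2)
  have b3 := sq_pt z v (x + 4)
  rw [e1, e2] at b2
  rw [e3, e4] at b3
  have h3 : √3 * √3 = 3 := Real.mul_self_sqrt (by norm_num)
  have h0 : 0 < (v - z).re ^ 2 + (v - z).im ^ 2 := by
    have h1 : 0 < ‖v - z‖ := norm_pos_iff.2 (sub_ne_zero.2 hv)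
    have h2 := Complex.sq_norm (v - z)
    rw [Complex.normSq_apply] at h2
    nlinarith
  have c1 : dist v (pt z x) ^ 2 ≤ 1 := by nlinarith [dist_nonneg (x := v) (y := pt z x)]
  have c2 : dist v (pt z (x + 2)) ^ 2 ≤ 1 := by nlinarith [dist_nonneg (x := v) (y := pt z (x + 2))]
  have c3 : dist v (pt z (x + 4)) ^ 2 ≤ 1 := by nlinarith [dist_nonneg (x := v) (y := pt z (x + 4))]
  have key : dist v (pt z x) ^ 2 + dist v (pt z (x + 2)) ^ 2 + dist v (pt z (x + 4)) ^ 2 =
      3 * ((v - z).re ^ 2 + (v - z).im ^ 2) + 3 := by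
    rw [b1, b2, b3]
    linear_combination (1 / 2 * ((v - z).re * Real.cos (x * (Real.pi / 3)) +
      (v - z).im * Real.sin (x * (Real.pi / 3)))) * h3
  linarith

/-- a colour of `T z` is not absent in a punctured neighbourhood -/
theorem punct_false (h : Irr U T) {z : ℂ} {K : Fin k} (hK : K ∈ T z) (hne : T z ≠ {K})
    (hv : ∀ᶠ v in 𝓝 z, v ≠ z → K ∉ Pal U v) : False := by
  obtain ⟨w, hw, hw'⟩ := ((h.pure z K hK).and_eventually hv).exists
  have h1 : w ≠ z := by
    rintro rfl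
    exact hne hw
  exact hw' h1 (h.sub w (by rw [hw]; rfl))

theorem lt_one_near (z : ℂ) : ∀ᶠ v in 𝓝 z, dist v z < 1 := Metric.ball_mem_nhds z one_pos

theorem three_in_false (h : Irr U T) {z : ℂ} {K : Fin k} (hK : K ∈ T z) (hne : T z ≠ {K}) {x : ℝ}
    (h0 : ∀ᶠ v in 𝓝 z, dist v (pt z x) < 1 → K ∉ Pal U v)
    (h2 : ∀ᶠ v in 𝓝 z, dist v (pt z (x + 2)) < 1 → K ∉ Pal U v)
    (h4 : ∀ᶠ v in 𝓝 z, dist v (pt z (x + 4)) < 1 → K ∉ Pal U v) : False := by
  refine punct_false h hK hne ?_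
  filter_upwards [h0, h2, h4, lt_one_near z] with v v0 v2 v4 vz hvz
  rcases discs_cover x hvz vz with h5 | h5 | h5
  · exact v0 h5
  · exact v2 h5
  · exact v4 h5

theorem three_out_false (h : Irr U T) {z : ℂ} {K : Fin k} (hK : K ∈ T z) (hne : T z ≠ {K}) {x : ℝ}
    (h0 : ∀ᶠ v in 𝓝 z, 1 < dist v (pt z x) → K ∉ Pal U v)
    (h2 : ∀ᶠ v in 𝓝 z, 1 < dist v (pt z (x + 2)) → K ∉ Pal U v)
    (h4 : ∀ᶠ v in 𝓝 z, 1 < dist v (pt z (x + 4)) → K ∉ Pal U v) : False := by
  refine punct_false h hK hne ?_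
  filter_upwards [h0, h2, h4] with v v0 v2 v4 hvz
  rcases ext_cover x hvz with h5 | h5 | h5
  · exact v0 h5
  · exact v2 h5
  · exact v4 h5

/-- antipodal exteriors -/
theorem opp_out_false (h : Irr U T) {z : ℂ} {K : Fin k} (hK : K ∈ T z) (hne : T z ≠ {K}) {x : ℝ}
    (h0 : ∀ᶠ v in 𝓝 z, 1 < dist v (pt z x) → K ∉ Pal U v)
    (h3 : ∀ᶠ v in 𝓝 z, 1 < dist v (pt z (x + 3)) → K ∉ Pal U v) : False := by
  refine punct_false h hK hne ?_
  filter_upwards [h0, h3] with v v0 v3 hvz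
  by_contra hcon
  have a0 : dist v (pt z x) ≤ 1 := not_lt.1 fun h5 => v0 h5 hcon
  have a3 : dist v (pt z (x + 3)) ≤ 1 := not_lt.1 fun h5 => v3 h5 hcon
  have b0 := sq_pt z v x
  have b3 := sq_pt z v (x + 3)
  have e : (x + 3) * (Real.pi / 3) = x * (Real.pi / 3) + Real.pi := by ring
  rw [e, Real.cos_add_pi, Real.sin_add_pi] at b3
  have h1 : 0 < (v - z).re ^ 2 + (v - z).im ^ 2 := by
    have h1 : 0 < ‖v - z‖ := norm_pos_iff.2 (sub_ne_zero.2 hvz)
    have h2 := Complex.sq_norm (v - z)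
    rw [Complex.normSq_apply] at h2
    nlinarith
  have c0 : dist v (pt z x) ^ 2 ≤ 1 := by nlinarith [dist_nonneg (x := v) (y := pt z x)]
  have c3 : dist v (pt z (x + 3)) ^ 2 ≤ 1 := by
    nlinarith [dist_nonneg (x := v) (y := pt z (x + 3))]
  nlinarith

/-- the inequalities for the cusps -/
theorem cusp_real {A B N σ κ : ℝ} (hAB : A ^ 2 + B ^ 2 = N ^ 2) (hN0 : 0 < N) (hN1 : N < 1)
    (k0 : 2 * A ≤ N ^ 2) (k3 : -(2 * A) ≤ N ^ 2) (hσ : N < σ / 4) (hκ : 0 ≤ κ)
    (hκ1 : κ ≤ 1) : (N ^ 2 < 2 * (A * κ + B * σ) ∧ 2 * (A * κ - B * σ) < N ^ 2) ∨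
      (N ^ 2 < 2 * (A * κ - B * σ) ∧ 2 * (A * κ + B * σ) < N ^ 2) := by
  have hσ0 : 0 < σ := by linarith
  have hA2 : A ^ 2 ≤ N ^ 2 / 4 := by
    have h5 : |A| ≤ N ^ 2 / 2 := abs_le.2 ⟨by linarith, by linarith⟩
    have h6 : N ^ 2 ≤ N := by nlinarith
    have h7 : |A| ≤ N / 2 := by linarith
    have h8 : |A| ^ 2 ≤ (N / 2) ^ 2 := pow_le_pow_left₀ (abs_nonneg A) h7 2
    rw [sq_abs] at h8
    linarith
  have hB2 : (N / 2) ^ 2 ≤ |B| ^ 2 := by rw [sq_abs]; linarith
  have hB3 : N / 2 ≤ |B| := by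
    by_contra hcon
    push Not at hcon
    have h5 := abs_nonneg B
    have : |B| ^ 2 < (N / 2) ^ 2 := pow_lt_pow_left₀ hcon h5 (by norm_num)
    linarith
  have hN2 : 0 ≤ N ^ 2 := sq_nonneg N
  have r1 : |A * κ| ≤ N ^ 2 / 2 := by
    rw [abs_mul, abs_of_nonneg hκ]
    have h5 : |A| ≤ N ^ 2 / 2 := abs_le.2 ⟨by linarith, by linarith⟩
    calc |A| * κ ≤ |A| * 1 := mul_le_mul_of_nonneg_left hκ1 (abs_nonneg A)
      _ ≤ N ^ 2 / 2 := by rw [mul_one]; exact h5
  have r2 := abs_le.1 r1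
  have h6 : 2 * N ^ 2 < N * σ := by
    have : N * (4 * N) < N * σ := mul_lt_mul_of_pos_left (by linarith) hN0
    nlinarith
  have h7 : N / 2 * σ ≤ |B| * σ := mul_le_mul_of_nonneg_right hB3 hσ0.le
  rcases le_or_gt 0 B with hB0 | hB0
  · rw [abs_of_nonneg hB0] at h7
    left
    constructor <;> linarith [r2.1, r2.2]
  · rw [abs_of_neg hB0, neg_mul] at h7
    right
    constructor <;> linarith [r2.1, r2.2]

/-- antipodal discs, if the colour is on `S(z)` near one of the two points -/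
theorem opp_in_false (h : Irr U T) {z : ℂ} {K : Fin k} (hK : K ∈ T z) (hne : T z ≠ {K}) {x : ℝ}
    (hx : On U z {K} x)
    (h0 : ∀ᶠ v in 𝓝 z, dist v (pt z x) < 1 → K ∉ Pal U v)
    (h3 : ∀ᶠ v in 𝓝 z, dist v (pt z (x + 3)) < 1 → K ∉ Pal U v) : False := by
  refine punct_false h hK hne ?_
  obtain ⟨η, hη, hb⟩ := Metric.eventually_nhds_iff.1 hx
  -- the angle
  set δ := min (η / 2) (1 / 2) with hδ
  have hδ0 : 0 < δ := lt_min (by linarith) (by norm_num)
  have hδη : δ < η := (min_le_left _ _).trans_lt (by linarith)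
  have hδ1 : δ ≤ 1 / 2 := min_le_right _ _
  set ψ := δ * (Real.pi / 3) with hψ
  have hpi := Real.pi_pos
  have hψ0 : 0 < ψ := by positivity
  have hψ1 : ψ ≤ Real.pi / 6 := by rw [hψ]; nlinarith
  have hs0 : 0 < Real.sin ψ := Real.sin_pos_of_pos_of_lt_pi hψ0 (by linarith)
  have hc0 : 0 ≤ Real.cos ψ := Real.cos_nonneg_of_mem_Icc ⟨by linarith, by linarith⟩
  have hc1 : Real.cos ψ ≤ 1 := Real.cos_le_one ψ
  have hsw : ∀ t ∈ uIcc ((x - δ) * (Real.pi / 3)) ((x + δ) * (Real.pi / 3)),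
      K ∈ Pal U (z + cis t) := by
    intro t ht
    rw [uIcc_of_le (by nlinarith)] at ht
    have h5 : t = (t / (Real.pi / 3)) * (Real.pi / 3) := by field_simp
    have h6 : x - δ ≤ t / (Real.pi / 3) := by rw [le_div_iff₀ (by positivity)]; exact ht.1
    have h7 : t / (Real.pi / 3) ≤ x + δ := by rw [div_le_iff₀ (by positivity)]; exact ht.2
    have h8 := hb (y := t / (Real.pi / 3)) (by
      rw [Real.dist_eq]
      exact lt_of_le_of_lt (abs_le.2 ⟨by linarith, by linarith⟩) hδη)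
    have h9 : pt z (t / (Real.pi / 3)) = z + cis t := by unfold pt; rw [← h5]
    rw [← h9]; exact h8 rfl
  filter_upwards [h0, h3, Metric.ball_mem_nhds z (lt_min one_pos
    (by positivity : 0 < Real.sin ψ / 4))] with v v0 v3 vz hvz hcon
  have a0 : 1 ≤ dist v (pt z x) := not_lt.1 fun h5 => v0 h5 hcon
  have a3 : 1 ≤ dist v (pt z (x + 3)) := not_lt.1 fun h5 => v3 h5 hcon
  have b0 := sq_pt z v x
  have b3 := sq_pt z v (x + 3)
  have e : (x + 3) * (Real.pi / 3) = x * (Real.pi / 3) + Real.pi := by ring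
  rw [e, Real.cos_add_pi, Real.sin_add_pi] at b3
  have f1 : (x + δ) * (Real.pi / 3) = x * (Real.pi / 3) + ψ := by rw [hψ]; ring
  have f2 : (x - δ) * (Real.pi / 3) = x * (Real.pi / 3) - ψ := by rw [hψ]; ring
  have hN := Complex.sq_norm (v - z)
  rw [Complex.normSq_apply] at hN
  have hN0 : 0 < ‖v - z‖ := norm_pos_iff.2 (sub_ne_zero.2 hvz)
  rw [mem_ball, dist_eq_norm] at vz
  have hN1 : ‖v - z‖ < 1 := vz.trans_le (min_le_left _ _)
  have hN2 : ‖v - z‖ < Real.sin ψ / 4 := vz.trans_le (min_le_right _ _)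
  have hcs : Real.cos (x * (Real.pi / 3)) ^ 2 + Real.sin (x * (Real.pi / 3)) ^ 2 = 1 :=
    Real.cos_sq_add_sin_sq _
  have l1 : ∀ A' : ℝ, ‖v - z‖ ^ 2 < 2 * A' → (v - z).re ^ 2 + (v - z).im ^ 2 < 2 * A' :=
    fun A' h5 => by rw [hN] at h5; linarith
  have l2 : ∀ A' : ℝ, 2 * A' < ‖v - z‖ ^ 2 → 2 * A' < (v - z).re ^ 2 + (v - z).im ^ 2 :=
    fun A' h5 => by rw [hN] at h5; linarith
  have d0 : 1 ≤ dist v (pt z x) ^ 2 := one_le_pow₀ a0
  have d3 : 1 ≤ dist v (pt z (x + 3)) ^ 2 := one_le_pow₀ a3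
  have key := cusp_real
    (A := (v - z).re * Real.cos (x * (Real.pi / 3)) + (v - z).im * Real.sin (x * (Real.pi / 3)))
    (B := (v - z).im * Real.cos (x * (Real.pi / 3)) - (v - z).re * Real.sin (x * (Real.pi / 3)))
    (N := ‖v - z‖) (σ := Real.sin ψ) (κ := Real.cos ψ)
    (by
      rw [hN]
      have : ((v - z).re * Real.cos (x * (Real.pi / 3)) + (v - z).im *
          Real.sin (x * (Real.pi / 3))) ^ 2 + ((v - z).im * Real.cos (x * (Real.pi / 3)) -
          (v - z).re * Real.sin (x * (Real.pi / 3))) ^ 2 =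
          ((v - z).re * (v - z).re + (v - z).im * (v - z).im) *
          (Real.cos (x * (Real.pi / 3)) ^ 2 + Real.sin (x * (Real.pi / 3)) ^ 2) := by ring
      rw [this, hcs, mul_one])
    hN0 hN1 (by rw [hN]; linarith) (by rw [hN]; linarith) hN2 hc0 hc1
  rcases key with ⟨k1, k2⟩ | ⟨k1, k2⟩
  · have h9 : dist v (pt z (x + δ)) < 1 := by
      refine lt_one_of ?_
      rw [f1, Real.cos_add, Real.sin_add]
      refine (l1 _ k1).trans_le (le_of_eq ?_)
      ring
    have h10 : 1 < dist v (pt z (x - δ)) := by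
      refine one_lt_of ?_
      rw [f2, Real.cos_sub, Real.sin_sub]
      refine lt_of_le_of_lt (le_of_eq ?_) (l2 _ k2)
      ring
    exact h.mx.swept (w := v) (by rw [uIcc_comm]; exact hsw) (by rw [dist_comm]; exact h9)
      (by rw [dist_comm]; exact h10) hcon
  · have h9 : dist v (pt z (x - δ)) < 1 := by
      refine lt_one_of ?_
      rw [f2, Real.cos_sub, Real.sin_sub]
      refine (l1 _ k1).trans_le (le_of_eq ?_)
      ring
    have h10 : 1 < dist v (pt z (x + δ)) := by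
      refine one_lt_of ?_
      rw [f1, Real.cos_add, Real.sin_add]
      refine lt_of_le_of_lt (le_of_eq ?_) (l2 _ k2)
      ring
    exact h.mx.swept (w := v) hsw (by rw [dist_comm]; exact h9)
      (by rw [dist_comm]; exact h10) hcon

/-! ### consequences for waves -/

namespace Wave

variable {z : ℂ} {c : ℤ → Fin k} {u : ℝ}

theorem third_next (h : Irr U T) (W : Wave T z c u) {j : ℤ} {K : Fin k} (h1 : K ≠ c (j - 1))
    (h2 : K ≠ c j) (hT : T (pt z (u + j)) = {c (j - 1), c j, K}) :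
    K ∉ T (pt z (u + (j + 1 : ℤ))) := by
  intro hK
  have hKp : K ∈ T (pt z (u + j)) := by rw [hT]; exact Or.inr (Or.inr rfl)
  have e1 : u + ((j + 1 : ℤ) : ℝ) = (u + j) + 1 := by push_cast; ring
  have hd : dist (pt z (u + j)) (pt z (u + (j + 1 : ℤ))) = 1 := by rw [e1]; exact dist_pt_one z _
  have hcj : c j ∈ T (pt z (u + (j + 1 : ℤ))) := by
    have := W.mem_old h (j + 1)
    rwa [add_sub_cancel_right] at this
  obtain ⟨x, hx, hx', hTx, hline⟩ := third187 h hd (W.three j) (W.three (j + 1)) (s := c j) (t := K)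
    h2.symm (W.mem_new h j) hKp hcj hK
  have h3 : c (j - 1) ∈ T (pt z (u + j)) := W.mem_old h j
  rw [hTx] at h3
  have h4 : c (j - 1) = x := by
    rcases h3 with h5 | h5 | h5
    · exact absurd h5 (W.ne h j)
    · exact absurd h5.symm h1
    · exact h5
  have e2 : u + ((j - 1 : ℤ) : ℝ) = u + j - 1 := by push_cast; ring
  have e3 : (u + j - 1) + 1 = u + (j : ℝ) := by ring
  have e4 : (u + j - 1) + 2 = u + ((j + 1 : ℤ) : ℝ) := by push_cast; ring
  have hoff := pt_off z (u + j - 1)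
  rw [e3, e4] at hoff
  have hd2 : dist (pt z (u + j)) (pt z (u + j - 1)) = 1 := by
    have := dist_pt_one z (u + j - 1)
    rw [e3, dist_comm] at this
    exact this
  refine hline (pt z (u + j - 1)) hd2 hoff.1.symm (fun h5 => hoff.2 (by rw [← h5]; ring)) ?_
  rw [← h4, ← e2]
  exact h.sub _ (W.mem_new h (j - 1))

theorem third_prev (h : Irr U T) (W : Wave T z c u) {j : ℤ} {K : Fin k} (h1 : K ≠ c (j - 1))
    (h2 : K ≠ c j) (hT : T (pt z (u + j)) = {c (j - 1), c j, K}) :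
    K ∉ T (pt z (u + (j - 1 : ℤ))) := by
  intro hK
  have hKp : K ∈ T (pt z (u + j)) := by rw [hT]; exact Or.inr (Or.inr rfl)
  have e2 : u + ((j - 1 : ℤ) : ℝ) = u + j - 1 := by push_cast; ring
  have e3 : (u + j - 1) + 1 = u + (j : ℝ) := by ring
  have e4 : (u + j - 1) + 2 = u + ((j + 1 : ℤ) : ℝ) := by push_cast; ring
  have hd : dist (pt z (u + j)) (pt z (u + (j - 1 : ℤ))) = 1 := by
    have := dist_pt_one z (u + j - 1)
    rw [e3, dist_comm] at this
    rw [e2]; exact this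
  obtain ⟨x, hx, hx', hTx, hline⟩ := third187 h hd (W.three j) (W.three (j - 1)) (s := c (j - 1))
    (t := K) h1.symm (W.mem_old h j) hKp (W.mem_new h (j - 1)) hK
  have h3 : c j ∈ T (pt z (u + j)) := W.mem_new h j
  rw [hTx] at h3
  have h4 : c j = x := by
    rcases h3 with h5 | h5 | h5
    · exact absurd h5.symm (W.ne h j)
    · exact absurd h5.symm h2
    · exact h5
  have hoff := pt_off z (u + j - 1)
  rw [e3, e4] at hoff
  have hd2 : dist (pt z (u + j)) (pt z (u + (j + 1 : ℤ))) = 1 := by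
    have e1 : u + ((j + 1 : ℤ) : ℝ) = (u + j) + 1 := by push_cast; ring
    rw [e1]; exact dist_pt_one z _
  refine hline (pt z (u + (j + 1 : ℤ))) hd2 (by rw [e2]; exact hoff.1)
    (fun h5 => hoff.2 (by rw [e2] at h5; exact h5)) ?_
  have h6 := W.mem_old h (j + 1)
  rw [add_sub_cancel_right, h4] at h6
  exact h.sub _ h6

end Wave

/-- **The common colours of opposite points are different** (648). -/
theorem wave_opp (h : Irr U T) {z : ℂ} {c : ℤ → Fin k} {u : ℝ} (W : Wave T z c u) {K : ℤ → Fin k}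
    (hK : ∀ j : ℤ, T (pt z (u + j)) ⊆ {c (j - 1), c j, K j}) {j : ℤ} (hj : K j ∈ T z)
    (hne : T z ≠ {K j}) (hon : On U z {K j} (u + j)) : K j ≠ K (j + 3) := by
  intro he
  have e3 : ∀ b : ℝ, b + ((j + 3 : ℤ) : ℝ) = b + j + 3 := fun b => by push_cast; ring
  have h1 : ∀ᶠ b in 𝓝 u, On U z {K j} (b + j) :=
    (isOpen_On z {K j}).preimage (by fun_prop : Continuous fun b : ℝ => b + j) |>.mem_nhds hon
  obtain ⟨ε, hε, hb⟩ := Metric.eventually_nhds_iff.1 h1
  obtain ⟨b, hbu, hor⟩ := wave h W hK ε hε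
  have h2 := hb (y := b) (by rw [Real.dist_eq]; exact hbu)
  rcases hor with hin | hout
  · have k1 := hin (j + 3)
    rw [← he, e3] at k1
    exact opp_in_false h hj hne h2 (hin j) k1
  · have k1 := hout (j + 3)
    rw [← he, e3] at k1
    exact opp_out_false h hj hne (hout j) k1

/-- no wave if all third colours are in `T z` and `T z` has at most three colours -/
theorem no_wave' (h : Irr U T) {z : ℂ} {c : ℤ → Fin k} {u : ℝ} (W : Wave T z c u)
    (h3 : (T z).ncard ≤ 3) {K : ℤ → Fin k}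
    (hK : ∀ j : ℤ, T (pt z (u + j)) = {c (j - 1), c j, K j}) (hK1 : ∀ j, K j ≠ c (j - 1))
    (hK2 : ∀ j, K j ≠ c j) (hKz : ∀ j, K j ∈ T z) : False := by
  have hnext : ∀ j, K j ≠ K (j + 1) := by
    intro j he
    refine W.third_next h (hK1 j) (hK2 j) (hK j) ?_
    rw [hK (j + 1), he]
    exact Or.inr (Or.inr rfl)
  obtain ⟨b, -, hor⟩ := wave h W (fun j => (hK j).subset) 1 one_pos
  have hne : ∀ j, T z ≠ {K j} := by
    intro j he
    have h1 := hKz (j + 1)
    rw [he] at h1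
    exact hnext j (mem_singleton_iff.1 h1).symm
  -- the third colours at the distance two
  have htwo : ∀ j, K (j - 1) = K (j + 1) := by
    intro j
    by_contra hcon
    have h1 : K (j - 1) ≠ K j := by
      have := hnext (j - 1)
      rwa [sub_add_cancel] at this
    have h2 : K j ≠ K (j + 1) := hnext j
    have hall : T z = {K (j - 1), K j, K (j + 1)} := by
      have h4 : ({K (j - 1), K j, K (j + 1)} : Set (Fin k)) ⊆ T z := by
        rintro i (rfl | rfl | rfl)
        · exact hKz _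
        · exact hKz _
        · exact hKz _
      have h5 : ({K (j - 1), K j, K (j + 1)} : Set (Fin k)).ncard = 3 :=
        Set.ncard_eq_three.2 ⟨_, _, _, h1, hcon, h2, rfl⟩
      exact (Set.eq_of_subset_of_ncard_le h4 (by omega) (Set.toFinite _)).symm
    have e1 : b + ((j - 1 : ℤ) : ℝ) = b + j - 1 := by push_cast; ring
    have e2 : b + ((j + 1 : ℤ) : ℝ) = b + j + 1 := by push_cast; ring
    -- a point near `z` on a ray
    have hcontr : ∀ σ : ℝ, Tendsto (fun r : ℝ => z + (σ * r : ℝ) * cis ((b + j) * (Real.pi / 3)))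
        (𝓝[>] 0) (𝓝 z) := by
      intro σ
      have h6 : Continuous fun r : ℝ => z + (σ * r : ℝ) * cis ((b + j) * (Real.pi / 3)) := by
        fun_prop
      have h7 := h6.tendsto 0
      simp only [mul_zero, Complex.ofReal_zero, zero_mul, add_zero] at h7
      exact h7.mono_left nhdsWithin_le_nhds
    have hval : ∀ (σ r y : ℝ), dist (z + (σ * r : ℝ) * cis ((b + j) * (Real.pi / 3))) (pt z y) ^ 2 =
        (σ * r) ^ 2 + 1 - 2 * (σ * r) * Real.cos ((b + j - y) * (Real.pi / 3)) := by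
      intro σ r y
      rw [sq_pt]
      have e5 : (b + j - y) * (Real.pi / 3) = (b + j) * (Real.pi / 3) - y * (Real.pi / 3) := by ring
      rw [e5, Real.cos_sub]
      have e6 := Real.sin_sq_add_cos_sq ((b + j) * (Real.pi / 3))
      simp only [add_sub_cancel_left, Complex.mul_re, Complex.mul_im, Complex.ofReal_re,
        Complex.ofReal_im, cis_re, cis_im, zero_mul, sub_zero, add_zero]
      linear_combination (σ * r) ^ 2 * e6
    have c0 : Real.cos ((b + j - (b + j)) * (Real.pi / 3)) = 1 := by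
      rw [sub_self, zero_mul, Real.cos_zero]
    have c1 : Real.cos ((b + j - (b + j - 1)) * (Real.pi / 3)) = 1 / 2 := by
      rw [show (b + j - (b + (j : ℝ) - 1)) * (Real.pi / 3) = Real.pi / 3 by ring,
        Real.cos_pi_div_three]
    have c2 : Real.cos ((b + j - (b + j + 1)) * (Real.pi / 3)) = 1 / 2 := by
      rw [show (b + j - (b + (j : ℝ) + 1)) * (Real.pi / 3) = -(Real.pi / 3) by ring, Real.cos_neg,
        Real.cos_pi_div_three]
    have hfin : ∀ v : ℂ, T v ⊆ T z → K (j - 1) ∉ Pal U v → K j ∉ Pal U v → K (j + 1) ∉ Pal U v →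
        False := by
      intro v hv n1 n2 n3
      obtain ⟨i, hi⟩ := h.ne v
      have h6 := hv hi
      rw [hall] at h6
      rcases h6 with rfl | rfl | rfl
      · exact n1 (h.sub v hi)
      · exact n2 (h.sub v hi)
      · exact n3 (h.sub v hi)
    rcases hor with hin | hout
    · have k1 := hin (j - 1)
      have k2 := hin j
      have k3 := hin (j + 1)
      rw [e1] at k1
      rw [e2] at k3
      obtain ⟨r, ⟨hr, m1, m2, m3⟩, hr0, hr1⟩ := (((hcontr 1).eventually
        ((h.nhd z).and (k1.and (k2.and k3)))).and (Ioo_mem_nhdsGT one_pos)).exists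
      have g0 := hval 1 r (b + j)
      have g1 := hval 1 r (b + j - 1)
      have g2 := hval 1 r (b + j + 1)
      rw [c0] at g0
      rw [c1] at g1
      rw [c2] at g2
      set v := z + ((1 * r : ℝ) : ℂ) * cis ((b + j) * (Real.pi / 3)) with hv
      refine hfin v hr (m1 ?_) (m2 ?_) (m3 ?_)
      · have := dist_nonneg (x := v) (y := pt z (b + j - 1)); nlinarith
      · have := dist_nonneg (x := v) (y := pt z (b + j)); nlinarith
      · have := dist_nonneg (x := v) (y := pt z (b + j + 1)); nlinarith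
    · have k1 := hout (j - 1)
      have k2 := hout j
      have k3 := hout (j + 1)
      rw [e1] at k1
      rw [e2] at k3
      obtain ⟨r, ⟨hr, m1, m2, m3⟩, hr0, hr1⟩ := (((hcontr (-1)).eventually
        ((h.nhd z).and (k1.and (k2.and k3)))).and (Ioo_mem_nhdsGT one_pos)).exists
      have g0 := hval (-1) r (b + j)
      have g1 := hval (-1) r (b + j - 1)
      have g2 := hval (-1) r (b + j + 1)
      rw [c0] at g0
      rw [c1] at g1
      rw [c2] at g2
      set v := z + ((-1 * r : ℝ) : ℂ) * cis ((b + j) * (Real.pi / 3)) with hv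
      refine hfin v hr (m1 ?_) (m2 ?_) (m3 ?_)
      · have := dist_nonneg (x := v) (y := pt z (b + j - 1)); nlinarith
      · have := dist_nonneg (x := v) (y := pt z (b + j)); nlinarith
      · have := dist_nonneg (x := v) (y := pt z (b + j + 1)); nlinarith
  have t2 : K 0 = K 2 := by have := htwo 1; simpa using this
  have t4 : K 0 = K 4 := by
    have := htwo 3
    rw [t2]; simpa using this
  have z0 : b + ((0 : ℤ) : ℝ) = b := by simp
  have z2 : b + ((2 : ℤ) : ℝ) = b + 2 := by norm_num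
  have z4 : b + ((4 : ℤ) : ℝ) = b + 4 := by norm_num
  rcases hor with hin | hout
  · have k0 := hin 0
    have k2 := hin 2
    have k4 := hin 4
    rw [← t2, z2] at k2
    rw [← t4, z4] at k4
    rw [z0] at k0
    exact three_in_false h (hKz 0) (hne 0) k0 k2 k4
  · have k0 := hout 0
    have k2 := hout 2
    have k4 := hout 4
    rw [← t2, z2] at k2
    rw [← t4, z4] at k4
    rw [z0] at k0
    exact three_out_false h (hKz 0) (hne 0) k0 k2 k4

/-- **No wave on a circle around a point with three colours** (273): the letters are free. -/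
theorem no_wave {U : Fin 6 → Set ℂ} {T : ℂ → Set (Fin 6)} (h : Irr U T) {z : ℂ} {c : ℤ → Fin 6}
    {u : ℝ} (W : Wave T z c u) (h3 : (T z).ncard = 3) (hc : ∀ j, c j ∉ T z) : False := by
  choose K hK1 hK2 hK using W.third h
  refine no_wave' h W h3.le hK hK1 hK2 fun j => ?_
  by_contra hKz
  -- the free colours are `c (j - 1)`, `c j`, `K j`
  have hcompl : ∀ i, i ∉ T z → i = c (j - 1) ∨ i = c j ∨ i = K j := by
    intro i hi
    have h1 : ((T z)ᶜ).ncard = 3 := by
      have h2 := Set.ncard_add_ncard_compl (T z)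
      have h4 : Nat.card (Fin 6) = 6 := Nat.card_fin 6
      rw [h4] at h2
      omega
    have h2 : ({c (j - 1), c j, K j} : Set (Fin 6)) ⊆ (T z)ᶜ := by
      rintro m (rfl | rfl | rfl)
      · exact hc _
      · exact hc _
      · exact hKz
    have h5 : ({c (j - 1), c j, K j} : Set (Fin 6)).ncard = 3 :=
      Set.ncard_eq_three.2 ⟨_, _, _, W.ne h j, (hK1 j).symm, (hK2 j).symm, rfl⟩
    have h6 := Set.eq_of_subset_of_ncard_le h2 (by omega) (Set.toFinite _)
    have h7 : i ∈ (T z)ᶜ := hi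
    rw [← h6] at h7
    exact h7
  have hKn := W.third_next h (hK1 j) (hK2 j) (hK j)
  -- the next letter
  have h4 : c (j + 1) = c (j - 1) := by
    rcases hcompl _ (hc (j + 1)) with h5 | h5 | h5
    · exact h5
    · have := W.ne h (j + 1)
      rw [add_sub_cancel_right] at this
      exact absurd h5.symm this
    · exact absurd (h5 ▸ W.mem_new h (j + 1)) hKn
  -- the third colour of the next point is in `T z`
  have hT1 := hK (j + 1)
  rw [add_sub_cancel_right] at hT1
  have h5 : K (j + 1) ∈ T z := by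
    by_contra h6
    rcases hcompl _ h6 with h7 | h7 | h7
    · have := hK2 (j + 1)
      rw [h4] at this
      exact this h7
    · have := hK1 (j + 1)
      rw [add_sub_cancel_right] at this
      exact this h7
    · refine hKn ?_
      rw [hT1, ← h7]
      exact Or.inr (Or.inr rfl)
  -- two common colours at the points `j`, `j + 1`
  have e1 : u + ((j + 1 : ℤ) : ℝ) = (u + j) + 1 := by push_cast; ring
  have hd : dist (pt z (u + (j + 1 : ℤ))) (pt z (u + j)) = 1 := by
    rw [e1, dist_comm]; exact dist_pt_one z _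
  obtain ⟨x, hx, hx', hTx, hline⟩ := third187 h hd (W.three (j + 1)) (W.three j) (s := c (j - 1))
    (t := c j) (W.ne h j) (h4 ▸ W.mem_new h (j + 1))
    (by have := W.mem_old h (j + 1); rwa [add_sub_cancel_right] at this)
    (W.mem_old h j) (W.mem_new h j)
  have h6 : K (j + 1) = x := by
    have h7 : K (j + 1) ∈ T (pt z (u + (j + 1 : ℤ))) := by rw [hT1]; exact Or.inr (Or.inr rfl)
    rw [hTx] at h7
    have h8 := hK1 (j + 1)
    rw [add_sub_cancel_right] at h8
    have h9 := hK2 (j + 1)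
    rw [h4] at h9
    rcases h7 with h10 | h10 | h10
    · exact absurd h10 h9
    · exact absurd h10 h8
    · exact h10
  obtain ⟨k1, k2⟩ := tri (z := z) (dist_pt z (u + (j + 1 : ℤ))) (dist_pt z (u + j))
  refine hline z (dist_pt z _) (fun h7 => ?_) (fun h7 => ?_) (h6 ▸ h.sub z h5)
  · exact k1 h7
  · exact k2 h7

end Vale.Agent.P032.H989
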