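import Vale.Agent.P032.H989.Prism
import Vale.Agent.P032.S5.H767.RawT

/-!
# P032: sweeping with two parameters

`x' = z + cis α + cis β` is at distance one from `z + cis α` and from `z + cis β`.  If the first point
runs through arcs with the colour `p` and the second one through arcs with the colour `q`, then `x'`
has neither `p` nor `q`.  Here: the analysis.  `G a α β n s + 1` is the square of the distance from
`z + a` to `z + cis (α + n π / 3) + cis (β + s π / 3)`.
-/

open Set Filter Topology Metric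

noncomputable section

namespace Vale.Agent.P032.H989

open Vale.Agent.P032.Six Vale.Agent.P032.H187 Vale.Agent.P032.S5.H767

variable {k : ℕ} {U : Fin k → Set ℂ} {T : ℂ → Set (Fin k)}

/-- a function which decreases in the first and increases in the second variable -/
theorem cross_abs {G : ℝ → ℝ → ℝ} (hc : Continuous fun p : ℝ × ℝ => G p.1 p.2) {δ : ℝ}
    (hδ : 0 < δ) (hanti : ∀ s ∈ Icc (-δ) δ, StrictAntiOn (fun n => G n s) (Icc (-δ) δ))
    (hmono : ∀ n ∈ Icc (-δ) δ, StrictMonoOn (fun s => G n s) (Icc (-δ) δ))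
    {P Q : Set ℝ} (hP : ∀ s t, -δ < s → s < t → t < 0 → ∃ r ∈ P, s < r ∧ r < t)
    (hQo : IsOpen Q) (hQ : ∀ η > 0, ∃ r ∈ Q, 0 < r ∧ r < η) (h0 : G 0 0 < 0)
    (h1 : 0 < G (-δ) 0) :
    ∃ n ∈ P, ∃ s ∈ Q, -δ < n ∧ n < 0 ∧ 0 < s ∧ s < δ ∧ G n s = 0 := by
  have hc2 : ∀ n, Continuous fun s => G n s := fun n =>
    hc.comp (continuous_const.prodMk continuous_id)
  have hc1 : ∀ s, Continuous fun n => G n s := fun s =>
    hc.comp (continuous_id.prodMk continuous_const)
  -- small `s`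
  have e1 : ∀ᶠ s in 𝓝 (0 : ℝ), G 0 s < 0 := (hc2 0).continuousAt.eventually (Iio_mem_nhds h0)
  obtain ⟨η, hη, hball⟩ := Metric.eventually_nhds_iff.1 e1
  obtain ⟨r, hrQ, hr0, hr1⟩ := hQ (min η δ) (lt_min hη hδ)
  obtain ⟨ρ, hρ, hρQ⟩ := Metric.isOpen_iff.1 hQo r hrQ
  set s1 := r
  set s2 := r + min (ρ / 2) ((min η δ - r) / 2) with hs2
  have hm : 0 < min (ρ / 2) ((min η δ - r) / 2) := lt_min (by linarith) (by linarith)
  have h12 : s1 < s2 := by rw [hs2]; linarith
  have hs2' : s2 < min η δ := by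
    have := min_le_right (ρ / 2) ((min η δ - r) / 2)
    rw [hs2]; linarith
  have hIQ : ∀ s, s1 ≤ s → s ≤ s2 → s ∈ Q := by
    intro s h2 h3
    refine hρQ ?_
    have := min_le_left (ρ / 2) ((min η δ - r) / 2)
    rw [mem_ball, Real.dist_eq, abs_of_nonneg (by linarith)]
    rw [hs2] at h3; linarith
  have hs1δ : s1 ∈ Icc (-δ) δ := ⟨by linarith, by linarith [min_le_right η δ]⟩
  have hs2δ : s2 ∈ Icc (-δ) δ := ⟨by linarith, by linarith [min_le_right η δ]⟩
  have h0δ : (0 : ℝ) ∈ Icc (-δ) δ := ⟨by linarith, by linarith⟩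
  have hmδ : -δ ∈ Icc (-δ) δ := ⟨le_refl _, by linarith⟩
  have ha : G 0 s1 < 0 := hball (by
    rw [Real.dist_eq, sub_zero, abs_of_pos hr0]; linarith [min_le_left η δ])
  have hb : 0 < G (-δ) s1 := h1.trans (hmono _ hmδ h0δ hs1δ hr0)
  -- the first zero
  obtain ⟨n0, hn0, hz0⟩ : ∃ n0 ∈ Icc (-δ) 0, G n0 s1 = 0 := by
    have := intermediate_value_Icc' (by linarith : -δ ≤ (0 : ℝ)) ((hc1 s1).continuousOn
      (s := Icc (-δ) 0))
    obtain ⟨n, hn, hn'⟩ := this ⟨ha.le, hb.le⟩
    exact ⟨n, hn, hn'⟩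
  have hn0' : -δ < n0 := by
    rcases hn0.1.lt_or_eq with h | h
    · exact h
    · rw [← h] at hz0; linarith
  have hn0'' : n0 < 0 := by
    rcases hn0.2.lt_or_eq with h | h
    · exact h
    · rw [h] at hz0; linarith
  have hn0δ : n0 ∈ Icc (-δ) δ := ⟨hn0.1, by linarith⟩
  have h2 : 0 < G n0 s2 := by
    have := hmono _ hn0δ hs1δ hs2δ h12
    simp only at this
    linarith
  have e2 : ∀ᶠ n in 𝓝 n0, 0 < G n s2 := (hc1 s2).continuousAt.eventually (Ioi_mem_nhds h2)
  obtain ⟨η', hη', hball'⟩ := Metric.eventually_nhds_iff.1 e2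
  obtain ⟨n, hnP, hn1, hn2⟩ := hP n0 (min (n0 + η') (n0 / 2)) hn0'
    (lt_min (by linarith) (by linarith)) (lt_of_le_of_lt (min_le_right _ _) (by linarith))
  have hn3 : n < n0 + η' := hn2.trans_le (min_le_left _ _)
  have hn4 : n < 0 := by linarith [min_le_right (n0 + η') (n0 / 2)]
  have hnδ : n ∈ Icc (-δ) δ := ⟨by linarith, by linarith⟩
  have h3 : 0 < G n s2 := hball' (by rw [Real.dist_eq, abs_of_pos (by linarith)]; linarith)
  have h4 : G n s1 < 0 := by
    have := hanti _ hs1δ hn0δ hnδ hn1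
    simp only at this
    linarith
  obtain ⟨s, hs, hs'⟩ := intermediate_value_Icc h12.le ((hc2 n).continuousOn
    (s := Icc s1 s2)) ⟨h4.le, h3.le⟩
  exact ⟨n, hnP, s, hIQ s hs.1 hs.2, by linarith, hn4, by linarith [hs.1], by
    linarith [hs.2, min_le_right η δ], hs'⟩

/-- the square of the distance, minus one -/
def G (a : ℂ) (α β n s : ℝ) : ℝ :=
  a.re ^ 2 + a.im ^ 2 + 1 + 2 * Real.cos (α + n * (Real.pi / 3) - (β + s * (Real.pi / 3))) -
    2 * (a.re * Real.cos (α + n * (Real.pi / 3)) + a.im * Real.sin (α + n * (Real.pi / 3))) -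
    2 * (a.re * Real.cos (β + s * (Real.pi / 3)) + a.im * Real.sin (β + s * (Real.pi / 3)))

theorem G_eq (a : ℂ) (α β n s : ℝ) :
    G a α β n s = ‖a - (cis (α + n * (Real.pi / 3)) + cis (β + s * (Real.pi / 3)))‖ ^ 2 - 1 := by
  rw [Complex.sq_norm, Complex.normSq_apply]
  simp only [Complex.sub_re, Complex.sub_im, Complex.add_re, Complex.add_im, cis_re, cis_im]
  unfold G
  rw [Real.cos_sub]
  have h1 := Real.sin_sq_add_cos_sq (α + n * (Real.pi / 3))
  have h2 := Real.sin_sq_add_cos_sq (β + s * (Real.pi / 3))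
  nlinarith

theorem G_cont (a : ℂ) (α β : ℝ) : Continuous fun p : ℝ × ℝ => G a α β p.1 p.2 := by
  unfold G
  fun_prop

/-- the bound for the linear terms -/
theorem lin_le (a : ℂ) (x : ℝ) :
    |-(a.re * Real.sin x) + a.im * Real.cos x| ≤ ‖a‖ := by
  have h1 : (-(a.re * Real.sin x) + a.im * Real.cos x) ^ 2 ≤ ‖a‖ ^ 2 := by
    rw [Complex.sq_norm, Complex.normSq_apply]
    have h2 := Real.sin_sq_add_cos_sq x
    nlinarith [sq_nonneg (a.re * Real.cos x + a.im * Real.sin x)]
  exact abs_le_of_sq_le_sq h1 (norm_nonneg _)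

theorem lin_le' (a : ℂ) (x : ℝ) :
    |a.re * Real.cos x + a.im * Real.sin x| ≤ ‖a‖ := by
  have h1 : (a.re * Real.cos x + a.im * Real.sin x) ^ 2 ≤ ‖a‖ ^ 2 := by
    rw [Complex.sq_norm, Complex.normSq_apply]
    have h2 := Real.sin_sq_add_cos_sq x
    nlinarith [sq_nonneg (-(a.re * Real.sin x) + a.im * Real.cos x)]
  exact abs_le_of_sq_le_sq h1 (norm_nonneg _)

/-- the sine of the angle between the two points -/
theorem sin_ge {α β n s : ℝ} (hαβ : α = β + 2 * (Real.pi / 3)) (hn : n ∈ Icc (-(1 / 4) : ℝ) (1 / 4))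
    (hs : s ∈ Icc (-(1 / 4) : ℝ) (1 / 4)) :
    1 / 2 ≤ Real.sin (α + n * (Real.pi / 3) - (β + s * (Real.pi / 3))) := by
  have hpi := Real.pi_pos
  have e : α + n * (Real.pi / 3) - (β + s * (Real.pi / 3)) =
      Real.pi - (Real.pi / 3 - (n - s) * (Real.pi / 3)) := by rw [hαβ]; ring
  rw [e, Real.sin_pi_sub, ← Real.sin_pi_div_six]
  have h1 : n - s ≤ 1 / 2 := by linarith [hn.2, hs.1]
  have h2 : -(1 / 2) ≤ n - s := by linarith [hn.1, hs.2]
  refine Real.sin_le_sin_of_le_of_le_pi_div_two (by linarith) ?_ ?_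
  · nlinarith
  · nlinarith

theorem G_anti {a : ℂ} (ha : ‖a‖ ≤ 1 / 4) {α β : ℝ} (hαβ : α = β + 2 * (Real.pi / 3)) {δ : ℝ}
    (hδ : δ ≤ 1 / 4) {s : ℝ} (hs : s ∈ Icc (-δ) δ) :
    StrictAntiOn (fun n => G a α β n s) (Icc (-δ) δ) := by
  refine strictAntiOn_of_deriv_neg (convex_Icc _ _) ?_ ?_
  · exact ((G_cont a α β).comp (continuous_id.prodMk continuous_const)).continuousOn
  intro n hn
  rw [interior_Icc] at hn
  have hd : HasDerivAt (fun n => G a α β n s)
      ((Real.pi / 3) * (-2 * Real.sin (α + n * (Real.pi / 3) - (β + s * (Real.pi / 3))) -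
        2 * (-(a.re * Real.sin (α + n * (Real.pi / 3))) +
          a.im * Real.cos (α + n * (Real.pi / 3))))) n := by
    unfold G
    have h1 : HasDerivAt (fun n : ℝ => α + n * (Real.pi / 3)) (Real.pi / 3) n := by
      have := ((hasDerivAt_id n).mul_const (Real.pi / 3)).const_add α
      simpa using this
    have h2 := (h1.sub_const (β + s * (Real.pi / 3))).cos
    have h3 := h1.cos
    have h4 := h1.sin
    have h5 := (((h2.const_mul 2).const_add (a.re ^ 2 + a.im ^ 2 + 1)).sub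
      (((h3.const_mul a.re).add (h4.const_mul a.im)).const_mul 2)).sub_const
      (2 * (a.re * Real.cos (β + s * (Real.pi / 3)) + a.im * Real.sin (β + s * (Real.pi / 3))))
    refine h5.congr_deriv ?_
    ring
  rw [hd.deriv]
  have hpi := Real.pi_pos
  have h1 := sin_ge hαβ (n := n) (s := s) ⟨by linarith [hn.1], by linarith [hn.2]⟩
    ⟨by linarith [hs.1], by linarith [hs.2]⟩
  have h2 := abs_le.1 (lin_le a (α + n * (Real.pi / 3)))
  have h3 : -2 * Real.sin (α + n * (Real.pi / 3) - (β + s * (Real.pi / 3))) -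
        2 * (-(a.re * Real.sin (α + n * (Real.pi / 3))) +
          a.im * Real.cos (α + n * (Real.pi / 3))) < 0 := by linarith [h2.1]
  nlinarith

theorem G_mono {a : ℂ} (ha : ‖a‖ ≤ 1 / 4) {α β : ℝ} (hαβ : α = β + 2 * (Real.pi / 3)) {δ : ℝ}
    (hδ : δ ≤ 1 / 4) {n : ℝ} (hn : n ∈ Icc (-δ) δ) :
    StrictMonoOn (fun s => G a α β n s) (Icc (-δ) δ) := by
  refine strictMonoOn_of_deriv_pos (convex_Icc _ _) ?_ ?_
  · exact ((G_cont a α β).comp (continuous_const.prodMk continuous_id)).continuousOn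
  intro s hs
  rw [interior_Icc] at hs
  have hd : HasDerivAt (fun s => G a α β n s)
      ((Real.pi / 3) * (2 * Real.sin (α + n * (Real.pi / 3) - (β + s * (Real.pi / 3))) -
        2 * (-(a.re * Real.sin (β + s * (Real.pi / 3))) +
          a.im * Real.cos (β + s * (Real.pi / 3))))) s := by
    unfold G
    have h1 : HasDerivAt (fun s : ℝ => β + s * (Real.pi / 3)) (Real.pi / 3) s := by
      have := ((hasDerivAt_id s).mul_const (Real.pi / 3)).const_add β
      simpa using this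
    have h2 := (h1.const_sub (α + n * (Real.pi / 3))).cos
    have h3 := h1.cos
    have h4 := h1.sin
    have h5 := (((h2.const_mul 2).const_add (a.re ^ 2 + a.im ^ 2 + 1)).sub_const
      (2 * (a.re * Real.cos (α + n * (Real.pi / 3)) + a.im * Real.sin (α + n * (Real.pi / 3))))).sub
      (((h3.const_mul a.re).add (h4.const_mul a.im)).const_mul 2)
    refine h5.congr_deriv ?_
    ring
  rw [hd.deriv]
  have hpi := Real.pi_pos
  have h1 := sin_ge hαβ (n := n) (s := s) ⟨by linarith [hn.1], by linarith [hn.2]⟩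
    ⟨by linarith [hs.1], by linarith [hs.2]⟩
  have h2 := abs_le.1 (lin_le a (β + s * (Real.pi / 3)))
  have h3 : 0 < 2 * Real.sin (α + n * (Real.pi / 3) - (β + s * (Real.pi / 3))) -
        2 * (-(a.re * Real.sin (β + s * (Real.pi / 3))) +
          a.im * Real.cos (β + s * (Real.pi / 3))) := by linarith [h2.2]
  nlinarith

/-- far away in the first variable -/
theorem G_far {α β : ℝ} (hαβ : α = β + 2 * (Real.pi / 3)) {δ : ℝ} (h0 : 0 < δ) (hδ : δ ≤ 1 / 4) :
    ∃ ε > 0, ∀ a : ℂ, ‖a‖ < ε → 0 < G a α β (-δ) 0 ∧ G a α β 0 (-δ) < 0 := by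
  have hpi := Real.pi_pos
  -- the value at `a = 0`
  have h1 : 0 < 1 + 2 * Real.cos (α + -δ * (Real.pi / 3) - (β + 0 * (Real.pi / 3))) := by
    have e : α + -δ * (Real.pi / 3) - (β + 0 * (Real.pi / 3)) =
        Real.pi - (Real.pi / 3 + δ * (Real.pi / 3)) := by rw [hαβ]; ring
    rw [e, Real.cos_pi_sub]
    have : Real.cos (Real.pi / 3 + δ * (Real.pi / 3)) < Real.cos (Real.pi / 3) :=
      Real.cos_lt_cos_of_nonneg_of_le_pi (by positivity) (by nlinarith) (by nlinarith)
    rw [Real.cos_pi_div_three] at this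
    linarith
  have h2 : 1 + 2 * Real.cos (α + 0 * (Real.pi / 3) - (β + -δ * (Real.pi / 3))) < 0 := by
    have e : α + 0 * (Real.pi / 3) - (β + -δ * (Real.pi / 3)) =
        Real.pi - (Real.pi / 3 - δ * (Real.pi / 3)) := by rw [hαβ]; ring
    rw [e, Real.cos_pi_sub]
    have : Real.cos (Real.pi / 3) < Real.cos (Real.pi / 3 - δ * (Real.pi / 3)) :=
      Real.cos_lt_cos_of_nonneg_of_le_pi (by nlinarith) (by nlinarith) (by nlinarith)
    rw [Real.cos_pi_div_three] at this
    linarith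
  have c1 : Continuous fun a : ℂ => G a α β (-δ) 0 := by
    unfold G
    have := Complex.continuous_re
    have := Complex.continuous_im
    fun_prop
  have c2 : Continuous fun a : ℂ => G a α β 0 (-δ) := by
    unfold G
    have := Complex.continuous_re
    have := Complex.continuous_im
    fun_prop
  have e1 : ∀ᶠ a in 𝓝 (0 : ℂ), 0 < G a α β (-δ) 0 := by
    refine c1.continuousAt.eventually (Ioi_mem_nhds ?_)
    unfold G
    simp only [Complex.zero_re, Complex.zero_im]
    linarith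
  have e2 : ∀ᶠ a in 𝓝 (0 : ℂ), G a α β 0 (-δ) < 0 := by
    refine c2.continuousAt.eventually (Iio_mem_nhds ?_)
    unfold G
    simp only [Complex.zero_re, Complex.zero_im]
    linarith
  obtain ⟨ε, hε, hball⟩ := Metric.eventually_nhds_iff.1 (e1.and e2)
  exact ⟨ε, hε, fun a ha => hball (by rw [dist_zero_right]; exact ha)⟩

end Vale.Agent.P032.H989
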