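import Vale.Agent.P032.H989.Prism

/-!
# P032: two two-pair points at distance one with a common pair

`z` has the pairs `ab`, `cd`, `y` has the pairs `ab`, `ef`, `|y - z| = 1`, and `S(y)` meets the closure
of the `cd`-arcs of `S(z)`.  Then every `ef`-arc of `y` is parallel to a `cd`-arc of `z`, and an end of
such an arc with at most three colours is parallel to a point with at least four colours.
-/

open Set Filter Topology Metric

noncomputable section

namespace Vale.Agent.P032.H989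

open Vale.Agent.P032.Six Vale.Agent.P032.H187 Vale.Agent.P032.S5.H767

variable {k : ℕ} {U : Fin k → Set ℂ} {T : ℂ → Set (Fin k)}

/-- generic directions near a direction -/
theorem exists_generic (h : Irr U T) (c : ℂ) {ε : ℂ} (hε : ‖ε‖ = 1) {s : Set ℂ} (hs : s ∈ 𝓝 ε)
    (b1 b2 : ℂ) : ∃ ε' ∈ s, ‖ε'‖ = 1 ∧ ε' ≠ b1 ∧ ε' ≠ b2 ∧ c + ε' ∈ Ex T c (T (c + ε')) := by
  obtain ⟨s', hs's, hs'o, hεs⟩ := _root_.mem_nhds_iff.1 hs
  have hV : (fun q : ℂ => q - c) ⁻¹' s' ∈ 𝓝 (c + ε) := by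
    refine (Continuous.continuousAt (by fun_prop)).preimage_mem_nhds (hs'o.mem_nhds ?_)
    simpa using hεs
  have hmem : c + ε ∈ sphere c (1 : ℝ) := by
    rw [mem_sphere, dist_eq_norm, add_sub_cancel_left, hε]
  obtain ⟨q, ⟨hq1, hq2⟩, hq3⟩ := h.const hmem hV
  have hq1 : q - c ∈ s' := hq1
  have hq2 : dist q c = 1 := hq2
  have hqE : q ∈ Ex T c (T q) := ⟨hq2, hq3⟩
  have h1 := eventually_nhdsWithin_iff.1 (ex_open hqE)
  have h2 : Tendsto (fun a : ℂ => c + a) (𝓝 (q - c)) (𝓝 q) := by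
    have h1 : Continuous fun a : ℂ => c + a := by fun_prop
    have h3 := h1.tendsto (q - c)
    simpa using h3
  obtain ⟨ε', ⟨h3, h4⟩, h5, h6, h7, -, -⟩ := exists_dir (e := q - c)
    (by rw [← dist_eq_norm]; exact hq2) ((show ∀ᶠ x in 𝓝 (q - c), x ∈ s' from
      hs'o.mem_nhds hq1).and (h2.eventually h1)) b1 b2 b1 b2
  have h8 : c + ε' ∈ Ex T c (T q) :=
    h4 (by rw [mem_sphere, dist_eq_norm, add_sub_cancel_left, h5])
  refine ⟨ε', hs's h3, h5, h6, h7, ?_⟩
  rw [ex_self h8]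
  exact h8

/-- letters of a two-pair point -/
theorem pair_letters (h : Irr U T)
    (hmin : ∀ z, 4 ≤ (T z).ncard → ∀ s, s ⊆ T z → s ≠ T z →
      ¬ ∀ᶠ w in 𝓝 z, ∃ i ∈ s, w ∈ U i ∨ (w ∈ XX U ∧ i ∈ Pal U w)) {z q : ℂ} {a b c d : Fin k}
    (hz : DPt T z a b c d) {P : Set (Fin k)} (hq : q ∈ Ex T z P)
    (hP : P ⊆ {a, b, c, d}) : P = {a, b} ∨ P = {c, d} := by
  have hTq : T q = P := ex_self hq
  have hqz : dist q z = 1 := hq.1
  have hPz : P ⊆ T z := by rw [hz.pal]; exact hP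
  have h4 : (T z).ncard = 4 := by
    rw [hz.pal, Set.ncard_insert_of_notMem (by simp [hz.ab, hz.ac, hz.ad]),
      Set.ncard_insert_of_notMem (by simp [hz.bc, hz.bd]), Set.ncard_pair hz.cd]
  obtain ⟨i, hi⟩ := h.ne q
  have hiz : i ∈ T z := hPz (hTq ▸ hi)
  have hzX : z ∈ XX U := h.mem_XX (by rw [dist_comm]; exact hqz) hiz (h.sub q hi)
  have h2 : 2 ≤ P.ncard := by
    by_contra hcon
    have h1 : P.ncard ≤ 1 := by omega
    have h3 : T q ⊆ {i} := fun m hm =>
      (Set.ncard_le_one (Set.toFinite _)).1 h1 m (hTq ▸ hm) i (hTq ▸ hi)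
    exact h.mx.notMem' (h.mem_of_single h3) hqz (h.sub z hiz)
  have h3 : 2 ≤ (T z \ P).ncard := h.gap_two hzX hqz (hq.2.mono fun q' hq' => by
    rw [← hq']; exact h.sub q')
  have h5 := Set.ncard_sdiff hPz (Set.toFinite _)
  have h6 : P.ncard = 2 := by omega
  obtain ⟨g1, hg1⟩ := hz.arc1
  obtain ⟨g2, hg2⟩ := hz.arc2
  have e1 : T g1 = {a, b} := hg1.mem
  have e2 : T g2 = {c, d} := hg2.mem
  have k1 := h.pairs_disjoint hmin h4 hqz hg1.1 (by rw [hTq]; exact hPz)
    (by rw [e1, hz.pal]; intro m hm; rcases hm with rfl | hm <;> simp_all) (by rw [hTq]; exact h6)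
    (by rw [e1]; exact Set.ncard_pair hz.ab)
  have k2 := h.pairs_disjoint hmin h4 hqz hg2.1 (by rw [hTq]; exact hPz)
    (by rw [e2, hz.pal]; intro m hm; rcases hm with rfl | hm <;> simp_all) (by rw [hTq]; exact h6)
    (by rw [e2]; exact Set.ncard_pair hz.cd)
  rw [hTq, e1] at k1
  rw [hTq, e2] at k2
  rcases k1 with k1 | k1
  · exact Or.inl k1
  rcases k2 with k2 | k2
  · exact Or.inr k2
  exfalso
  have hiP : i ∈ P := hTq ▸ hi
  rcases hP hiP with rfl | rfl | rfl | h7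
  · exact Set.disjoint_left.1 k1 hiP (by simp)
  · exact Set.disjoint_left.1 k1 hiP (by simp)
  · exact Set.disjoint_left.1 k2 hiP (by simp)
  · rw [mem_singleton_iff] at h7
    subst h7
    exact Set.disjoint_left.1 k2 hiP (by simp)

/-- **H-pairs are parallel**: in the directions of the `ef`-arcs of `y` the circle of `z` carries
`cd`. -/
theorem parallel (h : Irr U T)
    (hmin : ∀ z, 4 ≤ (T z).ncard → ∀ s, s ⊆ T z → s ≠ T z →
      ¬ ∀ᶠ w in 𝓝 z, ∃ i ∈ s, w ∈ U i ∨ (w ∈ XX U ∧ i ∈ Pal U w)) {y z u : ℂ}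
    {a b c d e f : Fin k} (hz : DPt T z a b c d)
    (hcov : ∀ i, i = a ∨ i = b ∨ i = c ∨ i = d ∨ i = e ∨ i = f) (hyz : dist y z = 1)
    (huy : dist u y = 1) (hu : u ∈ closure (Cr U z {c, d})) {ε : ℂ}
    (hε : y + ε ∈ Cr U y {e, f}) : ∀ᶠ q in 𝓝[sphere z 1] (z + ε), {c, d} ⊆ T q := by
  -- one point
  have key : ∀ ε : ℂ, y + ε ∈ Cr U y {e, f} → {c, d} ⊆ T (z + ε) := by
    intro ε hε x hx
    by_contra hxT
    have hn : ‖ε‖ = 1 := by
      have := hε.1
      rwa [dist_eq_norm, add_sub_cancel_left] at this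
    have h1 : ∀ᶠ ε' in 𝓝 ε, x ∉ T (z + ε') := by
      have h2 : Tendsto (fun a : ℂ => z + a) (𝓝 ε) (𝓝 (z + ε)) := by
        have h1 : Continuous fun a : ℂ => z + a := by fun_prop
        exact h1.tendsto ε
      exact h2.eventually ((h.closed x).isOpen_compl.mem_nhds hxT)
    obtain ⟨ε', ⟨h2, h3⟩, h4, h5, h6, h7⟩ := exists_generic h z hn (h1.and (Cr_dir hε))
      (z - y) (y - z)
    have h8 := h3 h4
    have hne1 : y + ε' ≠ z := fun h9 => h5 (by linear_combination h9)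
    have hne2 : y + ε' + z ≠ 2 * y := fun h9 => h6 (by linear_combination h9)
    have hpr : ∀ t ∈ ({e, f} : Set (Fin k)), t ∉ T (z + ε') := by
      intro t ht htT
      have h9 := product h.mx (z := y) (y := z) (by rw [dist_comm]; exact hyz) h8 ht hne1 hne2
      rw [add_sub_cancel_left] at h9
      exact h9 (h.sub _ htT)
    have hP : T (z + ε') ⊆ {a, b, c, d} := by
      intro m hm
      rcases hcov m with rfl | rfl | rfl | rfl | rfl | rfl
      · simp
      · simp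
      · simp
      · simp
      · exact absurd hm (hpr _ (by simp))
      · exact absurd hm (hpr _ (by simp))
    rcases pair_letters h hmin hz h7 hP with h9 | h9
    · -- the prism rule
      have h10 : z + ε' ∈ Cr U z {a, b} := by
        have := Ex_Cr h h7
        rwa [h9] at this
      refine prism_ne h.mx h4 huy h8 h10 hu fun i => ?_
      rcases hcov i with rfl | rfl | rfl | rfl | rfl | rfl <;> simp
    · exact h2 (by rw [h9]; exact hx)
  have h1 := Cr_dir hε
  have h2 : Tendsto (fun q : ℂ => q - z) (𝓝 (z + ε)) (𝓝 ε) := by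
    have h1 : Continuous fun q : ℂ => q - z := by fun_prop
    have h3 := h1.tendsto (z + ε)
    simpa using h3
  filter_upwards [mem_nhdsWithin_of_mem_nhds (h2.eventually h1), self_mem_nhdsWithin] with q h3 h4
  have h5 := key (q - z) (h3 (by rw [← dist_eq_norm]; exact h4))
  rwa [add_sub_cancel] at h5

/-- the closure form of `parallel` -/
theorem parallel_cl (h : Irr U T)
    (hmin : ∀ z, 4 ≤ (T z).ncard → ∀ s, s ⊆ T z → s ≠ T z →
      ¬ ∀ᶠ w in 𝓝 z, ∃ i ∈ s, w ∈ U i ∨ (w ∈ XX U ∧ i ∈ Pal U w)) {y z u : ℂ}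
    {a b c d e f : Fin k} (hz : DPt T z a b c d)
    (hcov : ∀ i, i = a ∨ i = b ∨ i = c ∨ i = d ∨ i = e ∨ i = f) (hyz : dist y z = 1)
    (huy : dist u y = 1) (hu : u ∈ closure (Cr U z {c, d})) {ε : ℂ}
    (hε : y + ε ∈ closure (Cr U y {e, f})) : {c, d} ⊆ T (z + ε) := by
  intro x hx
  have h1 : closure (Cr U y {e, f}) ⊆ {q | x ∈ T (z + (q - y))} := by
    refine closure_minimal (fun q hq => ?_)
      ((h.closed x).preimage (f := fun q : ℂ => z + (q - y)) (by fun_prop))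
    have h2 : y + (q - y) ∈ Cr U y {e, f} := by rw [add_sub_cancel]; exact hq
    have h3 := parallel h hmin hz hcov hyz huy hu h2
    have h4 : z + (q - y) ∈ sphere z (1 : ℝ) := by
      rw [mem_sphere, dist_eq_norm, add_sub_cancel_left, ← dist_eq_norm]; exact hq.1
    exact h3.self_of_nhdsWithin h4 hx
  have h2 := h1 hε
  simpa using h2

/-- **Ends of the arcs of the second circle.** -/
theorem end_order (h : Irr U T)
    (hmin : ∀ z, 4 ≤ (T z).ncard → ∀ s, s ⊆ T z → s ≠ T z →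
      ¬ ∀ᶠ w in 𝓝 z, ∃ i ∈ s, w ∈ U i ∨ (w ∈ XX U ∧ i ∈ Pal U w)) {y z u : ℂ}
    {a b c d e f : Fin k} (hz : DPt T z a b c d) (hy : DPt T y a b e f)
    (hcov : ∀ i, i = a ∨ i = b ∨ i = c ∨ i = d ∨ i = e ∨ i = f)
    (hdis : Disjoint ({c, d} : Set (Fin k)) {e, f}) (hyz : dist y z = 1)
    (huy : dist u y = 1) (hu : u ∈ closure (Cr U z {c, d})) {ε : ℂ} (hn : ‖ε‖ = 1)
    (hε : y + ε ∈ closure (Ex T y {e, f}))
    (hend : ¬ ∀ᶠ q in 𝓝[sphere y 1] (y + ε), {e, f} ⊆ T q) (h1 : y + ε ≠ z) (h2 : z + ε ≠ y)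
    (h3 : (T (y + ε)).ncard ≤ 3) : 4 ≤ (T (z + ε)).ncard := by
  by_contra hlt
  have hlt : (T (z + ε)).ncard ≤ 3 := by omega
  have hcd : {c, d} ⊆ T (z + ε) := parallel_cl h hmin hz hcov hyz huy hu
    (closure_mono (Ex_Cr h) hε)
  have hef : {e, f} ⊆ T (y + ε) := sub_of_closure h hε
  -- no four different colours
  have no4 : ∀ (s : Set (Fin k)), s.ncard ≤ 3 → ∀ x1 x2 x3 x4 : Fin k, x1 ≠ x2 → x1 ≠ x3 →
      x1 ≠ x4 → x2 ≠ x3 → x2 ≠ x4 → x3 ≠ x4 → x1 ∈ s → x2 ∈ s → x3 ∈ s → x4 ∈ s → False := by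
    intro s hs x1 x2 x3 x4 n12 n13 n14 n23 n24 n34 m1 m2 m3 m4
    have h5 : ({x1, x2, x3, x4} : Set (Fin k)) ⊆ s := by
      rintro m (rfl | rfl | rfl | rfl) <;> assumption
    have h6 := Set.ncard_le_ncard h5 (Set.toFinite _)
    rw [Set.ncard_insert_of_notMem (by simp [n12, n13, n14]),
      Set.ncard_insert_of_notMem (by simp [n23, n24]), Set.ncard_pair n34] at h6
    omega
  -- a generic direction near `ε` where one of `e`, `f` is missing
  have hty : ∀ᶠ ε' in 𝓝 ε, T (y + ε') ⊆ T (y + ε) := by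
    have h2 : Tendsto (fun a : ℂ => y + a) (𝓝 ε) (𝓝 (y + ε)) := by
      have h1 : Continuous fun a : ℂ => y + a := by fun_prop
      exact h1.tendsto ε
    exact h2.eventually (h.nhd (y + ε))
  have htz : ∀ᶠ ε' in 𝓝 ε, T (z + ε') ⊆ T (z + ε) := by
    have h2 : Tendsto (fun a : ℂ => z + a) (𝓝 ε) (𝓝 (z + ε)) := by
      have h1 : Continuous fun a : ℂ => z + a := by fun_prop
      exact h1.tendsto ε
    exact h2.eventually (h.nhd (z + ε))
  obtain ⟨N, hN, hNo, hεN⟩ := _root_.mem_nhds_iff.1 (hty.and htz)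
  obtain ⟨q, ⟨hqN, hqs⟩, hqx⟩ : ∃ q, (q - y ∈ N ∧ dist q y = 1) ∧ ¬ {e, f} ⊆ T q := by
    by_contra hcon
    push Not at hcon
    apply hend
    have hV : (fun q : ℂ => q - y) ⁻¹' N ∈ 𝓝 (y + ε) := by
      refine (Continuous.continuousAt (by fun_prop)).preimage_mem_nhds (hNo.mem_nhds ?_)
      simpa using hεN
    filter_upwards [mem_nhdsWithin_of_mem_nhds hV, self_mem_nhdsWithin] with q h5 h6
    exact hcon q ⟨h5, h6⟩
  obtain ⟨x, hx, hxq⟩ := Set.not_subset.1 hqx
  have hqy : ‖q - y‖ = 1 := by rw [← dist_eq_norm]; exact hqs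
  have hxo : ∀ᶠ ε' in 𝓝 (q - y), x ∉ T (y + ε') := by
    have h2 : Tendsto (fun a : ℂ => y + a) (𝓝 (q - y)) (𝓝 q) := by
      have h1 : Continuous fun a : ℂ => y + a := by fun_prop
      have h3 := h1.tendsto (q - y)
      simpa using h3
    exact h2.eventually ((h.closed x).isOpen_compl.mem_nhds hxq)
  obtain ⟨ε', ⟨h5, h6⟩, h7, h8, h9, h10⟩ := exists_generic h y hqy
    ((show ∀ᶠ x in 𝓝 (q - y), x ∈ N from hNo.mem_nhds hqN).and hxo) (z - y) (y - z)
  -- the letter there contains `c` or `d`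
  obtain ⟨m, m', hm, hmm, hcd'⟩ : ∃ m m', m ∈ T (y + ε') ∧ m ∈ ({c, d} : Set (Fin k)) ∧
      ({c, d} : Set (Fin k)) ⊆ {m, m'} ∧ m' ∈ ({c, d} : Set (Fin k)) := by
    by_cases hP : T (y + ε') ⊆ {a, b, e, f}
    · exfalso
      rcases pair_letters h hmin hy h10 hP with h11 | h11
      · have hab : {a, b} ⊆ T (y + ε) := by rw [← h11]; exact (hN h5).1
        exact no4 _ h3 a b e f hy.ab hy.ac hy.ad hy.bc hy.bd hy.cd (hab (by simp)) (hab (by simp))
          (hef (by simp)) (hef (by simp))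
      · exact h6 (by rw [h11]; exact hx)
    · obtain ⟨m, hm, hm2⟩ := Set.not_subset.1 hP
      rcases hcov m with rfl | rfl | rfl | rfl | rfl | rfl
      · simp at hm2
      · simp at hm2
      · exact ⟨m, d, hm, by simp, subset_rfl, by simp⟩
      · exact ⟨m, c, hm, by simp, by rw [Set.pair_comm], by simp⟩
      · simp at hm2
      · simp at hm2
  obtain ⟨hcd', hm'⟩ := hcd'
  have hmy : m ∈ T (y + ε) := (hN h5).1 hm
  have hmz : m ∉ T (z + ε') := by
    intro h11
    have h12 := product h.mx (z := y) (y := z) (by rw [dist_comm]; exact hyz) (Ex_Cr h h10) hm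
      (fun h13 => h8 (by linear_combination h13)) (fun h13 => h9 (by linear_combination h13))
    rw [add_sub_cancel_left] at h12
    exact h12 (h.sub _ h11)
  -- a generic direction of `z`
  have hmo : ∀ᶠ ε'' in 𝓝 ε', m ∉ T (z + ε'') := by
    have h2 : Tendsto (fun a : ℂ => z + a) (𝓝 ε') (𝓝 (z + ε')) := by
      have h1 : Continuous fun a : ℂ => z + a := by fun_prop
      exact h1.tendsto ε'
    exact h2.eventually ((h.closed m).isOpen_compl.mem_nhds hmz)
  obtain ⟨ε₂, ⟨h11, h12⟩, h13, -, -, h14⟩ := exists_generic h z h7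
    ((show ∀ᶠ x in 𝓝 ε', x ∈ N from hNo.mem_nhds h5).and hmo) 0 0
  -- it has `e` or `f`
  obtain ⟨x', hx', hx'ef⟩ : ∃ x', x' ∈ T (z + ε) ∧ (x' = e ∨ x' = f) := by
    by_cases hP : T (z + ε₂) ⊆ {a, b, c, d}
    · exfalso
      rcases pair_letters h hmin hz h14 hP with h15 | h15
      · have hab : {a, b} ⊆ T (z + ε) := by rw [← h15]; exact (hN h11).2
        exact no4 _ hlt a b c d hz.ab hz.ac hz.ad hz.bc hz.bd hz.cd (hab (by simp))
          (hab (by simp)) (hcd (by simp)) (hcd (by simp))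
      · exact h12 (by rw [h15]; exact hmm)
    · obtain ⟨m2, hm2, hm3⟩ := Set.not_subset.1 hP
      have hm4 := (hN h11).2 hm2
      rcases hcov m2 with rfl | rfl | rfl | rfl | rfl | rfl
      · simp at hm3
      · simp at hm3
      · simp at hm3
      · simp at hm3
      · exact ⟨_, hm4, Or.inl rfl⟩
      · exact ⟨_, hm4, Or.inr rfl⟩
  -- the colours `c`, `d` are different from `e`, `f`
  have hne : ∀ x ∈ ({c, d} : Set (Fin k)), ∀ x'', (x'' = e ∨ x'' = f) → x ≠ x'' := by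
    rintro x hx4 x'' hx5 rfl
    exact Set.disjoint_left.1 hdis hx4 (by simpa using hx5)
  -- Lemma X
  have hsub : T (z + ε) ⊆ insert m' (T (y + ε)) := by
    intro w hw
    by_cases hw1 : w ∈ ({c, d} : Set (Fin k))
    · rcases hcd' hw1 with rfl | hw2
      · exact Or.inr hmy
      · exact Or.inl hw2
    by_cases hw2 : w = x'
    · subst hw2
      right
      rcases hx'ef with rfl | rfl
      · exact hef (by simp)
      · exact hef (by simp)
    exfalso
    have hwc : w ≠ c := fun h15 => hw1 (by simp [h15])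
    have hwd : w ≠ d := fun h15 => hw1 (by simp [h15])
    exact no4 _ hlt c d x' w hz.cd (hne c (by simp) x' hx'ef) hwc.symm
      (hne d (by simp) x' hx'ef) hwd.symm (Ne.symm hw2) (hcd (by simp)) (hcd (by simp)) hx' hw
  have hm'z : m' ∈ Pal U z := h.sub z (by
    rw [hz.pal]
    rcases hm' with rfl | hm'
    · simp
    · rw [mem_singleton_iff] at hm'; simp [hm'])
  have hd1 : dist (z + ε) (y + ε) = 1 := by
    rw [dist_add_right, dist_comm]; exact hyz
  have hd2 : dist (z + ε) z = 1 := by rw [dist_eq_norm, add_sub_cancel_left, hn]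
  rcases h.lemmaX hd1 h3 hsub hd2 hm'z with h15 | h15
  · exact h1 h15.symm
  · exact h2 (by linear_combination -h15)

end Vale.Agent.P032.H989
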