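import Vale.Agent.P032.S5.H11.CarrH
import Vale.Agent.P032.S5.H767.RawT
import Vale.Agent.P032.S5.H80.Ray

/-!
# P032: `Irr` and isometries of the plane, mirror images
-/

open Set Filter Topology Metric

noncomputable section

namespace Vale.Agent.P032.Six

variable {k : ℕ} {U : Fin k → Set ℂ} {T : ℂ → Set (Fin k)}

theorem closure_iso989 (e : ℂ ≃ᵢ ℂ) (s : Set ℂ) : closure (e ⁻¹' s) = e ⁻¹' closure s :=
  (e.toHomeomorph.preimage_closure s).symm

theorem Pal_iso989 (e : ℂ ≃ᵢ ℂ) (x : ℂ) : Pal (fun i => e ⁻¹' U i) x = Pal U (e x) := by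
  ext i
  show x ∈ closure (e ⁻¹' U i) ↔ e x ∈ closure (U i)
  rw [closure_iso989]; rfl

theorem tendsto_iso989 (e : ℂ ≃ᵢ ℂ) (x : ℂ) : Tendsto e (𝓝 x) (𝓝 (e x)) :=
  e.continuous.tendsto x

theorem freq_iso989 (e : ℂ ≃ᵢ ℂ) {x : ℂ} {p : ℂ → Prop} (h : ∃ᶠ w in 𝓝 (e x), p w) :
    ∃ᶠ w in 𝓝 x, p (e w) := by
  have h1 : Tendsto e.symm (𝓝 (e x)) (𝓝 x) := by
    have := e.symm.continuous.tendsto (e x)
    rwa [e.symm_apply_apply] at this
  refine h1.frequently (h.mono fun w hw => ?_)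
  rwa [e.apply_symm_apply]

theorem Mx.iso989 (h : Mx U) (e : ℂ ≃ᵢ ℂ) : Mx (fun i => e ⁻¹' U i) := by
  have hd : ∀ x y, dist (e x) (e y) = dist x y := e.dist_eq
  obtain ⟨h1, h2, h3, h4, C, hC⟩ := h
  refine ⟨fun i => (h1 i).preimage e.continuous, ?_, fun i x hx y hy => ?_, fun i x hx => ?_,
    fun z => C (e z), fun z => ?_⟩
  · have h5 := h2.preimage e.toHomeomorph.isOpenMap
    have h6 : (⋃ i, e ⁻¹' U i) = e.toHomeomorph ⁻¹' ⋃ i, U i := by
      rw [preimage_iUnion]; rfl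
    rw [h6]; exact h5
  · rw [closure_iso989] at hy
    rw [← hd]
    exact h3 i (e x) hx (e y) hy
  · rw [Pal_iso989] at hx
    exact h4 i (e x) hx
  · obtain ⟨c1, c2, c3⟩ := hC (e z)
    refine ⟨by rw [Pal_iso989]; exact c1, ?_, fun hz i hi => ?_⟩
    · filter_upwards [(tendsto_iso989 e z).eventually c2] with w hw
      obtain ⟨i, hi, hiw⟩ := hw
      exact ⟨i, hi, by rw [Pal_iso989]; exact hiw⟩
    · obtain ⟨⟨y, hy, hiy⟩, c4⟩ := c3 hz i hi
      refine ⟨⟨e.symm y, ?_, ?_⟩, ?_⟩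
      · rw [← hd, e.apply_symm_apply]; exact hy
      · rw [Pal_iso989, e.apply_symm_apply]; exact hiy
      · filter_upwards [(tendsto_iso989 e z).eventually c4] with w hw hw'
        refine hw ?_
        have h7 : interior (closure (e ⁻¹' U i)) = e ⁻¹' interior (closure (U i)) := by
          rw [closure_iso989]
          exact (e.toHomeomorph.preimage_interior _).symm
        have hw2 : w ∈ interior (closure (e ⁻¹' U i)) := hw'
        rw [h7] at hw2
        exact hw2

/-- **`Irr` and isometries** -/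
theorem Irr.iso989 (h : Irr U T) (e : ℂ ≃ᵢ ℂ) : Irr (fun i => e ⁻¹' U i) (fun x => T (e x)) where
  mx := h.mx.iso989 e
  max := fun i x hx => h.max i (e x) fun y hy hxy => by
    refine hx (e.symm y) ?_ ?_
    · rw [closure_iso989]
      show e (e.symm y) ∈ closure (U i)
      rw [e.apply_symm_apply]; exact hy
    · rw [← e.dist_eq, e.apply_symm_apply]; exact hxy
  closed := fun i => (h.closed i).preimage e.continuous
  ne := fun x => h.ne (e x)
  sub := fun x => by rw [Pal_iso989]; exact h.sub (e x)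
  off := fun x hx i hi => h.off (e x) hx i hi
  pure := fun x i hi => freq_iso989 e (h.pure (e x) i hi)

end Vale.Agent.P032.Six

namespace Vale.Agent.P032.H989

open Vale.Agent.P032.Six Vale.Agent.P032.S5.H767

/-- the mirror -/
def cj : ℂ ≃ᵢ ℂ := Complex.conjLIE.toIsometryEquiv

theorem cj_cj (x : ℂ) : cj (cj x) = x := Complex.conj_conj x

theorem cj_cis (t : ℝ) : cj (cis t) = cis (-t) := by
  apply Complex.ext
  · show ((starRingEnd ℂ) (cis t)).re = _
    rw [Complex.conj_re, cis_re, cis_re, Real.cos_neg]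
  · show ((starRingEnd ℂ) (cis t)).im = _
    rw [Complex.conj_im, cis_im, cis_im, Real.sin_neg]

theorem cj_pt (z : ℂ) (t : ℝ) : cj (pt z t) = pt (cj z) (-t) := by
  unfold pt
  have h1 : cj (z + cis (t * (Real.pi / 3))) = cj z + cj (cis (t * (Real.pi / 3))) :=
    map_add (starRingEnd ℂ) _ _
  rw [h1, cj_cis]
  congr 2; ring

end Vale.Agent.P032.H989
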