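import Vale.Agent.P032.H989.Conv
import Vale.Agent.P032.H383.Letters
import Vale.Agent.P032.H989.Iso

/-!
# P032: the two conveyors of order three at a centre of order six exclude each other

Centre `z`, `x_k = pt z (u + k)`, `y_j = pt z (u - σ + j)`, `0 < σ < 1`.  At the time `u` the letters of
`S(z)` change from `(k - 1 | k + 2)` (inner | outer colour) at `x_k`, at the time `u - σ` from
`(j - 1 | j + 3)` to `(j - 1 | j + 2)` at `y_j`, `T x_k = {k - 1, k, k + 2}`,
`T y_j = {j - 1, j + 2, j + 3}`.  With the sides of the colours at `x_0`, `y_0`, `y_5` this is impossible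
(`no_pair`).  Only the circles about `z, x_0, x_1, x_4, x_5, y_0, y_5, x_0 + y_5 - z, x_0 + y_0 - z` are
used; letters (palettes at generic points), the 60 degree rule and the product rule.
-/

open Set Filter Topology Metric

noncomputable section

namespace Vale.Agent.P032.H989

open Vale.Agent.P032.Six Vale.Agent.P032.H187 Vale.Agent.P032.S5.H767 Vale.Agent.P032.Sweep

variable {k : ℕ} {U : Fin k → Set ℂ} {T : ℂ → Set (Fin k)}

/-- no multiple of three -/
theorem sin_ne {x : ℝ} (n : ℤ) (h : 3 * (n : ℝ) < x) (h' : x < 3 * ((n : ℝ) + 1)) :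
    Real.sin (x * (Real.pi / 3)) ≠ 0 := by
  intro h0
  obtain ⟨m, hm⟩ := Real.sin_eq_zero_iff.1 h0
  have hpi := Real.pi_pos
  have h1 : x = 3 * m := by
    have : (m : ℝ) * Real.pi = x / 3 * Real.pi := by rw [hm]; ring
    have := mul_right_cancel₀ hpi.ne' this
    linarith
  rw [h1] at h h'
  have h2 : (n : ℝ) < m := by linarith
  have h3 : (m : ℝ) < n + 1 := by linarith
  have h4 : n < m := by exact_mod_cast h2
  have h5 : m < n + 1 := by exact_mod_cast h3
  omega

/-- the product rule for an arc -/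
theorem prod_on (h : Mx U) {c : ℂ} {δ t : ℝ} {P : Set (Fin k)} (hon : On U c P t)
    (hs : Real.sin ((t - δ) * (Real.pi / 3)) ≠ 0) : ∀ i ∈ P, i ∉ Pal U (pt (pt c δ) t) := by
  intro i hi
  have e : (t - δ) * (Real.pi / 3) = t * (Real.pi / 3) - δ * (Real.pi / 3) := by ring
  rw [e, Real.sin_sub] at hs
  refine product_pt h (dist_pt c δ) hon.cr hi (fun h0 => ?_) fun h0 => ?_
  · have h1 : cis (t * (Real.pi / 3)) = cis (δ * (Real.pi / 3)) := by
      have h2 : c + cis (t * (Real.pi / 3)) = c + cis (δ * (Real.pi / 3)) := h0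
      exact add_left_cancel h2
    have h2 := congrArg Complex.re h1
    have h3 := congrArg Complex.im h1
    simp only [cis_re, cis_im] at h2 h3
    apply hs
    rw [h2, h3]; ring
  · have h1 : cis (t * (Real.pi / 3)) = -cis (δ * (Real.pi / 3)) := by
      have h2 : c + cis (t * (Real.pi / 3)) + (c + cis (δ * (Real.pi / 3))) = 2 * c := h0
      linear_combination h2
    have h2 := congrArg Complex.re h1
    have h3 := congrArg Complex.im h1
    simp only [cis_re, cis_im, Complex.neg_re, Complex.neg_im] at h2 h3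
    apply hs
    rw [h2, h3]; ring

theorem on_prev (h : Mx U) {z : ℂ} {P : Set (Fin k)} {x : ℝ} (hx : On U z P (x + 1)) :
    ∀ i ∈ P, i ∉ Pal U (pt z x) := fun i hi =>
  sixty h hx.cr hi (dist_pt z x) (by rw [dist_comm]; exact dist_pt_one z x)

theorem on_succ (h : Mx U) {z : ℂ} {P : Set (Fin k)} {x : ℝ} (hx : On U z P x) :
    ∀ i ∈ P, i ∉ Pal U (pt z (x + 1)) := fun _ hi =>
  sixty h hx.cr hi (dist_pt z (x + 1)) (dist_pt_one z x)

/-- a palette with one colour: the colour is missing at the centre -/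
theorem single_free (h : Irr U T) {c : ℂ} {t : ℝ} {i : Fin k} (hs : T (pt c t) ⊆ {i}) :
    i ∉ T c := fun hi => h.mx.notMem' (h.mem_of_single hs) (dist_pt c t) (h.sub c hi)

/-- the letter of a generic point as an arc -/
theorem on_Lc {U : Fin 6 → Set ℂ} {T : ℂ → Set (Fin 6)} (h : Irr U T) {c : ℂ} {t : ℝ}
    (ht : t ∈ Lc T c) : On U c (T (pt c t)) t := by
  have h1 : ∀ᶠ v in 𝓝 t, T (pt c v) = T (pt c t) := ht
  exact h1.mono fun v hv i hi => h.sub _ (by rw [hv]; exact hi)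

theorem pt_pt (z : ℂ) (a b : ℝ) :
    pt (pt z a) b = z + cis (a * (Real.pi / 3)) + cis (b * (Real.pi / 3)) := rfl

theorem pt_comm (z : ℂ) (a b : ℝ) : pt (pt z a) b = pt (pt z b) a := by
  rw [pt_pt, pt_pt]; ring

/-- the turning point near the opposite point -/
theorem rhomb (z : ℂ) (a b t : ℝ) : dist (pt (pt (pt z a) b) (t + 3)) z ^ 2 - 1 =
    4 * Real.sin ((t - b) * (Real.pi / 6)) * (Real.sin ((b - a) * (Real.pi / 3) +
      (t - b) * (Real.pi / 6)) + Real.sin ((t - b) * (Real.pi / 6))) := by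
  have e0 : pt (pt (pt z a) b) (t + 3) - z = cis (a * (Real.pi / 3)) + cis (b * (Real.pi / 3)) -
      cis (t * (Real.pi / 3)) := by
    rw [pt_three, pt_pt]
    show 2 * (z + cis (a * (Real.pi / 3)) + cis (b * (Real.pi / 3))) -
      (z + cis (a * (Real.pi / 3)) + cis (b * (Real.pi / 3)) + cis (t * (Real.pi / 3))) - z = _
    ring
  rw [dist_eq_norm, e0, Complex.sq_norm, Complex.normSq_apply]
  simp only [Complex.sub_re, Complex.sub_im, Complex.add_re, Complex.add_im, cis_re, cis_im]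
  set α := a * (Real.pi / 3) with hα
  set β := b * (Real.pi / 3) with hβ
  set ψ := (t - b) * (Real.pi / 6) with hψ
  have e1 : t * (Real.pi / 3) = β + 2 * ψ := by rw [hβ, hψ]; ring
  have e2 : (b - a) * (Real.pi / 3) = β - α := by rw [hα, hβ]; ring
  rw [e1, e2, Real.sin_add (β - α) ψ, Real.sin_sub β α, Real.cos_sub β α, Real.cos_add β (2 * ψ),
    Real.sin_add β (2 * ψ), Real.cos_two_mul, Real.sin_two_mul]
  have h1 := Real.sin_sq_add_cos_sq α
  have h2 := Real.sin_sq_add_cos_sq β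
  have h3 := Real.sin_sq_add_cos_sq ψ
  linear_combination h1 + (4 * (1 - Real.cos ψ ^ 2)) * h2 +
    (4 * (Real.sin β ^ 2 + Real.cos β ^ 2) * Real.cos ψ ^ 2 -
      4 * (Real.cos β * Real.cos α + Real.sin β * Real.sin α) - 4) * h3

/-- the side of the turning point, negative sine -/
theorem turn_neg (z : ℂ) {a b : ℝ} (hs : Real.sin ((b - a) * (Real.pi / 3)) < 0) :
    ∀ᶠ t in 𝓝 b, (b < t → dist (pt (pt (pt z a) b) (t + 3)) z < 1) ∧
      (t < b → 1 < dist (pt (pt (pt z a) b) (t + 3)) z) := by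
  have hc : Continuous fun t : ℝ => Real.sin ((b - a) * (Real.pi / 3) + (t - b) * (Real.pi / 6)) +
      Real.sin ((t - b) * (Real.pi / 6)) := by fun_prop
  have h1 : ∀ᶠ t in 𝓝 b, Real.sin ((b - a) * (Real.pi / 3) + (t - b) * (Real.pi / 6)) +
      Real.sin ((t - b) * (Real.pi / 6)) < 0 := by
    refine hc.continuousAt.eventually (Iio_mem_nhds ?_)
    simp only [sub_self, zero_mul, add_zero, Real.sin_zero]
    exact hs
  filter_upwards [h1, Ioo_mem_nhds (by linarith : b - 1 < b) (by linarith : b < b + 1)] with t h2 h3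
  have hr := rhomb z a b t
  have hd := dist_nonneg (x := pt (pt (pt z a) b) (t + 3)) (y := z)
  have hpi := Real.pi_pos
  constructor
  · intro h4
    have h5 : 0 < Real.sin ((t - b) * (Real.pi / 6)) :=
      Real.sin_pos_of_pos_of_lt_pi (by have := sub_pos.2 h4; positivity) (by
        have : t - b < 1 := by linarith [h3.2]
        nlinarith)
    have h6 : dist (pt (pt (pt z a) b) (t + 3)) z ^ 2 - 1 < 0 := by
      rw [hr]
      exact mul_neg_of_pos_of_neg (by linarith) h2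
    nlinarith
  · intro h4
    have h5 : Real.sin ((t - b) * (Real.pi / 6)) < 0 := by
      have h6 : 0 < Real.sin (-((t - b) * (Real.pi / 6))) :=
        Real.sin_pos_of_pos_of_lt_pi (by nlinarith) (by
          have : b - t < 1 := by linarith [h3.1]
          nlinarith)
      rw [Real.sin_neg] at h6
      linarith
    have h6 : 0 < dist (pt (pt (pt z a) b) (t + 3)) z ^ 2 - 1 := by
      rw [hr]
      exact mul_pos_of_neg_of_neg (by linarith) h2
    nlinarith

/-- the side of the turning point, positive sine -/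
theorem turn_pos (z : ℂ) {a b : ℝ} (hs : 0 < Real.sin ((b - a) * (Real.pi / 3))) :
    ∀ᶠ t in 𝓝 b, (b < t → 1 < dist (pt (pt (pt z a) b) (t + 3)) z) ∧
      (t < b → dist (pt (pt (pt z a) b) (t + 3)) z < 1) := by
  have hc : Continuous fun t : ℝ => Real.sin ((b - a) * (Real.pi / 3) + (t - b) * (Real.pi / 6)) +
      Real.sin ((t - b) * (Real.pi / 6)) := by fun_prop
  have h1 : ∀ᶠ t in 𝓝 b, 0 < Real.sin ((b - a) * (Real.pi / 3) + (t - b) * (Real.pi / 6)) +
      Real.sin ((t - b) * (Real.pi / 6)) := by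
    refine hc.continuousAt.eventually (Ioi_mem_nhds ?_)
    simp only [sub_self, zero_mul, add_zero, Real.sin_zero]
    exact hs
  filter_upwards [h1, Ioo_mem_nhds (by linarith : b - 1 < b) (by linarith : b < b + 1)] with t h2 h3
  have hr := rhomb z a b t
  have hd := dist_nonneg (x := pt (pt (pt z a) b) (t + 3)) (y := z)
  have hpi := Real.pi_pos
  constructor
  · intro h4
    have h5 : 0 < Real.sin ((t - b) * (Real.pi / 6)) :=
      Real.sin_pos_of_pos_of_lt_pi (by have := sub_pos.2 h4; positivity) (by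
        have : t - b < 1 := by linarith [h3.2]
        nlinarith)
    have h6 : 0 < dist (pt (pt (pt z a) b) (t + 3)) z ^ 2 - 1 := by
      rw [hr]
      exact mul_pos (by linarith) h2
    nlinarith
  · intro h4
    have h5 : Real.sin ((t - b) * (Real.pi / 6)) < 0 := by
      have h6 : 0 < Real.sin (-((t - b) * (Real.pi / 6))) :=
        Real.sin_pos_of_pos_of_lt_pi (by nlinarith) (by
          have : b - t < 1 := by linarith [h3.1]
          nlinarith)
      rw [Real.sin_neg] at h6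
      linarith
    have h6 : dist (pt (pt (pt z a) b) (t + 3)) z ^ 2 - 1 < 0 := by
      rw [hr]
      exact mul_neg_of_neg_of_pos (by linarith) h2
    nlinarith

/-- a good time on the left -/
theorem pick_left {a : ℝ} {P E : ℝ → Prop} {D : Set ℝ} (hP : ∃ᶠ t in 𝓝[<] a, P t)
    (hPo : IsOpen {t | P t}) (hE : ∀ᶠ t in 𝓝[<] a, E t) (hD : Dense D) :
    ∃ t, P t ∧ E t ∧ t ∈ D := by
  obtain ⟨l, hl, hlE⟩ := mem_nhdsLT_iff_exists_Ioo_subset.1 hE
  obtain ⟨t0, h1, h2⟩ := (hP.and_eventually (Ioo_mem_nhdsLT hl)).exists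
  obtain ⟨t, ⟨h3, h4⟩, h5⟩ := hD.inter_open_nonempty _ (hPo.inter isOpen_Ioo) ⟨t0, h1, h2⟩
  exact ⟨t, h3, hlE h4, h5⟩

/-- a good time on the right -/
theorem pick_right {a : ℝ} {P E : ℝ → Prop} {D : Set ℝ} (hP : ∃ᶠ t in 𝓝[>] a, P t)
    (hPo : IsOpen {t | P t}) (hE : ∀ᶠ t in 𝓝[>] a, E t) (hD : Dense D) :
    ∃ t, P t ∧ E t ∧ t ∈ D := by
  obtain ⟨l, hl, hlE⟩ := mem_nhdsGT_iff_exists_Ioo_subset.1 hE
  obtain ⟨t0, h1, h2⟩ := (hP.and_eventually (Ioo_mem_nhdsGT hl)).exists
  obtain ⟨t, ⟨h3, h4⟩, h5⟩ := hD.inter_open_nonempty _ (hPo.inter isOpen_Ioo) ⟨t0, h1, h2⟩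
  exact ⟨t, h3, hlE h4, h5⟩

/-- the neighbours of a point on the circle as points of each other's circles -/
theorem nb1 (z : ℂ) (w : ℝ) : pt z (w + 1) = pt (pt z (w + 2)) w := by
  have h1 := pt_sum z w
  have h2 : pt z w = z + cis (w * (Real.pi / 3)) := rfl
  show _ = pt z (w + 2) + cis (w * (Real.pi / 3))
  linear_combination -h1 + h2

theorem nb2 (z : ℂ) (w : ℝ) : pt z (w + 1) = pt (pt z w) (w + 2) := by
  have h1 := pt_sum z w
  have h2 : pt z (w + 2) = z + cis ((w + 2) * (Real.pi / 3)) := rfl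
  show _ = pt z w + cis ((w + 2) * (Real.pi / 3))
  linear_combination -h1 + h2

section six

variable {U : Fin 6 → Set ℂ} {T : ℂ → Set (Fin 6)}

theorem notT (h : Irr U T) {x : ℂ} {i : Fin 6} (hn : i ∉ Pal U x) : i ∉ T x :=
  fun hi => hn (h.sub x hi)

/-- the free colour of a circle about a point with three colours -/
theorem force (h : Irr U T) {c : ℂ} {s : ℝ} {S : Set (Fin 6)} (hS : T c = S) (h3 : S.ncard ≤ 3)
    (m0 : Fin 6) (hm : ∀ m, m ≠ m0 → m ∈ S ∨ m ∉ T (pt c s)) : m0 ∈ T (pt c s) := by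
  obtain ⟨i, h1, h2⟩ := h.not_sub' (dist_pt c s) (x := c) (by rw [hS]; exact h3)
  by_cases hi : i = m0
  · exact hi ▸ h1
  · rcases hm i hi with h4 | h4
    · exact absurd (hS ▸ h4) h2
    · exact absurd h1 h4

theorem card3 (a b c : Fin 6) : ({a, b, c} : Set (Fin 6)).ncard ≤ 3 := by
  have h1 := Set.ncard_insert_le a ({b, c} : Set (Fin 6))
  have h2 := Set.ncard_insert_le b ({c} : Set (Fin 6))
  have h3 := Set.ncard_singleton c
  omega

theorem gen_of {n : ℕ} {C : Fin n → ℂ} {t : ℝ} (hG : t ∈ Lall T C 0) (i : Fin n) (j : Fin 6) :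
    t + (j.val : ℝ) ∈ Lc T (C i) := by
  have h1 := hG (i, j)
  simpa [zero_add] using h1

/-- before `I` -/
theorem before_I (h : Irr U T) {z : ℂ} {u t : ℝ} (ht : u - 1 < t) (ht' : t < u)
    (x4 : T (pt z (u + 4)) = {3, 4, 0}) (x5 : T (pt z (u + 5)) = {4, 5, 1})
    (x0 : T (pt z u) = {5, 0, 2}) (z4 : On U z {3, 1} (t + 4)) (z5 : On U z {4, 2} (t + 5))
    (z0 : On U z {5, 3} t) (g4 : t + 4 ∈ Lc T (pt z (u + 4))) (g40 : t ∈ Lc T (pt z (u + 4)))
    (g54 : t + 4 ∈ Lc T (pt z (u + 5))) (g55 : t + 5 ∈ Lc T (pt z (u + 5)))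
    (g50 : t ∈ Lc T (pt z (u + 5))) : 1 ∈ T (pt (pt z u) (t + 5)) := by
  -- products with `S(z)`
  have p55 := prod_on h.mx z5 (δ := u + 5) (sin_ne (-1) (by push_cast; linarith)
    (by push_cast; linarith))
  have p54 := prod_on h.mx z4 (δ := u + 5) (sin_ne (-1) (by push_cast; linarith)
    (by push_cast; linarith))
  have p50 := prod_on h.mx z0 (δ := u + 5) (sin_ne (-2) (by push_cast; linarith)
    (by push_cast; linarith))
  have p45 := prod_on h.mx z5 (δ := u + 4) (sin_ne 0 (by push_cast; linarith)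
    (by push_cast; linarith))
  have p44 := prod_on h.mx z4 (δ := u + 4) (sin_ne (-1) (by push_cast; linarith)
    (by push_cast; linarith))
  have p40 := prod_on h.mx z0 (δ := u + 4) (sin_ne (-2) (by push_cast; linarith)
    (by push_cast; linarith))
  have p05 := prod_on h.mx z5 (δ := u) (sin_ne 1 (by push_cast; linarith)
    (by push_cast; linarith))
  -- the circle about `x5` at the slot 5
  have a55 : 3 ∈ T (pt (pt z (u + 5)) (t + 5)) := by
    by_contra hcon
    have b55 : 0 ∈ T (pt (pt z (u + 5)) (t + 5)) := force h x5 (card3 _ _ _) 0 fun m hm =>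
      match m, hm with
      | 0, hm => absurd rfl hm
      | 1, _ => Or.inl (by simp)
      | 2, _ => Or.inr (notT h (p55 2 (by simp)))
      | 3, _ => Or.inr hcon
      | 4, _ => Or.inl (by simp)
      | 5, _ => Or.inl (by simp)
    have o55 := on_Lc h g55
    have b54 : 2 ∈ T (pt (pt z (u + 5)) (t + 4)) := force h x5 (card3 _ _ _) 2 fun m hm =>
      match m, hm with
      | 0, _ => Or.inr (notT h (on_prev h.mx (x := t + 4) (by
          rw [show t + 4 + 1 = t + 5 by ring]; exact o55) 0 b55))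
      | 1, _ => Or.inl (by simp)
      | 2, hm => absurd rfl hm
      | 3, _ => Or.inr (notT h (p54 3 (by simp)))
      | 4, _ => Or.inl (by simp)
      | 5, _ => Or.inl (by simp)
    have b50 : 2 ∈ T (pt (pt z (u + 5)) t) := force h x5 (card3 _ _ _) 2 fun m hm =>
      match m, hm with
      | 0, _ => Or.inr (notT h (by
          have h1 := on_succ h.mx o55 0 b55
          rwa [show t + 5 + 1 = t + 6 by ring, pt_six] at h1))
      | 1, _ => Or.inl (by simp)
      | 2, hm => absurd rfl hm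
      | 3, _ => Or.inr (notT h (p50 3 (by simp)))
      | 4, _ => Or.inl (by simp)
      | 5, _ => Or.inl (by simp)
    have e4 : pt z (u + 4) = pt (pt z (u + 5)) (u + 3) := by
      have h1 := nb1 z (u + 3)
      rw [show u + 3 + 1 = u + 4 by ring, show u + 3 + 2 = u + 5 by ring] at h1
      exact h1
    have q4 := prod_on h.mx (on_Lc h g54) (δ := u + 3) (sin_ne 0 (by push_cast; linarith)
      (by push_cast; linarith))
    have q0 := prod_on h.mx (on_Lc h g50) (δ := u + 3) (sin_ne (-2) (by push_cast; linarith)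
      (by push_cast; linarith))
    rw [← e4] at q4 q0
    have b44 : 5 ∈ T (pt (pt z (u + 4)) (t + 4)) := force h x4 (card3 _ _ _) 5 fun m hm =>
      match m, hm with
      | 0, _ => Or.inl (by simp)
      | 1, _ => Or.inr (notT h (p44 1 (by simp)))
      | 2, _ => Or.inr (notT h (q4 2 b54))
      | 3, _ => Or.inl (by simp)
      | 4, _ => Or.inl (by simp)
      | 5, hm => absurd rfl hm
    have b40 : 1 ∈ T (pt (pt z (u + 4)) t) := force h x4 (card3 _ _ _) 1 fun m hm =>
      match m, hm with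
      | 0, _ => Or.inl (by simp)
      | 1, hm => absurd rfl hm
      | 2, _ => Or.inr (notT h (q0 2 b50))
      | 3, _ => Or.inl (by simp)
      | 4, _ => Or.inl (by simp)
      | 5, _ => Or.inr (notT h (p40 5 (by simp)))
    have c5 : 5 ∉ T (pt (pt z (u + 4)) (t + 5)) := notT h (by
      have h1 := on_succ h.mx (on_Lc h g4) 5 b44
      rwa [show t + 4 + 1 = t + 5 by ring] at h1)
    have c1 : 1 ∉ T (pt (pt z (u + 4)) (t + 5)) := by
      have h0 : On U (pt z (u + 4)) (T (pt (pt z (u + 4)) t)) (t + 6) := by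
        have h1 := on_Lc h ((Lc_per (T := T) (pt z (u + 4)) t).2 g40)
        rwa [pt_six] at h1
      exact notT h (on_prev h.mx (x := t + 5) (by
        rw [show t + 5 + 1 = t + 6 by ring]; exact h0) 1 b40)
    have b45 : 5 ∈ T (pt (pt z (u + 4)) (t + 5)) := force h x4 (card3 _ _ _) 5 fun m hm =>
      match m, hm with
      | 0, _ => Or.inl (by simp)
      | 1, _ => Or.inr c1
      | 2, _ => Or.inr (notT h (p45 2 (by simp)))
      | 3, _ => Or.inl (by simp)
      | 4, _ => Or.inl (by simp)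
      | 5, hm => absurd rfl hm
    exact c5 b45
  -- the circle about `x0`
  have e0 : pt z u = pt (pt z (u + 5)) (u + 7) := by
    have h1 := nb2 z (u + 5)
    rw [show u + 5 + 1 = u + 6 by ring, show u + 5 + 2 = u + 7 by ring, pt_six] at h1
    exact h1
  have q5 := prod_on h.mx (on_Lc h g55) (δ := u + 7) (sin_ne (-1) (by push_cast; linarith)
    (by push_cast; linarith))
  rw [← e0] at q5
  exact force h x0 (card3 _ _ _) 1 fun m hm =>
    match m, hm with
    | 0, _ => Or.inl (by simp)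
    | 1, hm => absurd rfl hm
    | 2, _ => Or.inl (by simp)
    | 3, _ => Or.inr (notT h (q5 3 a55))
    | 4, _ => Or.inr (notT h (p05 4 (by simp)))
    | 5, _ => Or.inl (by simp)

/-- after `I` -/
theorem after_I (h : Irr U T) {z : ℂ} {u t : ℝ} (ht : u - 1 < t) (ht' : t < u)
    (x0 : T (pt z u) = {5, 0, 2}) (x1 : T (pt z (u + 1)) = {0, 1, 3})
    (z5 : On U z {4, 1} (t + 5)) (z0 : On U z {5, 2} t) (z1 : On U z {0, 3} (t + 1))
    (g05 : t + 5 ∈ Lc T (pt z u)) (g00 : t ∈ Lc T (pt z u)) (g10 : t ∈ Lc T (pt z (u + 1))) :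
    3 ∈ T (pt (pt z u) (t + 5)) ∧ 4 ∈ T (pt (pt z u) (t + 1)) := by
  have p05 := prod_on h.mx z5 (δ := u) (sin_ne 1 (by push_cast; linarith)
    (by push_cast; linarith))
  have p01 := prod_on h.mx z1 (δ := u) (sin_ne 0 (by push_cast; linarith)
    (by push_cast; linarith))
  have p10 := prod_on h.mx z0 (δ := u + 1) (sin_ne (-1) (by push_cast; linarith)
    (by push_cast; linarith))
  have a05 : 3 ∈ T (pt (pt z u) (t + 5)) := force h x0 (card3 _ _ _) 3 fun m hm =>
    match m, hm with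
    | 0, _ => Or.inl (by simp)
    | 1, _ => Or.inr (notT h (p05 1 (by simp)))
    | 2, _ => Or.inl (by simp)
    | 3, hm => absurd rfl hm
    | 4, _ => Or.inr (notT h (p05 4 (by simp)))
    | 5, _ => Or.inl (by simp)
  have a10 : 4 ∈ T (pt (pt z (u + 1)) t) := force h x1 (card3 _ _ _) 4 fun m hm =>
    match m, hm with
    | 0, _ => Or.inl (by simp)
    | 1, _ => Or.inl (by simp)
    | 2, _ => Or.inr (notT h (p10 2 (by simp)))
    | 3, _ => Or.inl (by simp)
    | 4, hm => absurd rfl hm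
    | 5, _ => Or.inr (notT h (p10 5 (by simp)))
  have e0 : pt z u = pt (pt z (u + 1)) (u - 1) := by
    have h1 := nb1 z (u - 1)
    rw [show u - 1 + 1 = u by ring, show u - 1 + 2 = u + 1 by ring] at h1
    exact h1
  have q0 := prod_on h.mx (on_Lc h g10) (δ := u - 1) (sin_ne 0 (by push_cast; linarith)
    (by push_cast; linarith))
  rw [← e0] at q0
  have c3 : 3 ∉ T (pt (pt z u) t) := notT h (by
    have h1 := on_succ h.mx (on_Lc h g05) 3 a05
    rwa [show t + 5 + 1 = t + 6 by ring, pt_six] at h1)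
  have a00 : 1 ∈ T (pt (pt z u) t) := force h x0 (card3 _ _ _) 1 fun m hm =>
    match m, hm with
    | 0, _ => Or.inl (by simp)
    | 1, hm => absurd rfl hm
    | 2, _ => Or.inl (by simp)
    | 3, _ => Or.inr c3
    | 4, _ => Or.inr (notT h (q0 4 a10))
    | 5, _ => Or.inl (by simp)
  refine ⟨a05, force h x0 (card3 _ _ _) 4 fun m hm =>
    match m, hm with
    | 0, _ => Or.inl (by simp)
    | 1, _ => Or.inr (notT h (on_succ h.mx (on_Lc h g00) 1 a00))
    | 2, _ => Or.inl (by simp)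
    | 3, _ => Or.inr (notT h (p01 3 (by simp)))
    | 4, hm => absurd rfl hm
    | 5, _ => Or.inl (by simp)⟩

/-- before `O` -/
theorem before_O (h : Irr U T) {z : ℂ} {v t : ℝ} (ht : v < t) (ht' : t < v + 1)
    (y0 : T (pt z v) = {5, 2, 3}) (y5 : T (pt z (v + 5)) = {4, 1, 2})
    (z4 : On U z {3, 0} (t + 4)) (z5 : On U z {4, 1} (t + 5)) (z0 : On U z {5, 2} t)
    (g05 : t + 5 ∈ Lc T (pt z v)) (g54 : t + 4 ∈ Lc T (pt z (v + 5)))
    (g55 : t + 5 ∈ Lc T (pt z (v + 5))) : 0 ∈ T (pt (pt z (v + 5)) t) := by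
  have p05 := prod_on h.mx z5 (δ := v) (sin_ne 1 (by push_cast; linarith)
    (by push_cast; linarith))
  have p54 := prod_on h.mx z4 (δ := v + 5) (sin_ne (-1) (by push_cast; linarith)
    (by push_cast; linarith))
  have p50 := prod_on h.mx z0 (δ := v + 5) (sin_ne (-2) (by push_cast; linarith)
    (by push_cast; linarith))
  have a05 : 0 ∈ T (pt (pt z v) (t + 5)) := force h y0 (card3 _ _ _) 0 fun m hm =>
    match m, hm with
    | 0, hm => absurd rfl hm
    | 1, _ => Or.inr (notT h (p05 1 (by simp)))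
    | 2, _ => Or.inl (by simp)
    | 3, _ => Or.inl (by simp)
    | 4, _ => Or.inr (notT h (p05 4 (by simp)))
    | 5, _ => Or.inl (by simp)
  have a54 : 5 ∈ T (pt (pt z (v + 5)) (t + 4)) := force h y5 (card3 _ _ _) 5 fun m hm =>
    match m, hm with
    | 0, _ => Or.inr (notT h (p54 0 (by simp)))
    | 1, _ => Or.inl (by simp)
    | 2, _ => Or.inl (by simp)
    | 3, _ => Or.inr (notT h (p54 3 (by simp)))
    | 4, _ => Or.inl (by simp)
    | 5, hm => absurd rfl hm
  have e5 : pt z (v + 5) = pt (pt z v) (v - 2) := by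
    have h1 := nb1 z (v - 2)
    rw [show v - 2 + 1 = v - 1 by ring, show v - 2 + 2 = v by ring] at h1
    rw [← h1, ← pt_six z (v - 1)]
    congr 1; ring
  have q5 := prod_on h.mx (on_Lc h g05) (δ := v - 2) (sin_ne 2 (by push_cast; linarith)
    (by push_cast; linarith))
  rw [← e5] at q5
  have c5 : 5 ∉ T (pt (pt z (v + 5)) (t + 5)) := notT h (by
    have h1 := on_succ h.mx (on_Lc h g54) 5 a54
    rwa [show t + 4 + 1 = t + 5 by ring] at h1)
  have a55 : 3 ∈ T (pt (pt z (v + 5)) (t + 5)) := force h y5 (card3 _ _ _) 3 fun m hm =>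
    match m, hm with
    | 0, _ => Or.inr (notT h (q5 0 a05))
    | 1, _ => Or.inl (by simp)
    | 2, _ => Or.inl (by simp)
    | 3, hm => absurd rfl hm
    | 4, _ => Or.inl (by simp)
    | 5, _ => Or.inr c5
  have c3 : 3 ∉ T (pt (pt z (v + 5)) t) := notT h (by
    have h1 := on_succ h.mx (on_Lc h g55) 3 a55
    rwa [show t + 5 + 1 = t + 6 by ring, pt_six] at h1)
  exact force h y5 (card3 _ _ _) 0 fun m hm =>
    match m, hm with
    | 0, hm => absurd rfl hm
    | 1, _ => Or.inl (by simp)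
    | 2, _ => Or.inl (by simp)
    | 3, _ => Or.inr c3
    | 4, _ => Or.inl (by simp)
    | 5, _ => Or.inr (notT h (p50 5 (by simp)))

theorem sin_pos3 {x : ℝ} (h : 0 < x) (h' : x < 3) : 0 < Real.sin (x * (Real.pi / 3)) := by
  have hpi := Real.pi_pos
  exact Real.sin_pos_of_pos_of_lt_pi (by positivity) (by nlinarith)

theorem sin_neg3 {x : ℝ} (h : 3 < x) (h' : x < 6) : Real.sin (x * (Real.pi / 3)) < 0 := by
  have h1 := sin_pos3 (x := x - 3) (by linarith) (by linarith)
  have e : x * (Real.pi / 3) = (x - 3) * (Real.pi / 3) + Real.pi := by ring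
  rw [e, Real.sin_add_pi]; linarith

theorem sin_neg0 {x : ℝ} (h : -3 < x) (h' : x < 0) : Real.sin (x * (Real.pi / 3)) < 0 := by
  have h1 := sin_pos3 (x := -x) (by linarith) (by linarith)
  rw [neg_mul, Real.sin_neg] at h1
  linarith

theorem sin_pos6 {x : ℝ} (h : -6 < x) (h' : x < -3) : 0 < Real.sin (x * (Real.pi / 3)) := by
  have h1 := sin_pos3 (x := x + 6) (by linarith) (by linarith)
  have e : (x + 6) * (Real.pi / 3) = x * (Real.pi / 3) + 2 * Real.pi := by ring
  rwa [e, Real.sin_add_two_pi] at h1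

/-- a moving point and a property near its limit -/
theorem ev_move (c : ℂ) (a : ℝ) {b : ℝ} {x : ℂ} (hx : pt c (b + a) = x) {p : ℂ → Prop}
    (hp : ∀ᶠ w in 𝓝 x, p w) : ∀ᶠ t in 𝓝 b, p (pt c (t + a)) := by
  have h1 : Continuous fun t : ℝ => pt c (t + a) := (continuous_pt c).comp (by fun_prop)
  have h2 := h1.tendsto b
  simp only [hx] at h2
  exact h2.eventually hp

theorem isOpen_On3 (z : ℂ) (P Q R : Set (Fin 6)) (a b c : ℝ) :
    IsOpen {t | On U z P (t + a) ∧ On U z Q (t + b) ∧ On U z R (t + c)} :=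
  ((isOpen_On z P).preimage (by fun_prop : Continuous fun t : ℝ => t + a)).inter
    (((isOpen_On z Q).preimage (by fun_prop : Continuous fun t : ℝ => t + b)).inter
      ((isOpen_On z R).preimage (by fun_prop : Continuous fun t : ℝ => t + c)))

/-- **The conveyors `I` at the time `v` and `O` at the time `u` exclude each other** (`u - 1 < v < u`,
units of 60 degrees). -/
theorem no_pair_core (h : Irr U T) {z : ℂ} {u v : ℝ} (huv : u - 1 < v) (hvu : v < u)
    (x0 : T (pt z u) = {5, 0, 2}) (x1 : T (pt z (u + 1)) = {0, 1, 3})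
    (x4 : T (pt z (u + 4)) = {3, 4, 0}) (x5 : T (pt z (u + 5)) = {4, 5, 1})
    (y0 : T (pt z v) = {5, 2, 3}) (y5 : T (pt z (v + 5)) = {4, 1, 2})
    (sx : ∀ᶠ w in 𝓝 (pt z u), (dist w z < 1 → 2 ∉ T w) ∧ (1 < dist w z → 5 ∉ T w ∧ 0 ∉ T w))
    (sy : ∀ᶠ w in 𝓝 (pt z v), (dist w z < 1 → 2 ∉ T w ∧ 3 ∉ T w) ∧ (1 < dist w z → 5 ∉ T w))
    (sy5 : ∀ᶠ w in 𝓝 (pt z (v + 5)),
      (dist w z < 1 → 1 ∉ T w ∧ 2 ∉ T w) ∧ (1 < dist w z → 4 ∉ T w))
    (bI : ∃ᶠ t in 𝓝[<] v, On U z {3, 1} (t + 4) ∧ On U z {4, 2} (t + 5) ∧ On U z {5, 3} (t + 0))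
    (aI : ∃ᶠ t in 𝓝[>] v, On U z {4, 1} (t + 5) ∧ On U z {5, 2} (t + 0) ∧ On U z {0, 3} (t + 1))
    (bO : ∃ᶠ t in 𝓝[<] u, On U z {3, 0} (t + 4) ∧ On U z {4, 1} (t + 5) ∧ On U z {5, 2} (t + 0)) :
    False := by
  set q := pt (pt z u) (v + 5) with hq
  set p := pt (pt z u) v with hp
  -- positions
  have hopp : ∀ (c : ℂ) (a b : ℝ), b = a + 3 → pt (pt c a) b = c := by
    intro c a b hb
    rw [pt_pt, hb]
    have h1 : cis ((a + 3) * (Real.pi / 3)) = -cis (a * (Real.pi / 3)) := by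
      rw [show (a + 3) * (Real.pi / 3) = a * (Real.pi / 3) + Real.pi by ring,
        Vale.Agent.P032.Six.cis_add, cis_pi]
      ring
    rw [h1]; ring
  have hq' : q = pt (pt z (v + 5)) u := pt_comm z u (v + 5)
  have hp' : p = pt (pt z v) u := pt_comm z u v
  have e1 : pt q (v + 2) = pt z u := by
    rw [← pt_six q (v + 2), show v + 2 + 6 = v + 8 by ring]
    exact hopp _ _ _ (by ring)
  have e2 : pt p (v + 3) = pt z u := hopp _ _ _ rfl
  have e3 : pt q (u + 3) = pt z (v + 5) := by rw [hq']; exact hopp _ _ _ rfl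
  have e4 : pt p (u + 3) = pt z v := by rw [hp']; exact hopp _ _ _ rfl
  have e5 : pt q (v + 1) = p := by
    have h1 := nb2 (pt z u) (v - 1)
    rw [show v - 1 + 1 = v by ring, show v - 1 + 2 = v + 1 by ring,
      ← pt_six (pt z u) (v - 1), show v - 1 + 6 = v + 5 by ring] at h1
    exact h1.symm
  -- the sides
  have s1 : ∀ᶠ t in 𝓝 v, (v < t → dist (pt q (t + 2)) z < 1) ∧
      (t < v → 1 < dist (pt q (t + 2)) z) := by
    have h1 := turn_neg z (a := u) (b := v + 5) (sin_neg3 (by linarith) (by linarith))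
    have h2 : Tendsto (fun t : ℝ => t + 5) (𝓝 v) (𝓝 (v + 5)) := by
      have : Continuous fun t : ℝ => t + 5 := by fun_prop
      exact this.tendsto v
    filter_upwards [h2.eventually h1] with t ht
    have h3 : pt (pt (pt z u) (v + 5)) (t + 5 + 3) = pt q (t + 2) := by
      rw [← pt_six q (t + 2)]; congr 1; ring
    rw [h3] at ht
    exact ⟨fun h4 => ht.1 (by linarith), fun h4 => ht.2 (by linarith)⟩
  have s2 := turn_neg z (a := u) (b := v) (sin_neg0 (by linarith) (by linarith))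
  have s3 := turn_pos z (a := v + 5) (b := u) (sin_pos6 (by linarith) (by linarith))
  have s4 := turn_pos z (a := v) (b := u) (sin_pos3 (by linarith) (by linarith))
  rw [← hq'] at s3
  rw [← hp'] at s4
  rw [← hp] at s2
  -- palettes near the lattice points
  have m1 := ev_move (pt z u) 5 (b := v) (x := q) rfl (h.nhd q)
  have m2 := ev_move q 2 e1 ((h.nhd (pt z u)).and sx)
  have m3 := ev_move p 3 e2 ((h.nhd (pt z u)).and sx)
  have m4 := ev_move q 1 e5 (h.nhd p)
  have m5 : ∀ᶠ t in 𝓝 u, T (pt (pt z (v + 5)) (t + 0)) ⊆ T q :=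
    ev_move (pt z (v + 5)) 0 (b := u) (x := q) (by rw [add_zero]; exact hq'.symm) (h.nhd q)
  have m6 := ev_move q 3 e3 ((h.nhd (pt z (v + 5))).and sy5)
  have m7 := ev_move p 3 e4 ((h.nhd (pt z v)).and sy)
  have hnear : ∀ᶠ t in 𝓝 v, u - 1 < t ∧ t < u := Ioo_mem_nhds huv hvu
  have hnear' : ∀ᶠ t in 𝓝 u, v < t ∧ t < v + 1 := Ioo_mem_nhds hvu (by linarith)
  -- the time before `I`
  obtain ⟨t1, ⟨za, zb, zc⟩, ⟨⟨⟨n1, n1'⟩, a1, ⟨a2, a2'⟩, a3, a3'⟩, ⟨b1, b2⟩, b3⟩, g1⟩ :=
    pick_left bI (isOpen_On3 z _ _ _ 4 5 0)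
    ((((hnear.and (m1.and (m2.and m3))).filter_mono nhdsWithin_le_nhds)).and
      (((s1.and s2).filter_mono nhdsWithin_le_nhds).and self_mem_nhdsWithin))
    (Lall_dense (z := ![pt z (u + 4), pt z (u + 5)]) (φ := 0) h)
  have ht1 : t1 < v := b3
  have k1 : 1 ∈ T q := by
    rw [add_zero] at zc
    refine a1 (before_I h n1 n1' x4 x5 x0 za zb zc ?_ ?_ ?_ ?_ ?_)
    · simpa using gen_of g1 0 4
    · simpa using gen_of g1 0 0
    · simpa using gen_of g1 1 4
    · simpa using gen_of g1 1 5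
    · simpa using gen_of g1 1 0
  have k2 : 2 ∉ T q := by
    refine single_free h (t := t1 + 2) fun i hi => ?_
    have h1 := a2 hi
    rw [x0] at h1
    have h2 := a2'.2 (b1.2 ht1)
    rcases h1 with rfl | rfl | h1
    · exact absurd hi h2.1
    · exact absurd hi h2.2
    · exact h1
  have k3 : 2 ∉ T p := by
    refine single_free h (t := t1 + 3) fun i hi => ?_
    have h1 := a3 hi
    rw [x0] at h1
    have h2 := a3'.2 (b2.2 ht1)
    rcases h1 with rfl | rfl | h1
    · exact absurd hi h2.1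
    · exact absurd hi h2.2
    · exact h1
  -- the time before `O`
  obtain ⟨t3, ⟨zd, ze, zf⟩, ⟨⟨⟨n3, n3'⟩, a5, ⟨a6, a6'⟩, a7, a7'⟩, ⟨b5, b6⟩, b7⟩, g3⟩ :=
    pick_left bO (isOpen_On3 z _ _ _ 4 5 0)
    ((((hnear'.and (m5.and (m6.and m7))).filter_mono nhdsWithin_le_nhds)).and
      (((s3.and s4).filter_mono nhdsWithin_le_nhds).and self_mem_nhdsWithin))
    (Lall_dense (z := ![pt z v, pt z (v + 5)]) (φ := 0) h)
  have ht3 : t3 < u := b7
  have k4 : 0 ∈ T q := by
    rw [add_zero] at zf a5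
    refine a5 (before_O h n3 n3' y0 y5 zd ze zf ?_ ?_ ?_)
    · simpa using gen_of g3 0 5
    · simpa using gen_of g3 1 4
    · simpa using gen_of g3 1 5
  have k5 : 4 ∉ T q := by
    refine single_free h (t := t3 + 3) fun i hi => ?_
    have h1 := a6 hi
    rw [y5] at h1
    have h2 := a6'.1 (b5.2 ht3)
    rcases h1 with h1 | rfl | rfl
    · exact h1
    · exact absurd hi h2.1
    · exact absurd hi h2.2
  have k6 : 5 ∉ T p := by
    refine single_free h (t := t3 + 3) fun i hi => ?_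
    have h1 := a7 hi
    rw [y0] at h1
    have h2 := a7'.1 (b6.2 ht3)
    rcases h1 with h1 | rfl | rfl
    · exact h1
    · exact absurd hi h2.1
    · exact absurd hi h2.2
  -- the time after `O`
  have hT : ∃ᶠ t in 𝓝[>] u, True := (Eventually.of_forall fun _ => trivial).frequently
  obtain ⟨t4, -, ⟨⟨⟨n4, n4'⟩, -, ⟨a8, a8'⟩, a9, a9'⟩, ⟨b8, b9⟩, b10⟩, g4⟩ :=
    pick_right hT (by simp)
    ((((hnear'.and (m5.and (m6.and m7))).filter_mono nhdsWithin_le_nhds)).and
      (((s3.and s4).filter_mono nhdsWithin_le_nhds).and self_mem_nhdsWithin))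
    (Lall_dense (z := ![q]) (φ := 0) h)
  have ht4 : u < t4 := b10
  have gq4 : t4 + 3 ∈ Lc T q := by simpa using gen_of g4 0 3
  have k7 : 2 ∈ T (pt q (t4 + 3)) := by
    by_contra hcon
    refine single_free h (c := q) (t := t4 + 3) (i := 1) (fun i hi => ?_) k1
    have h1 := a8 hi
    rw [y5] at h1
    have h2 := a8'.2 (b8.1 ht4)
    rcases h1 with rfl | h1 | rfl
    · exact absurd hi h2
    · exact h1
    · exact absurd hi hcon
  have k8 : 3 ∉ T p := by
    have epq : p = pt q (v + 1) := e5.symm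
    have h1 := prod_on h.mx (on_Lc h gq4) (δ := v + 1) (sin_ne 0 (by push_cast; linarith)
      (by push_cast; linarith)) 2 k7
    rw [← epq] at h1
    have h3 := notT h h1
    refine single_free h (t := t4 + 3) fun i hi => ?_
    have h4 := a9 hi
    rw [y0] at h4
    have h2 := a9'.2 (b9.1 ht4)
    rcases h4 with rfl | rfl | h4
    · exact absurd hi h2
    · exact absurd hi h3
    · exact h4
  -- the time after `I`
  obtain ⟨t2, ⟨zg, zh, zi⟩, ⟨⟨⟨n2, n2'⟩, ⟨a10, a10'⟩, a11⟩, b11, b12⟩, g2⟩ :=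
    pick_right aI (isOpen_On3 z _ _ _ 5 0 1)
    ((((hnear.and (m2.and m4)).filter_mono nhdsWithin_le_nhds)).and
      ((s1.filter_mono nhdsWithin_le_nhds).and self_mem_nhdsWithin))
    (Lall_dense (z := ![pt z u, pt z (u + 1), q]) (φ := 0) h)
  have ht2 : v < t2 := b12
  have hc := (after_I h n2 n2' x0 x1 zg (by rw [add_zero] at zh; exact zh) zi
    (by simpa using gen_of g2 0 5) (by simpa using gen_of g2 0 0)
    (by simpa using gen_of g2 1 0)).2
  have gx1 : t2 + 1 ∈ Lc T (pt z u) := by simpa using gen_of g2 0 1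
  have gq1 : t2 + 1 ∈ Lc T q := by simpa using gen_of g2 2 1
  have c4 : 4 ∉ T (pt q (t2 + 1)) := by
    have h1 := prod_on h.mx (on_Lc h gx1) (δ := v + 5) (sin_ne (-2) (by push_cast; linarith)
      (by push_cast; linarith)) 4 hc
    exact notT h h1
  have hsub : T (pt q (t2 + 1)) ⊆ {0, 1} := by
    intro i hi
    have h1 : i ∈ T p := a11 hi
    match i, hi, h1 with
    | 0, _, _ => exact Or.inl rfl
    | 1, _, _ => exact Or.inr rfl
    | 2, _, h1 => exact absurd h1 k3
    | 3, _, h1 => exact absurd h1 k8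
    | 4, hi, _ => exact absurd hi c4
    | 5, _, h1 => exact absurd h1 k6
  have k9 : 0 ∈ T (pt q (t2 + 1)) := by
    by_contra hcon
    refine single_free h (c := q) (t := t2 + 1) (i := 1) (fun i hi => ?_) k1
    rcases hsub hi with rfl | h1
    · exact absurd hi hcon
    · exact h1
  have k10 : 5 ∉ T q := by
    have h0 : 0 ∉ T (pt q (t2 + 2)) := by
      have h1 := on_succ h.mx (on_Lc h gq1) 0 k9
      rw [show t2 + 1 + 1 = t2 + 2 by ring] at h1
      exact notT h h1
    refine single_free h (t := t2 + 2) fun i hi => ?_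
    have h1 := a10 hi
    rw [x0] at h1
    have h2 := a10'.1 (b11.1 ht2)
    rcases h1 with h1 | rfl | rfl
    · exact h1
    · exact absurd hi h0
    · exact absurd hi h2
  -- the palette of `q`
  have hTq : T q ⊆ {0, 1, 3} := by
    intro i hi
    match i, hi with
    | 0, _ => simp
    | 1, _ => simp
    | 2, hi => exact absurd hi k2
    | 3, _ => simp
    | 4, hi => exact absurd hi k5
    | 5, hi => exact absurd hi k10
  refine h.not_sub (x := q) (y := pt q (t2 + 1)) (dist_pt q _)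
    ((Set.ncard_le_ncard hTq (Set.toFinite _)).trans (card3 0 1 3)) ?_
  intro i hi
  rcases hsub hi with rfl | h1
  · exact k4
  · rw [mem_singleton_iff] at h1
    rw [h1]; exact k1

/-- the data of the two conveyors, `N` = names of the colours, `s = 1` or `s = -1` orientation -/
structure IO (U : Fin 6 → Set ℂ) (T : ℂ → Set (Fin 6)) (N : Equiv.Perm (Fin 6)) (z : ℂ)
    (u v : ℝ) : Prop where
  lt : u - 1 < v
  lt' : v < u
  x0 : T (pt z u) = {N 5, N 0, N 2}
  x1 : T (pt z (u + 1)) = {N 0, N 1, N 3}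
  x4 : T (pt z (u + 4)) = {N 3, N 4, N 0}
  x5 : T (pt z (u + 5)) = {N 4, N 5, N 1}
  y0 : T (pt z v) = {N 5, N 2, N 3}
  y5 : T (pt z (v + 5)) = {N 4, N 1, N 2}
  sx : ∀ᶠ w in 𝓝 (pt z u),
    (dist w z < 1 → N 2 ∉ T w) ∧ (1 < dist w z → N 5 ∉ T w ∧ N 0 ∉ T w)
  sy : ∀ᶠ w in 𝓝 (pt z v),
    (dist w z < 1 → N 2 ∉ T w ∧ N 3 ∉ T w) ∧ (1 < dist w z → N 5 ∉ T w)
  sy5 : ∀ᶠ w in 𝓝 (pt z (v + 5)),
    (dist w z < 1 → N 1 ∉ T w ∧ N 2 ∉ T w) ∧ (1 < dist w z → N 4 ∉ T w)
  bI : ∃ᶠ t in 𝓝[<] v,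
    On U z {N 3, N 1} (t + 4) ∧ On U z {N 4, N 2} (t + 5) ∧ On U z {N 5, N 3} (t + 0)
  aI : ∃ᶠ t in 𝓝[>] v,
    On U z {N 4, N 1} (t + 5) ∧ On U z {N 5, N 2} (t + 0) ∧ On U z {N 0, N 3} (t + 1)
  bO : ∃ᶠ t in 𝓝[<] u,
    On U z {N 3, N 0} (t + 4) ∧ On U z {N 4, N 1} (t + 5) ∧ On U z {N 5, N 2} (t + 0)

theorem On.perm {z : ℂ} (N : Equiv.Perm (Fin 6)) {P Q : Set (Fin 6)} {t : ℝ} (h : On U z P t)
    (hQ : N '' Q ⊆ P) : On (fun i => U (N i)) z Q t :=
  Filter.Eventually.mono h fun _ hs i hi => hs (hQ ⟨i, hi, rfl⟩)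

theorem pre3 (N : Equiv.Perm (Fin 6)) (a b c : Fin 6) :
    N ⁻¹' ({N a, N b, N c} : Set (Fin 6)) = {a, b, c} := by
  ext i; simp

theorem img2 (N : Equiv.Perm (Fin 6)) (a b : Fin 6) :
    N '' ({a, b} : Set (Fin 6)) ⊆ {N a, N b} := by
  rintro _ ⟨i, rfl | rfl, rfl⟩
  · exact Or.inl rfl
  · exact Or.inr rfl

/-- **The conveyors `I` and `O` of order three exclude each other**, any names of the colours. -/
theorem no_pair (h : Irr U T) {N : Equiv.Perm (Fin 6)} {z : ℂ} {u v : ℝ} (H : IO U T N z u v) :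
    False := by
  have h' := h.permH N
  refine no_pair_core h' H.lt H.lt' (z := z) ?_ ?_ ?_ ?_ ?_ ?_ H.sx H.sy H.sy5
    (H.bI.mono fun t ht => ⟨ht.1.perm N (img2 N _ _), ht.2.1.perm N (img2 N _ _),
      ht.2.2.perm N (img2 N _ _)⟩)
    (H.aI.mono fun t ht => ⟨ht.1.perm N (img2 N _ _), ht.2.1.perm N (img2 N _ _),
      ht.2.2.perm N (img2 N _ _)⟩)
    (H.bO.mono fun t ht => ⟨ht.1.perm N (img2 N _ _), ht.2.1.perm N (img2 N _ _),
      ht.2.2.perm N (img2 N _ _)⟩)
  · rw [H.x0]; exact pre3 N _ _ _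
  · rw [H.x1]; exact pre3 N _ _ _
  · rw [H.x4]; exact pre3 N _ _ _
  · rw [H.x5]; exact pre3 N _ _ _
  · rw [H.y0]; exact pre3 N _ _ _
  · rw [H.y5]; exact pre3 N _ _ _

end six

end Vale.Agent.P032.H989
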