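import Vale.Agent.P032.H187.Product
import Vale.Agent.P032.S5.H360.Degree
import Vale.Agent.P032.S5.H80.Ray

/-!
# P032: the prism rule

`y`, `z` two centres, `u` a point of `S(y)` which is a limit of `Q`-arcs of `S(z)`, `e` a direction,
`S(y)` carries `X` and `S(z)` carries `Y` in the direction `e`: near `u + e` there are points without
the colours of `X`, `Y`, `Q`.  Consequences for two two-pair points with a common pair.
-/

open Set Filter Topology Metric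

noncomputable section

namespace Vale.Agent.P032.H989

open Vale.Agent.P032.Six Vale.Agent.P032.H187 Vale.Agent.P032.S5.H767

variable {k : ℕ} {U : Fin k → Set ℂ} {T : ℂ → Set (Fin k)}

/-- an arc of `S(c)` which is crossed by `S(p)` is crossed by all circles near `S(p)` -/
theorem cross_ev (h : Mx U) {c w p : ℂ} {X : Set (Fin k)} (hw : w ∈ Cr U c X)
    (hp : dist w p = 1) (h1 : p ≠ c) (h2 : p + c ≠ 2 * w) :
    ∀ᶠ v in 𝓝 p, ∀ i ∈ X, i ∉ Pal U v := by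
  obtain ⟨θ, hθ⟩ := exists_cis (u := w - c) (by rw [← dist_eq_norm]; exact hw.1)
  have hpθ : c + cis θ = w := by rw [← hθ]; ring
  obtain ⟨s, hs, hsub⟩ := mem_nhdsWithin_iff_exists_mem_nhds_inter.1 hw.2
  have hc : ContinuousAt (fun t => c + cis t) θ :=
    (continuous_const.add continuous_cis).continuousAt
  have hpre : (fun t => c + cis t) ⁻¹' s ∈ 𝓝 θ := hc.preimage_mem_nhds (by rw [hpθ]; exact hs)
  obtain ⟨η, hη, hball⟩ := Metric.mem_nhds_iff.1 hpre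
  have hcr : cr (cis θ) (c + cis θ - p) ≠ 0 := by
    rw [hpθ, ← hθ]
    exact cr_ne hw.1 hp h1.symm (by rw [add_comm]; exact h2)
  obtain ⟨t1, t2, h3, h4, h5, h6⟩ := circle_signs (c := c) (q := p) (t0 := θ)
    (by rw [hpθ]; exact hp) hcr hη
  have e1 : ∀ᶠ v in 𝓝 p, dist (c + cis t1) v < 1 :=
    (continuous_const.dist continuous_id).continuousAt.eventually (Iio_mem_nhds h5)
  have e2 : ∀ᶠ v in 𝓝 p, 1 < dist (c + cis t2) v :=
    (continuous_const.dist continuous_id).continuousAt.eventually (Ioi_mem_nhds h6)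
  filter_upwards [e1, e2] with v hv1 hv2 i hi
  refine h.swept (z := c) (t1 := t1) (t2 := t2) ?_ hv1 hv2
  intro t ht
  have ht1 : |t - θ| < η := by
    rw [abs_lt] at *
    rcases le_total t1 t2 with h7 | h7
    · rw [uIcc_of_le h7] at ht
      exact ⟨by linarith [ht.1], by linarith [ht.2]⟩
    · rw [uIcc_of_ge h7] at ht
      exact ⟨by linarith [ht.1], by linarith [ht.2]⟩
  exact hsub ⟨hball (by rw [mem_ball, Real.dist_eq]; exact ht1), dist_add_cis c t⟩ hi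

/-- **Prism rule**, generic direction. -/
theorem prism_gen (h : Mx U) {y z u e : ℂ} {X Y Q : Set (Fin k)} (he : ‖e‖ = 1)
    (hyu : dist u y = 1) (hX : y + e ∈ Cr U y X) (hY : z + e ∈ Cr U z Y)
    (hQ : u ∈ closure (Cr U z Q)) (e1 : e ≠ u - y) (e2 : e ≠ y - u) (e3 : e ≠ u - z)
    (e4 : e ≠ z - u) : ∃ᶠ p in 𝓝 (u + e), ∀ i, i ∈ X ∨ i ∈ Y ∨ i ∈ Q → i ∉ Pal U p := by
  have hzu : dist u z = 1 := by
    have h1 : closure (Cr U z Q) ⊆ sphere z 1 :=
      closure_minimal (fun q hq => hq.1) isClosed_sphere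
    exact h1 hQ
  -- the colours of `X` and `Y`
  have hXe : ∀ᶠ v in 𝓝 (u + e), ∀ i ∈ X, i ∉ Pal U v := by
    refine cross_ev h hX ?_ ?_ ?_
    · rw [dist_eq_norm] at hyu ⊢
      rw [← hyu, ← norm_neg]; congr 1; ring
    · intro h3; exact e2 (by linear_combination h3)
    · intro h3; exact e1 (by linear_combination -h3)
  have hYe : ∀ᶠ v in 𝓝 (u + e), ∀ i ∈ Y, i ∉ Pal U v := by
    refine cross_ev h hY ?_ ?_ ?_
    · rw [dist_eq_norm] at hzu ⊢
      rw [← hzu, ← norm_neg]; congr 1; ring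
    · intro h3; exact e4 (by linear_combination h3)
    · intro h3; exact e3 (by linear_combination -h3)
  -- the points `a + e`
  have hT : Tendsto (fun a : ℂ => a + e) (𝓝 u) (𝓝 (u + e)) := by
    have h1 : Continuous fun a : ℂ => a + e := by fun_prop
    exact h1.tendsto u
  have h3 : ∀ᶠ a in 𝓝 u, e ≠ a - z := by
    have h4 : Tendsto (fun a : ℂ => a - z) (𝓝 u) (𝓝 (u - z)) := by
      have h1 : Continuous fun a : ℂ => a - z := by fun_prop
      exact h1.tendsto u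
    exact (h4.eventually (isOpen_ne.mem_nhds e3.symm)).mono fun a ha => Ne.symm ha
  have h4 : ∀ᶠ a in 𝓝 u, e ≠ z - a := by
    have h4 : Tendsto (fun a : ℂ => z - a) (𝓝 u) (𝓝 (z - u)) := by
      have h1 : Continuous fun a : ℂ => z - a := by fun_prop
      exact h1.tendsto u
    exact (h4.eventually (isOpen_ne.mem_nhds e4.symm)).mono fun a ha => Ne.symm ha
  have h5 := (mem_closure_iff_frequently.1 hQ).and_eventually
    ((hT.eventually (hXe.and hYe)).and (h3.and h4))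
  refine hT.frequently (h5.mono ?_)
  rintro a ⟨haQ, ⟨hX1, hY1⟩, h6, h7⟩ i (hi | hi | hi)
  · exact hX1 i hi
  · exact hY1 i hi
  · refine Cr_line h haQ hi ?_ ?_ ?_
    · rw [dist_eq_norm]
      have : a - (a + e) = -e := by ring
      rw [this, norm_neg, he]
    · intro h8; exact h7 (by linear_combination h8)
    · intro h8; exact h6 (by linear_combination h8)

/-- a direction can be moved off four given directions -/
theorem exists_dir {e : ℂ} (he : ‖e‖ = 1) {s : Set ℂ} (hs : s ∈ 𝓝 e) (b1 b2 b3 b4 : ℂ) :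
    ∃ e' ∈ s, ‖e'‖ = 1 ∧ e' ≠ b1 ∧ e' ≠ b2 ∧ e' ≠ b3 ∧ e' ≠ b4 := by
  obtain ⟨θ, rfl⟩ := exists_cis he
  have h0 : Complex.I * cis θ ≠ 0 := by
    refine mul_ne_zero Complex.I_ne_zero fun h1 => ?_
    have := norm_cis θ
    rw [h1] at this; simp at this
  have hb : ∀ b : ℂ, ∀ᶠ t in 𝓝[≠] θ, cis t ≠ b := fun b => (hasDerivAt_cis θ).eventually_ne h0
  have hs' : ∀ᶠ t in 𝓝[≠] θ, cis t ∈ s :=
    (continuous_cis.continuousAt.eventually
      (show ∀ᶠ x in 𝓝 (cis θ), x ∈ s from hs)).filter_mono nhdsWithin_le_nhds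
  obtain ⟨t, h1, h2, h3, h4, h5⟩ :=
    (hs'.and ((hb b1).and ((hb b2).and ((hb b3).and (hb b4))))).exists
  exact ⟨cis t, h1, norm_cis t, h2, h3, h4, h5⟩

/-- `Cr` is open in the circle -/
theorem Cr_open {z a : ℂ} {P : Set (Fin k)} (ha : a ∈ Cr U z P) :
    ∀ᶠ q in 𝓝[sphere z 1] a, q ∈ Cr U z P := by
  filter_upwards [eventually_eventually_nhdsWithin.2 ha.2, self_mem_nhdsWithin] with q h1 h2
  exact ⟨h2, h1⟩

theorem Cr_dir {z e : ℂ} {P : Set (Fin k)} (ha : z + e ∈ Cr U z P) :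
    ∀ᶠ e' in 𝓝 e, ‖e'‖ = 1 → z + e' ∈ Cr U z P := by
  have h1 := eventually_nhdsWithin_iff.1 (Cr_open ha)
  have h2 : Tendsto (fun a : ℂ => z + a) (𝓝 e) (𝓝 (z + e)) := by
    have h1 : Continuous fun a : ℂ => z + a := by fun_prop
    exact h1.tendsto e
  filter_upwards [h2.eventually h1] with e' h3 h4
  exact h3 (by rw [mem_sphere, dist_eq_norm, add_sub_cancel_left, h4])

/-- **Prism rule** (113). -/
theorem prism (h : Mx U) {y z u e : ℂ} {X Y Q : Set (Fin k)} (he : ‖e‖ = 1)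
    (hyu : dist u y = 1) (hX : y + e ∈ Cr U y X) (hY : z + e ∈ Cr U z Y)
    (hQ : u ∈ closure (Cr U z Q)) :
    ∃ᶠ p in 𝓝 (u + e), ∀ i, i ∈ X ∨ i ∈ Y ∨ i ∈ Q → i ∉ Pal U p := by
  rw [frequently_iff]
  intro N hN
  obtain ⟨N', hN'N, hN'o, hN'⟩ := _root_.mem_nhds_iff.1 hN
  have hT : Tendsto (fun a : ℂ => u + a) (𝓝 e) (𝓝 (u + e)) := by
    have h1 : Continuous fun a : ℂ => u + a := by fun_prop
    exact h1.tendsto e
  have h1 := hT.eventually (hN'o.mem_nhds hN')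
  obtain ⟨e', ⟨h2, h3, h4⟩, h5, h6, h7, h8, h9⟩ :=
    exists_dir he (h1.and ((Cr_dir hX).and (Cr_dir hY))) (u - y) (y - u) (u - z) (z - u)
  obtain ⟨p, hp, hpN⟩ := ((prism_gen h h5 hyu (h3 h5) (h4 h5) hQ h6 h7 h8 h9).and_eventually
    (hN'o.mem_nhds h2)).exists
  exact ⟨p, hN'N hpN, hp⟩

/-- closed form: the letters `X`, `Y` are met in directions converging to `e` -/
theorem prism_cl (h : Mx U) {y z u e : ℂ} {X Y Q : Set (Fin k)} (hyu : dist u y = 1)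
    (hE : ∃ᶠ e' in 𝓝 e, ‖e'‖ = 1 ∧ y + e' ∈ Cr U y X ∧ z + e' ∈ Cr U z Y)
    (hQ : u ∈ closure (Cr U z Q)) :
    ∃ᶠ p in 𝓝 (u + e), ∀ i, i ∈ X ∨ i ∈ Y ∨ i ∈ Q → i ∉ Pal U p := by
  rw [frequently_iff]
  intro N hN
  obtain ⟨N', hN'N, hN'o, hN'⟩ := _root_.mem_nhds_iff.1 hN
  have hT : Tendsto (fun a : ℂ => u + a) (𝓝 e) (𝓝 (u + e)) := by
    have h1 : Continuous fun a : ℂ => u + a := by fun_prop
    exact h1.tendsto e
  obtain ⟨e', ⟨h1, h2, h3⟩, h4⟩ := (hE.and_eventually (hT.eventually (hN'o.mem_nhds hN'))).exists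
  obtain ⟨p, hp, hpN⟩ := ((prism h h1 hyu h2 h3 hQ).and_eventually (hN'o.mem_nhds h4)).exists
  exact ⟨p, hN'N hpN, hp⟩

/-- **Prism rule**: the three palettes are not everything -/
theorem prism_ne (h : Mx U) {y z u e : ℂ} {X Y Q : Set (Fin k)} (he : ‖e‖ = 1)
    (hyu : dist u y = 1) (hX : y + e ∈ Cr U y X) (hY : z + e ∈ Cr U z Y)
    (hQ : u ∈ closure (Cr U z Q)) : ¬ ∀ i, i ∈ X ∨ i ∈ Y ∨ i ∈ Q := by
  intro hall
  obtain ⟨p, hp⟩ := (prism h he hyu hX hY hQ).exists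
  obtain ⟨i, hi⟩ := h.cover p
  exact hp i (hall i) hi

/-- **Prism rule**, third vertex: the palette of `u + e` is not contained in the union -/
theorem prism_T (h : Irr U T) {y z u e : ℂ} {X Y Q : Set (Fin k)} (he : ‖e‖ = 1)
    (hyu : dist u y = 1) (hX : y + e ∈ Cr U y X) (hY : z + e ∈ Cr U z Y)
    (hQ : u ∈ closure (Cr U z Q)) : ∃ i ∈ T (u + e), i ∉ X ∧ i ∉ Y ∧ i ∉ Q := by
  obtain ⟨p, hp, hpT⟩ := ((prism h.mx he hyu hX hY hQ).and_eventually (h.nhd (u + e))).exists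
  obtain ⟨i, hi⟩ := h.ne p
  refine ⟨i, hpT hi, fun h1 => ?_, fun h1 => ?_, fun h1 => ?_⟩
  · exact hp i (Or.inl h1) (h.sub p hi)
  · exact hp i (Or.inr (Or.inl h1)) (h.sub p hi)
  · exact hp i (Or.inr (Or.inr h1)) (h.sub p hi)

/-- closed form of `prism_T` -/
theorem prism_T_cl (h : Irr U T) {y z u e : ℂ} {X Y Q : Set (Fin k)} (hyu : dist u y = 1)
    (hE : ∃ᶠ e' in 𝓝 e, ‖e'‖ = 1 ∧ y + e' ∈ Cr U y X ∧ z + e' ∈ Cr U z Y)
    (hQ : u ∈ closure (Cr U z Q)) : ∃ i ∈ T (u + e), i ∉ X ∧ i ∉ Y ∧ i ∉ Q := by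
  obtain ⟨p, hp, hpT⟩ := ((prism_cl h.mx hyu hE hQ).and_eventually (h.nhd (u + e))).exists
  obtain ⟨i, hi⟩ := h.ne p
  refine ⟨i, hpT hi, fun h1 => ?_, fun h1 => ?_, fun h1 => ?_⟩
  · exact hp i (Or.inl h1) (h.sub p hi)
  · exact hp i (Or.inr (Or.inl h1)) (h.sub p hi)
  · exact hp i (Or.inr (Or.inr h1)) (h.sub p hi)

end Vale.Agent.P032.H989
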