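import Vale.Agent.P032.H989.Cross

/-!
# P032: the sweeping trick (simultaneous rotation of the letters of one circle)

`z` any centre, `x = pt z (w + 1)`, its neighbours `pt z w`, `pt z (w + 2)` on `S(z)`.  If letters
`P ∈ A` occur on arcs of `S(z)` near `pt z (w + 2)` at times which are dense on the left of the time `0`
and letters `Q ∈ B` occur on arcs near `pt z w` at times which accumulate at `0` from the right, and
`T x ⊆ {K} ∪ P ∪ Q` for all these, then `K` is absent inside `D(x)` near `z` (`sweep_in`).  With left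
and right exchanged: absent outside `D(x)` (`sweep_out`).  `quad`: the quadrant rule.  `wave`: all six
points of a column change simultaneously, `c (j - 1)` to `c j` at the point `j`.
-/

open Set Filter Topology Metric

noncomputable section

namespace Vale.Agent.P032.H989

open Vale.Agent.P032.Six Vale.Agent.P032.H187 Vale.Agent.P032.S5.H767

variable {k : ℕ} {U : Fin k → Set ℂ} {T : ℂ → Set (Fin k)}

/-- the colours of `P` are in the palettes of an open arc of `S(z)` around `pt z t` -/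
def On (U : Fin k → Set ℂ) (z : ℂ) (P : Set (Fin k)) (t : ℝ) : Prop :=
  ∀ᶠ s in 𝓝 t, P ⊆ Pal U (pt z s)

theorem isOpen_On (z : ℂ) (P : Set (Fin k)) : IsOpen {t | On U z P t} :=
  isOpen_iff_mem_nhds.2 fun _ ht => eventually_eventually_nhds.2 ht

theorem isOpen_On' (z : ℂ) (A : Set (Set (Fin k))) (w : ℝ) :
    IsOpen {t | ∃ P ∈ A, On U z P (w + t)} := by
  have h1 : {t | ∃ P ∈ A, On U z P (w + t)} = ⋃ P ∈ A, (fun t => w + t) ⁻¹' {t | On U z P t} := by
    ext t; simp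
  rw [h1]
  exact isOpen_biUnion fun P _ => (isOpen_On z P).preimage (by fun_prop)

theorem On.mem {z : ℂ} {P : Set (Fin k)} {t : ℝ} (h : On U z P t) : P ⊆ Pal U (pt z t) :=
  h.self_of_nhds

theorem On.mono {z : ℂ} {P Q : Set (Fin k)} {t : ℝ} (h : On U z P t) (hQ : Q ⊆ P) : On U z Q t :=
  Filter.Eventually.mono h fun _ hs => hQ.trans hs

theorem On.cr {z : ℂ} {P : Set (Fin k)} {t : ℝ} (h : On U z P t) : pt z t ∈ Cr U z P :=
  ⟨dist_pt z t, ev_circle z (p := fun q => P ⊆ Pal U q) h⟩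

/-- from the circle to the angle coordinate -/
theorem On.of_cr {z : ℂ} {P : Set (Fin k)} {t : ℝ} (h : pt z t ∈ Cr U z P) : On U z P t :=
  ev_pt z h.2

/-- a circle which crosses the arc -/
theorem On.notMem (h : Mx U) {z p : ℂ} {t : ℝ} {P : Set (Fin k)} (hX : On U z P t)
    (hp : dist (pt z t) p = 1) (h1 : p ≠ z) (h2 : p + z ≠ 2 * pt z t) : ∀ i ∈ P, i ∉ Pal U p :=
  (cross_ev h hX.cr hp h1 h2).self_of_nhds

/-- two unit vectors at an angle which is no multiple of `π` -/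
theorem cis_off {x y : ℝ} (h : 1 / 2 ≤ Real.sin (x - y)) : cis x + cis y ≠ 0 ∧ cis x ≠ cis y := by
  have hs := Real.sin_sub x y
  constructor
  · intro h0
    have h1 := congrArg Complex.re h0
    have h2 := congrArg Complex.im h0
    simp only [Complex.add_re, Complex.add_im, cis_re, cis_im, Complex.zero_re,
      Complex.zero_im] at h1 h2
    have h3 : Real.cos x = -Real.cos y := by linarith
    have h4 : Real.sin x = -Real.sin y := by linarith
    rw [h3, h4] at hs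
    linarith
  · intro h0
    have h1 := congrArg Complex.re h0
    have h2 := congrArg Complex.im h0
    simp only [cis_re, cis_im] at h1 h2
    rw [h1, h2] at hs
    linarith

theorem pt_shift (z : ℂ) (w n : ℝ) :
    pt z (w + n) = z + cis (w * (Real.pi / 3) + n * (Real.pi / 3)) := by
  unfold pt; congr 2; ring

/-- the point at distance one from two arc points: the letters are absent -/
theorem mid_free (h : Mx U) {z : ℂ} {w n s : ℝ} {P Q : Set (Fin k)}
    (hn : n ∈ Icc (-(1 / 4) : ℝ) (1 / 4)) (hs : s ∈ Icc (-(1 / 4) : ℝ) (1 / 4))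
    (hP : On U z P (w + 2 + n)) (hQ : On U z Q (w + s)) :
    ∀ i, i ∈ P ∪ Q → i ∉ Pal U (pt z (w + 2 + n) + pt z (w + s) - z) := by
  set α := (w + 2) * (Real.pi / 3) with hα
  set β := w * (Real.pi / 3) with hβ
  have hαβ : α = β + 2 * (Real.pi / 3) := by rw [hα, hβ]; ring
  have hsin := sin_ge hαβ hn hs
  obtain ⟨o1, o2⟩ := cis_off hsin
  set X := pt z (w + 2 + n) + pt z (w + s) - z with hX
  have e1 : pt z (w + 2 + n) = z + cis (α + n * (Real.pi / 3)) := pt_shift z (w + 2) n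
  have e2 : pt z (w + s) = z + cis (β + s * (Real.pi / 3)) := pt_shift z w s
  have eX : X = z + (cis (α + n * (Real.pi / 3)) + cis (β + s * (Real.pi / 3))) := by
    rw [hX, e1, e2]; ring
  have d1 : dist (pt z (w + 2 + n)) X = 1 := by
    rw [dist_eq_norm, e1, eX]
    have : z + cis (α + n * (Real.pi / 3)) -
        (z + (cis (α + n * (Real.pi / 3)) + cis (β + s * (Real.pi / 3)))) =
        -cis (β + s * (Real.pi / 3)) := by ring
    rw [this, norm_neg, norm_cis]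
  have d2 : dist (pt z (w + s)) X = 1 := by
    rw [dist_eq_norm, e2, eX]
    have : z + cis (β + s * (Real.pi / 3)) -
        (z + (cis (α + n * (Real.pi / 3)) + cis (β + s * (Real.pi / 3)))) =
        -cis (α + n * (Real.pi / 3)) := by ring
    rw [this, norm_neg, norm_cis]
  have hXz : X ≠ z := by
    intro h0; rw [eX] at h0
    exact o1 (by linear_combination h0)
  have hp := hP.notMem h d1 hXz (by
    intro h0; rw [eX, e1] at h0
    exact o2 (by linear_combination -h0))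
  have hq := hQ.notMem h d2 hXz (by
    intro h0; rw [eX, e2] at h0
    exact o2 (by linear_combination h0))
  rintro i (hi | hi)
  · exact hp i hi
  · exact hq i hi

theorem mid_mem (h : Irr U T) {z : ℂ} {w n s : ℝ} {P Q : Set (Fin k)} {K : Fin k}
    (hn : n ∈ Icc (-(1 / 4) : ℝ) (1 / 4)) (hs : s ∈ Icc (-(1 / 4) : ℝ) (1 / 4))
    (hT : T (pt z (w + 2 + n) + pt z (w + s) - z) ⊆ insert K (P ∪ Q))
    (hP : On U z P (w + 2 + n)) (hQ : On U z Q (w + s)) :
    pt z (w + 2 + n) + pt z (w + s) - z ∈ U K := by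
  refine h.mem_of_single fun i hi => ?_
  rcases hT hi with h1 | h1
  · exact h1
  · exact absurd (h.sub _ hi) (mid_free h.mx hn hs hP hQ i h1)

/-- one hit -/
theorem hit (h : Irr U T) {z v : ℂ} {w n s : ℝ} {P Q : Set (Fin k)} {K : Fin k}
    (hn : n ∈ Icc (-(1 / 4) : ℝ) (1 / 4)) (hs : s ∈ Icc (-(1 / 4) : ℝ) (1 / 4))
    (hT : T (pt z (w + 2 + n) + pt z (w + s) - z) ⊆ insert K (P ∪ Q))
    (hP : On U z P (w + 2 + n)) (hQ : On U z Q (w + s))
    (hG : G (v - z) ((w + 2) * (Real.pi / 3)) (w * (Real.pi / 3)) n s = 0) : K ∉ Pal U v := by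
  have hK := mid_mem h hn hs hT hP hQ
  refine h.mx.notMem' hK ?_
  have h1 := G_eq (v - z) ((w + 2) * (Real.pi / 3)) (w * (Real.pi / 3)) n s
  rw [hG] at h1
  set N := ‖v - z - (cis ((w + 2) * (Real.pi / 3) + n * (Real.pi / 3)) +
    cis (w * (Real.pi / 3) + s * (Real.pi / 3)))‖ with hN
  have h2 : N = 1 := by
    have h3 : 0 ≤ N := norm_nonneg _
    nlinarith
  rw [dist_comm, dist_eq_norm, ← h2, hN, pt_shift z (w + 2) n, pt_shift z w s]
  congr 1; ring

/-- the basic neighbourhood -/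
theorem near_mid (h : Irr U T) (z : ℂ) (w : ℝ) : ∃ δ > 0, ∀ n s : ℝ, |n| < δ → |s| < δ →
    T (pt z (w + 2 + n) + pt z (w + s) - z) ⊆ T (pt z (w + 1)) := by
  have h0 : pt z (w + 2 + 0) + pt z (w + 0) - z = pt z (w + 1) := by
    have := pt_sum z w
    rw [add_zero, add_zero]; linear_combination this
  have hc : Continuous fun x : ℝ × ℝ => pt z (w + 2 + x.1) + pt z (w + x.2) - z := by
    have := continuous_pt z
    exact ((this.comp (by fun_prop)).add (this.comp (by fun_prop))).sub continuous_const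
  have h1 : ∀ᶠ x : ℝ × ℝ in 𝓝 (0, 0), T (pt z (w + 2 + x.1) + pt z (w + x.2) - z) ⊆
      T (pt z (w + 1)) := by
    have h2 := hc.tendsto (0, 0)
    simp only [h0] at h2
    exact h2.eventually (h.nhd (pt z (w + 1)))
  obtain ⟨δ, hδ, hb⟩ := Metric.eventually_nhds_iff.1 h1
  refine ⟨δ, hδ, fun n s hn hs => ?_⟩
  have := hb (y := (n, s)) (by
    rw [Prod.dist_eq, Real.dist_eq, Real.dist_eq, sub_zero, sub_zero]; exact max_lt hn hs)
  exact this

/-- **Quadrant rule** (424): letters at the two neighbours at times near `0` do not cover `T x`. -/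
theorem quad (h : Irr U T) (z : ℂ) (w : ℝ) : ∃ δ > 0, ∀ n s : ℝ, |n| < δ → |s| < δ →
    ∀ P Q : Set (Fin k), On U z P (w + 2 + n) → On U z Q (w + s) →
      ∃ i ∈ T (pt z (w + 1)), i ∉ P ∪ Q := by
  obtain ⟨δ, hδ, hn1⟩ := near_mid h z w
  refine ⟨min δ (1 / 4), lt_min hδ (by norm_num), fun n s hn hs P Q hP hQ => ?_⟩
  have hn' := abs_lt.1 (hn.trans_le (min_le_right _ _))
  have hs' := abs_lt.1 (hs.trans_le (min_le_right _ _))
  obtain ⟨i, hi⟩ := h.ne (pt z (w + 2 + n) + pt z (w + s) - z)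
  refine ⟨i, hn1 n s (hn.trans_le (min_le_left _ _)) (hs.trans_le (min_le_left _ _)) hi,
    fun hcon => ?_⟩
  exact mid_free h.mx (n := n) (s := s) ⟨hn'.1.le, hn'.2.le⟩ ⟨hs'.1.le, hs'.2.le⟩ hP hQ i hcon
    (h.sub _ hi)

theorem dist_mid (z v : ℂ) (w : ℝ) :
    G (v - z) ((w + 2) * (Real.pi / 3)) (w * (Real.pi / 3)) 0 0 = dist v (pt z (w + 1)) ^ 2 - 1 := by
  rw [G_eq, dist_eq_norm]
  congr 3
  have h1 := pt_sum z w
  have e1 : pt z (w + 2) = z + cis ((w + 2) * (Real.pi / 3)) := rfl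
  have e2 : pt z w = z + cis (w * (Real.pi / 3)) := rfl
  rw [e1, e2] at h1
  rw [zero_mul, add_zero, add_zero]
  linear_combination -h1

/-- **Sweeping trick**, first form. -/
theorem sweep_in (h : Irr U T) {z : ℂ} {w : ℝ} {A B : Set (Set (Fin k))} {K : Fin k}
    (hT : ∀ P ∈ A, ∀ Q ∈ B, T (pt z (w + 1)) ⊆ insert K (P ∪ Q)) {δ0 : ℝ} (hδ0 : 0 < δ0)
    (hP : ∀ s t, -δ0 < s → s < t → t < 0 → ∃ r, (∃ P ∈ A, On U z P (w + 2 + r)) ∧ s < r ∧ r < t)
    (hQ : ∀ η > 0, ∃ r, (∃ Q ∈ B, On U z Q (w + r)) ∧ 0 < r ∧ r < η) :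
    ∀ᶠ v in 𝓝 z, dist v (pt z (w + 1)) < 1 → K ∉ Pal U v := by
  obtain ⟨δ1, hδ1, hn1⟩ := near_mid h z w
  set δ := min δ0 (min (δ1 / 2) (1 / 4)) with hδ
  have hδp : 0 < δ := lt_min hδ0 (lt_min (by linarith) (by norm_num))
  have hδ4 : δ ≤ 1 / 4 := (min_le_right _ _).trans (min_le_right _ _)
  have hδ2 : δ ≤ δ1 / 2 := (min_le_right _ _).trans (min_le_left _ _)
  have hαβ : (w + 2) * (Real.pi / 3) = w * (Real.pi / 3) + 2 * (Real.pi / 3) := by ring
  obtain ⟨ε, hε, hfar⟩ := G_far hαβ hδp hδ4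
  filter_upwards [Metric.ball_mem_nhds z (lt_min hε (by norm_num : (0 : ℝ) < 1 / 4))] with v hv hd
  rw [mem_ball, dist_eq_norm] at hv
  have hv1 : ‖v - z‖ ≤ 1 / 4 := (hv.trans_le (min_le_right _ _)).le
  have hv2 := hfar (v - z) (hv.trans_le (min_le_left _ _))
  have h0 : G (v - z) ((w + 2) * (Real.pi / 3)) (w * (Real.pi / 3)) 0 0 < 0 := by
    rw [dist_mid]
    have := dist_nonneg (x := v) (y := pt z (w + 1))
    nlinarith
  obtain ⟨n, ⟨P, hPA, hn⟩, s, ⟨Q, hQB, hs⟩, n1, n2, s1, s2, hG⟩ :=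
    cross_abs (G := G (v - z) ((w + 2) * (Real.pi / 3)) (w * (Real.pi / 3))) (G_cont _ _ _) hδp
    (fun s hs => G_anti hv1 hαβ hδ4 hs) (fun n hn => G_mono hv1 hαβ hδ4 hn)
    (P := {r | ∃ P ∈ A, On U z P (w + 2 + r)}) (Q := {r | ∃ Q ∈ B, On U z Q (w + r)})
    (fun s t h1 h2 h3 => by
      obtain ⟨r, hr, hr1, hr2⟩ := hP s t (by linarith [min_le_left δ0 (min (δ1 / 2) (1 / 4))]) h2 h3
      exact ⟨r, hr, hr1, hr2⟩)
    (isOpen_On' z B w) (fun η hη => by
      obtain ⟨r, hr, hr1, hr2⟩ := hQ η hη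
      exact ⟨r, hr, hr1, hr2⟩) h0 hv2.1
  refine hit h (n := n) (s := s) (P := P) (Q := Q) ⟨by linarith, by linarith⟩
    ⟨by linarith, by linarith⟩ ?_ hn hs hG
  exact (hn1 n s (by rw [abs_lt]; constructor <;> linarith)
    (by rw [abs_lt]; constructor <;> linarith)).trans (hT P hPA Q hQB)

/-- **Sweeping trick**, second form. -/
theorem sweep_out (h : Irr U T) {z : ℂ} {w : ℝ} {A B : Set (Set (Fin k))} {K : Fin k}
    (hT : ∀ P ∈ A, ∀ Q ∈ B, T (pt z (w + 1)) ⊆ insert K (P ∪ Q)) {δ0 : ℝ} (hδ0 : 0 < δ0)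
    (hQ : ∀ s t, -δ0 < s → s < t → t < 0 → ∃ r, (∃ Q ∈ B, On U z Q (w + r)) ∧ s < r ∧ r < t)
    (hP : ∀ η > 0, ∃ r, (∃ P ∈ A, On U z P (w + 2 + r)) ∧ 0 < r ∧ r < η) :
    ∀ᶠ v in 𝓝 z, 1 < dist v (pt z (w + 1)) → K ∉ Pal U v := by
  obtain ⟨δ1, hδ1, hn1⟩ := near_mid h z w
  set δ := min δ0 (min (δ1 / 2) (1 / 4)) with hδ
  have hδp : 0 < δ := lt_min hδ0 (lt_min (by linarith) (by norm_num))
  have hδ4 : δ ≤ 1 / 4 := (min_le_right _ _).trans (min_le_right _ _)
  have hδ2 : δ ≤ δ1 / 2 := (min_le_right _ _).trans (min_le_left _ _)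
  have hαβ : (w + 2) * (Real.pi / 3) = w * (Real.pi / 3) + 2 * (Real.pi / 3) := by ring
  obtain ⟨ε, hε, hfar⟩ := G_far hαβ hδp hδ4
  filter_upwards [Metric.ball_mem_nhds z (lt_min hε (by norm_num : (0 : ℝ) < 1 / 4))] with v hv hd
  rw [mem_ball, dist_eq_norm] at hv
  have hv1 : ‖v - z‖ ≤ 1 / 4 := (hv.trans_le (min_le_right _ _)).le
  have hv2 := hfar (v - z) (hv.trans_le (min_le_left _ _))
  have h0 : 0 < G (v - z) ((w + 2) * (Real.pi / 3)) (w * (Real.pi / 3)) 0 0 := by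
    rw [dist_mid]
    nlinarith
  obtain ⟨s, ⟨Q, hQB, hs⟩, n, ⟨P, hPA, hn⟩, s1, s2, n1, n2, hG⟩ := cross_abs
    (G := fun s n => -G (v - z) ((w + 2) * (Real.pi / 3)) (w * (Real.pi / 3)) n s)
    ((G_cont (v - z) ((w + 2) * (Real.pi / 3)) (w * (Real.pi / 3))).comp continuous_swap).neg hδp
    (fun n hn => (G_mono hv1 hαβ hδ4 hn).neg) (fun s hs => (G_anti hv1 hαβ hδ4 hs).neg)
    (P := {r | ∃ Q ∈ B, On U z Q (w + r)}) (Q := {r | ∃ P ∈ A, On U z P (w + 2 + r)})
    (fun s t h1 h2 h3 => by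
      obtain ⟨r, hr, hr1, hr2⟩ := hQ s t (by linarith [min_le_left δ0 (min (δ1 / 2) (1 / 4))]) h2 h3
      exact ⟨r, hr, hr1, hr2⟩)
    (isOpen_On' z A (w + 2)) (fun η hη => by
      obtain ⟨r, hr, hr1, hr2⟩ := hP η hη
      exact ⟨r, hr, hr1, hr2⟩) (by linarith) (by linarith [hv2.2])
  refine hit h (n := n) (s := s) (P := P) (Q := Q) ⟨by linarith, by linarith⟩
    ⟨by linarith, by linarith⟩ ?_ hn hs (by linarith)
  exact (hn1 n s (by rw [abs_lt]; constructor <;> linarith)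
    (by rw [abs_lt]; constructor <;> linarith)).trans (hT P hPA Q hQB)

/-- the base time -/
theorem base_time {P Q : Set ℝ} (hPo : IsOpen P) (hQo : IsOpen Q) (hPQ : ∀ t ∈ P, t ∉ Q) {m m' : ℝ}
    (hm : m ∈ P) (hm' : m' ∈ Q) (hlt : m < m')
    (hd : ∀ s t, m < s → s < t → t < m' → ∃ r, (r ∈ P ∨ r ∈ Q) ∧ s < r ∧ r < t) :
    ∃ b, m < b ∧ b < m' ∧ (∀ s t, m < s → s < t → t < b → ∃ r ∈ P, s < r ∧ r < t) ∧
      ∀ η > 0, ∃ r ∈ Q, b < r ∧ r < b + η := by
  set S : Set ℝ := {t | t ∈ Q ∧ m < t} with hS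
  have hne : S.Nonempty := ⟨m', hm', hlt⟩
  have hbd : BddBelow S := ⟨m, fun t ht => ht.2.le⟩
  obtain ⟨ρ, hρ, hρP⟩ := Metric.isOpen_iff.1 hPo m hm
  have hmS : ∀ t ∈ S, m + ρ ≤ t := by
    intro t ht
    by_contra hcon
    push Not at hcon
    exact hPQ t (hρP (by rw [mem_ball, Real.dist_eq, abs_of_pos (by linarith [ht.2])]; linarith)) ht.1
  set b := sInf S with hb
  have hmb : m + ρ ≤ b := le_csInf hne hmS
  have hbQ : b ∉ Q := by
    intro hbQ
    obtain ⟨ρ', hρ', hρQ'⟩ := Metric.isOpen_iff.1 hQo b hbQ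
    set t := b - min (ρ' / 2) (ρ / 2) with ht
    have h1 : 0 < min (ρ' / 2) (ρ / 2) := lt_min (by linarith) (by linarith)
    have h2 : t ∈ S := by
      refine ⟨hρQ' ?_, ?_⟩
      · rw [mem_ball, Real.dist_eq, abs_sub_comm, abs_of_pos (by rw [ht]; linarith)]
        rw [ht]; linarith [min_le_left (ρ' / 2) (ρ / 2)]
      · rw [ht]; linarith [min_le_right (ρ' / 2) (ρ / 2)]
    have h3 := csInf_le hbd h2
    rw [← hb] at h3
    rw [ht] at h3; linarith
  have hbm : b < m' := by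
    rcases (csInf_le hbd ⟨hm', hlt⟩ : b ≤ m').lt_or_eq with h | h
    · exact h
    · have h' : b = m' := hb.trans h
      exact absurd (h'.symm ▸ hm') hbQ
  refine ⟨b, by linarith, hbm, ?_, ?_⟩
  · intro s t h1 h2 h3
    obtain ⟨r, hr, h4, h5⟩ := hd s t h1 h2 (by linarith)
    rcases hr with hr | hr
    · exact ⟨r, hr, h4, h5⟩
    · have := csInf_le hbd (⟨hr, by linarith⟩ : r ∈ S)
      rw [← hb] at this
      linarith
  · intro η hη
    obtain ⟨r, hr, hr'⟩ := exists_lt_of_csInf_lt hne (by linarith : sInf S < b + η)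
    refine ⟨r, hr.1, ?_, hr'⟩
    rcases (csInf_le hbd hr : b ≤ r).lt_or_eq with h | h
    · exact h
    · have h' : b = r := hb.trans h
      exact absurd (h'.symm ▸ hr.1) hbQ

end Vale.Agent.P032.H989
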